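import Vale.Agent.P235.R2.H582.CapA
import Mathlib.Combinatorics.SimpleGraph.DegreeSum
import Mathlib.GroupTheory.Perm.ViaEmbedding

/-!
P235-M, RowCap (helper582), part B: inserting an edge into a face of a plane map; inserting a
pendant vertex.
-/

set_option autoImplicit false
set_option linter.all false

namespace Vale.Agent.P235.R2.H582

open Equiv.Perm Function

theorem fin_dart {V : Type} [Finite V] (G : SimpleGraph V) : Finite G.Dart :=
  Finite.of_injective (fun d : G.Dart => d.toProd) fun d d' h => SimpleGraph.Dart.ext _ _ h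

theorem card_dart {V : Type} [Finite V] (G : SimpleGraph V) :
    Nat.card G.Dart = 2 * Nat.card G.edgeSet := by
  classical
  have := Fintype.ofFinite V
  rw [Nat.card_eq_fintype_card, Nat.card_eq_fintype_card,
    SimpleGraph.dart_card_eq_twice_card_edges, SimpleGraph.edgeFinset_card]

/-- the darts of `G` inside those of `G'`; two more darts `a`, `a.symm` -/
structure Emb2 {V V' : Type} (G : SimpleGraph V) (G' : SimpleGraph V') (f : V → V')
    (ι : G.Dart → G'.Dart) (a : G'.Dart) : Prop where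
  finj : Injective f
  fst : ∀ d, (ι d).fst = f d.fst
  sy : ∀ d, (ι d).symm = ι d.symm
  inj : Injective ι
  na : ∀ d, ι d ≠ a
  nb : ∀ d, ι d ≠ a.symm
  all : ∀ y, y = a ∨ y = a.symm ∨ ∃ d, ι d = y

section

variable {V V' : Type} {G : SimpleGraph V} {G' : SimpleGraph V'} {f : V → V'}
  {ι : G.Dart → G'.Dart} {a : G'.Dart}

theorem Emb2.edges [Finite V] [Finite V'] (h : Emb2 G G' f ι a) :
    Nat.card G'.edgeSet = Nat.card G.edgeSet + 1 := by
  have := fin_dart G
  have := fin_dart G'
  have h1 : Nat.card G'.Dart = Nat.card G.Dart + 2 := by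
    have h2 : Nat.card (G.Dart ⊕ Bool) = Nat.card G'.Dart := by
      refine Nat.card_congr (Equiv.ofBijective
        (fun x : G.Dart ⊕ Bool => match x with
          | .inl d => ι d
          | .inr true => a
          | .inr false => a.symm) ⟨?_, ?_⟩)
      · rintro (d | (_ | _)) (d' | (_ | _)) hq
        · simp only at hq
          rw [h.inj hq]
        · exact absurd hq (h.nb d)
        · exact absurd hq (h.na d)
        · exact absurd hq.symm (h.nb d')
        · rfl
        · exact absurd hq a.symm_ne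
        · exact absurd hq.symm (h.na d')
        · exact absurd hq.symm a.symm_ne
        · rfl
      · intro y
        rcases h.all y with rfl | rfl | ⟨d, rfl⟩
        · exact ⟨.inr true, rfl⟩
        · exact ⟨.inr false, rfl⟩
        · exact ⟨.inl d, rfl⟩
    rw [← h2, Nat.card_sum]
    simp
  have h3 := card_dart G
  have h4 := card_dart G'
  omega

end

open Classical in
/-- the new rotation: `a` in front of `e1`, `a.symm` in front of `e2` -/
noncomputable def rot2 {D D' : Type} (σ : Equiv.Perm D) (ι : D ↪ D') (a b : D') (e1 e2 : D) :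
    Equiv.Perm D' :=
  Equiv.swap a (ι e1) * (Equiv.swap b (ι e2) * σ.viaEmbedding ι)

section rot2

variable {D D' : Type} {σ : Equiv.Perm D} {ι : D ↪ D'} {a b : D'} {e1 e2 : D}

theorem via_of {y : D'} (h : ∀ x, ι x ≠ y) : σ.viaEmbedding ι y = y :=
  Equiv.Perm.viaEmbedding_apply_of_notMem _ _ _ fun ⟨x, hx⟩ => h x hx

theorem rot2_old (na : ∀ x, ι x ≠ a) (nb : ∀ x, ι x ≠ b) {x : D} (h1 : σ x ≠ e1)
    (h2 : σ x ≠ e2) : rot2 σ ι a b e1 e2 (ι x) = ι (σ x) := by
  classical
  unfold rot2
  rw [Equiv.Perm.mul_apply, Equiv.Perm.mul_apply, Equiv.Perm.viaEmbedding_apply,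
    Equiv.swap_apply_of_ne_of_ne (nb _) fun h => h2 (ι.injective h),
    Equiv.swap_apply_of_ne_of_ne (na _) fun h => h1 (ι.injective h)]

theorem rot2_1 (na : ∀ x, ι x ≠ a) (nb : ∀ x, ι x ≠ b) (hne : e1 ≠ e2) {x : D} (h1 : σ x = e1) :
    rot2 σ ι a b e1 e2 (ι x) = a := by
  classical
  unfold rot2
  rw [Equiv.Perm.mul_apply, Equiv.Perm.mul_apply, Equiv.Perm.viaEmbedding_apply, h1,
    Equiv.swap_apply_of_ne_of_ne (nb _) fun h => hne (ι.injective h), Equiv.swap_apply_right]

theorem rot2_2 (nab : a ≠ b) (nb : ∀ x, ι x ≠ b) {x : D} (h2 : σ x = e2) :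
    rot2 σ ι a b e1 e2 (ι x) = b := by
  classical
  unfold rot2
  rw [Equiv.Perm.mul_apply, Equiv.Perm.mul_apply, Equiv.Perm.viaEmbedding_apply, h2,
    Equiv.swap_apply_right, Equiv.swap_apply_of_ne_of_ne nab.symm fun h => nb _ h.symm]

theorem rot2_a (na : ∀ x, ι x ≠ a) (nab : a ≠ b) : rot2 σ ι a b e1 e2 a = ι e1 := by
  classical
  unfold rot2
  rw [Equiv.Perm.mul_apply, Equiv.Perm.mul_apply, via_of na,
    Equiv.swap_apply_of_ne_of_ne nab fun h => na _ h.symm, Equiv.swap_apply_left]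

theorem rot2_b (na : ∀ x, ι x ≠ a) (nb : ∀ x, ι x ≠ b) (hne : e1 ≠ e2) :
    rot2 σ ι a b e1 e2 b = ι e2 := by
  classical
  unfold rot2
  rw [Equiv.Perm.mul_apply, Equiv.Perm.mul_apply, via_of nb, Equiv.swap_apply_left,
    Equiv.swap_apply_of_ne_of_ne (na _) fun h => hne (ι.injective h).symm]

end rot2

/-- **inserting an edge into a face**: `e1` starts at one end `a.fst`, `e2` at the other end
`a.snd`, both on one face.  Faces which meet `a.fst` still meet it; the other faces are copied. -/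
theorem ins_edge2 {V : Type} [Finite V] {G G' : SimpleGraph V} {σ : Equiv.Perm G.Dart}
    (hP : PlaneMap G σ) {ι : G.Dart → G'.Dart} {a : G'.Dart} (h : Emb2 G G' id ι a)
    {e1 e2 : G.Dart} (h1 : e1.fst = a.fst) (h2 : e2.fst = a.snd)
    (hs : (faceNext σ).SameCycle e1 e2) :
    ∃ σ' : Equiv.Perm G'.Dart, PlaneMap G' σ' ∧
      (∀ d, a.fst ∈ onFace σ d → a.fst ∈ onFace σ' (ι d)) ∧
      ∀ d, ¬ (faceNext σ).SameCycle d e1 →
        (∀ d', (faceNext σ).SameCycle d d' → (faceNext σ').SameCycle (ι d) (ι d')) ∧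
        ∀ y, (faceNext σ').SameCycle (ι d) y →
          ∃ d', y = ι d' ∧ (faceNext σ).SameCycle d d' := by
  classical
  have fD := fin_dart G
  have fD' := fin_dart G'
  have hne : e1 ≠ e2 := by
    intro he
    rw [he] at h1
    exact a.adj.ne (h1.symm.trans h2)
  have nab : a ≠ a.symm := a.symm_ne.symm
  let ιe : G.Dart ↪ G'.Dart := ⟨ι, h.inj⟩
  set σ' := rot2 σ ιe a a.symm e1 e2 with hσ'
  have r0 : ∀ x, σ x ≠ e1 → σ x ≠ e2 → σ' (ι x) = ι (σ x) := fun x k1 k2 =>
    rot2_old (ι := ιe) h.na h.nb k1 k2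
  have r1 : ∀ x, σ x = e1 → σ' (ι x) = a := fun x k1 => rot2_1 (ι := ιe) h.na h.nb hne k1
  have r2 : ∀ x, σ x = e2 → σ' (ι x) = a.symm := fun x k1 => rot2_2 (ι := ιe) nab h.nb k1
  have ra : σ' a = ι e1 := rot2_a (ι := ιe) h.na nab
  have rb : σ' a.symm = ι e2 := rot2_b (ι := ιe) h.na h.nb hne
  have hsp : Splt (faceNext σ) (faceNext σ') ι a a.symm e1 e2 :=
    { inj := h.inj
      na := h.na
      nb := h.nb
      nab := nab
      all := h.all
      ne := hne
      same := hs
      old := fun x k1 k2 => by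
        show σ' (ι x).symm = ι (σ x.symm)
        rw [h.sy]
        exact r0 _ k1 k2
      h1 := fun x k1 => by
        show σ' (ι x).symm = a
        rw [h.sy]
        exact r1 _ k1
      h2 := fun x k1 => by
        show σ' (ι x).symm = a.symm
        rw [h.sy]
        exact r2 _ k1
      fa := rb
      fb := by
        show σ' a.symm.symm = ι e1
        rw [SimpleGraph.Dart.symm_symm]
        exact ra }
  have hstep : ∀ z, σ'.SameCycle (ι z) (ι (σ z)) := by
    intro z
    by_cases k1 : σ z = e1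
    · have s1 := next_cycle σ' (ι z)
      have s2 := next_cycle σ' a
      rw [r1 z k1] at s1
      rw [ra] at s2
      rw [k1]
      exact s1.trans s2
    by_cases k2 : σ z = e2
    · have s1 := next_cycle σ' (ι z)
      have s2 := next_cycle σ' a.symm
      rw [r2 z k2] at s1
      rw [rb] at s2
      rw [k2]
      exact s1.trans s2
    have s1 := next_cycle σ' (ι z)
    rwa [r0 z k1 k2] at s1
  have hfst : ∀ d, (ι d).fst = d.fst := h.fst
  have hrep : ∀ y : G'.Dart, ∃ x : G.Dart, σ'.SameCycle y (ι x) ∧ x.fst = y.fst := by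
    intro y
    rcases h.all y with rfl | rfl | ⟨x, rfl⟩
    · have s2 := next_cycle σ' y
      rw [ra] at s2
      exact ⟨e1, s2, h1⟩
    · have s2 := next_cycle σ' a.symm
      rw [rb] at s2
      exact ⟨e2, s2, h2⟩
    · exact ⟨x, Equiv.Perm.SameCycle.refl _ _, (hfst x).symm⟩
  refine ⟨σ', ⟨?_, ?_, ?_⟩, ?_⟩
  · intro y
    rcases h.all y with rfl | rfl | ⟨x, rfl⟩
    · rw [ra, hfst]
      exact h1
    · rw [rb, hfst]
      exact h2
    · by_cases k1 : σ x = e1
      · rw [r1 x k1, hfst, ← hP.fst x, k1]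
        exact h1.symm
      by_cases k2 : σ x = e2
      · rw [r2 x k2, hfst, ← hP.fst x, k2]
        exact h2.symm
      rw [r0 x k1 k2, hfst, hfst, hP.fst]
  · intro y y' hy
    obtain ⟨x, hx, hxf⟩ := hrep y
    obtain ⟨x', hx', hxf'⟩ := hrep y'
    have h3 := hP.cyc x x' (by rw [hxf, hxf', hy])
    exact (hx.trans (step_cycle hstep h3)).trans hx'.symm
  · have h3 := hsp.card
    have h4 := hP.euler
    have h5 := h.edges
    show Nat.card V + Nat.card (Cy (faceNext σ')) = Nat.card G'.edgeSet + 2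
    have h6 : Nat.card V + Nat.card (Cy (faceNext σ)) = Nat.card G.edgeSet + 2 := h4
    omega
  · refine ⟨?_, fun d hd => ⟨fun d' h' => hsp.to hd h', fun y hy => hsp.from hd hy⟩⟩
    rintro d ⟨c, hc, hcf⟩
    by_cases hd : (faceNext σ).SameCycle d e1
    · rcases hsp.cov hd with k | k
      · exact ⟨a, k, rfl⟩
      · exact ⟨ι e1, k.trans hsp.be, by rw [hfst]; exact h1⟩
    · exact ⟨ι c, hsp.to hd hc, by rw [hfst]; exact hcf⟩

/-- **inserting an edge into a face**: `e1` starts at one end `a.fst`, `e2` at the other end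
`a.snd`, both on one face.  Faces which meet `a.fst` still meet it. -/
theorem ins_edge {V : Type} [Finite V] {G G' : SimpleGraph V} {σ : Equiv.Perm G.Dart}
    (hP : PlaneMap G σ) {ι : G.Dart → G'.Dart} {a : G'.Dart} (h : Emb2 G G' id ι a)
    {e1 e2 : G.Dart} (h1 : e1.fst = a.fst) (h2 : e2.fst = a.snd)
    (hs : (faceNext σ).SameCycle e1 e2) :
    ∃ σ' : Equiv.Perm G'.Dart, PlaneMap G' σ' ∧
      ∀ d, a.fst ∈ onFace σ d → a.fst ∈ onFace σ' (ι d) := by
  obtain ⟨σ', k1, k2, _⟩ := ins_edge2 hP h h1 h2 hs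
  exact ⟨σ', k1, k2⟩

open Classical in
/-- the new rotation: `a` in front of `e` -/
noncomputable def rot1 {D D' : Type} (σ : Equiv.Perm D) (ι : D ↪ D') (a : D') (e : D) :
    Equiv.Perm D' :=
  Equiv.swap a (ι e) * σ.viaEmbedding ι

section rot1

variable {D D' : Type} {σ : Equiv.Perm D} {ι : D ↪ D'} {a b : D'} {e : D}

theorem rot1_old (na : ∀ x, ι x ≠ a) {x : D} (h1 : σ x ≠ e) :
    rot1 σ ι a e (ι x) = ι (σ x) := by
  classical
  unfold rot1
  rw [Equiv.Perm.mul_apply, Equiv.Perm.viaEmbedding_apply,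
    Equiv.swap_apply_of_ne_of_ne (na _) fun k => h1 (ι.injective k)]

theorem rot1_1 {x : D} (h1 : σ x = e) : rot1 σ ι a e (ι x) = a := by
  classical
  unfold rot1
  rw [Equiv.Perm.mul_apply, Equiv.Perm.viaEmbedding_apply, h1, Equiv.swap_apply_right]

theorem rot1_a (na : ∀ x, ι x ≠ a) : rot1 σ ι a e a = ι e := by
  classical
  unfold rot1
  rw [Equiv.Perm.mul_apply, via_of na, Equiv.swap_apply_left]

theorem rot1_b (nb : ∀ x, ι x ≠ b) (nab : b ≠ a) : rot1 σ ι a e b = b := by
  classical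
  unfold rot1
  rw [Equiv.Perm.mul_apply, via_of nb, Equiv.swap_apply_of_ne_of_ne nab fun k => nb _ k.symm]

end rot1

/-- **inserting a pendant vertex** -/
theorem ins_pend2 {V : Type} [Finite V] {G : SimpleGraph V} {G' : SimpleGraph (Option V)}
    {σ : Equiv.Perm G.Dart} (hP : PlaneMap G σ) {ι : G.Dart → G'.Dart} {a : G'.Dart}
    (h : Emb2 G G' some ι a) {e : G.Dart} (h1 : a.fst = some e.fst) (h2 : a.snd = none) :
    ∃ σ' : Equiv.Perm G'.Dart, PlaneMap G' σ' ∧
      (∀ d, (faceNext σ).SameCycle d e → none ∈ onFace σ' (ι d)) ∧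
      ∀ d, ¬ (faceNext σ).SameCycle d e →
        (∀ d', (faceNext σ).SameCycle d d' → (faceNext σ').SameCycle (ι d) (ι d')) ∧
        ∀ y, (faceNext σ').SameCycle (ι d) y →
          ∃ d', y = ι d' ∧ (faceNext σ).SameCycle d d' := by
  classical
  have fD := fin_dart G
  have fD' := fin_dart G'
  have nab : a ≠ a.symm := a.symm_ne.symm
  let ιe : G.Dart ↪ G'.Dart := ⟨ι, h.inj⟩
  set σ' := rot1 σ ιe a e with hσ'
  have r0 : ∀ x, σ x ≠ e → σ' (ι x) = ι (σ x) := fun x k1 => rot1_old (ι := ιe) h.na k1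
  have r1 : ∀ x, σ x = e → σ' (ι x) = a := fun x k1 => rot1_1 (ι := ιe) k1
  have ra : σ' a = ι e := rot1_a (ι := ιe) h.na
  have rb : σ' a.symm = a.symm := rot1_b (ι := ιe) h.nb nab.symm
  have hsp : Pend (faceNext σ) (faceNext σ') ι a a.symm e :=
    { inj := h.inj
      na := h.na
      nb := h.nb
      all := h.all
      old := fun x k1 => by
        show σ' (ι x).symm = ι (σ x.symm)
        rw [h.sy]
        exact r0 _ k1
      ha := fun x k1 => by
        show σ' (ι x).symm = a
        rw [h.sy]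
        exact r1 _ k1
      fa := rb
      fb := by
        show σ' a.symm.symm = ι e
        rw [SimpleGraph.Dart.symm_symm]
        exact ra }
  have hstep : ∀ z, σ'.SameCycle (ι z) (ι (σ z)) := by
    intro z
    by_cases k1 : σ z = e
    · have s1 := next_cycle σ' (ι z)
      have s2 := next_cycle σ' a
      rw [r1 z k1] at s1
      rw [ra] at s2
      rw [k1]
      exact s1.trans s2
    have s1 := next_cycle σ' (ι z)
    rwa [r0 z k1] at s1
  have hbf : a.symm.fst = none := h2
  have hrep : ∀ y : G'.Dart, y = a.symm ∨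
      ∃ x : G.Dart, σ'.SameCycle y (ι x) ∧ some x.fst = y.fst := by
    intro y
    rcases h.all y with rfl | rfl | ⟨x, rfl⟩
    · have s2 := next_cycle σ' y
      rw [ra] at s2
      exact Or.inr ⟨e, s2, h1.symm⟩
    · exact Or.inl rfl
    · exact Or.inr ⟨x, Equiv.Perm.SameCycle.refl _ _, (h.fst x).symm⟩
  refine ⟨σ', ⟨?_, ?_, ?_⟩, ?_⟩
  · intro y
    rcases h.all y with rfl | rfl | ⟨x, rfl⟩
    · rw [ra, h.fst]
      exact h1.symm
    · rw [rb]
    · by_cases k1 : σ x = e
      · rw [r1 x k1, h.fst, ← hP.fst x, k1]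
        exact h1
      rw [r0 x k1, h.fst, h.fst, hP.fst]
  · intro y y' hy
    rcases hrep y with k | ⟨x, hx, hxf⟩
    · rcases hrep y' with k' | ⟨x', hx', hxf'⟩
      · rw [k, k']
      · exfalso
        rw [k, hbf] at hy
        rw [← hy] at hxf'
        exact absurd hxf' (by simp)
    · rcases hrep y' with k' | ⟨x', hx', hxf'⟩
      · exfalso
        rw [k', hbf] at hy
        rw [hy] at hxf
        exact absurd hxf (by simp)
      · have h3 := hP.cyc x x' (by
          have : some x.fst = some x'.fst := by rw [hxf, hxf', hy]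
          exact Option.some.inj this)
        exact (hx.trans (step_cycle hstep h3)).trans hx'.symm
  · have h3 := hsp.card
    have h4 := hP.euler
    have h5 := h.edges
    show Nat.card (Option V) + Nat.card (Cy (faceNext σ')) = Nat.card G'.edgeSet + 2
    have h6 : Nat.card V + Nat.card (Cy (faceNext σ)) = Nat.card G.edgeSet + 2 := h4
    have h7 : Nat.card (Option V) = Nat.card V + 1 := Finite.card_option
    omega
  · exact ⟨fun d hd => ⟨a.symm, (hsp.to hd).trans hsp.be.symm, hbf⟩,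
      fun d hd => ⟨fun d' h' => hsp.to h', fun y hy => hsp.from' hd hy⟩⟩

/-- **inserting a pendant vertex** -/
theorem ins_pend {V : Type} [Finite V] {G : SimpleGraph V} {G' : SimpleGraph (Option V)}
    {σ : Equiv.Perm G.Dart} (hP : PlaneMap G σ) {ι : G.Dart → G'.Dart} {a : G'.Dart}
    (h : Emb2 G G' some ι a) {e : G.Dart} (h1 : a.fst = some e.fst) (h2 : a.snd = none) :
    ∃ σ' : Equiv.Perm G'.Dart, PlaneMap G' σ' ∧
      ∀ d, (faceNext σ).SameCycle d e → none ∈ onFace σ' (ι d) := by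
  obtain ⟨σ', k1, k2, _⟩ := ins_pend2 hP h h1 h2
  exact ⟨σ', k1, k2⟩

end Vale.Agent.P235.R2.H582
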