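/-
P235-M (helper582).  Contraction of an edge without common neighbours keeps a plane map plane.
-/
import Vale.Agent.P235.R2.H611.Quo
import Vale.Agent.P235.R2.H582.CapB

set_option linter.all false
set_option autoImplicit false

namespace Vale.Agent.P235.R2.H582.Contract

open SimpleGraph Vale.Agent.P235.R2.H105 Vale.Agent.P235.Quo

/-! ## merging two cycles -/

section merge

variable {α : Type} [DecidableEq α] [Finite α]

theorem merge_same {σ : Equiv.Perm α} {e e' : α} (hn : ¬ σ.SameCycle e e') :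
    (σ * Equiv.swap e e').SameCycle e e' := by
  by_contra hc
  have hfin : ∃ n : ℕ, (σ ^ (n + 1)) e' = e' := by
    refine ⟨orderOf σ - 1, ?_⟩
    have h1 := orderOf_pos σ
    rw [Nat.sub_add_cancel h1, pow_orderOf_eq_one]
    rfl
  have key : ∀ n : ℕ, (σ * Equiv.swap e e').SameCycle e ((σ ^ (n + 1)) e') := by
    intro n
    induction n with
    | zero =>
      have h1 := next_cycle (σ * Equiv.swap e e') e
      have h2 : (σ * Equiv.swap e e') e = σ e' := by
        rw [Equiv.Perm.mul_apply, Equiv.swap_apply_left]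
      rw [h2] at h1
      rwa [zero_add, pow_one]
    | succ n ih =>
      set z := (σ ^ (n + 1)) e' with hz
      have hz1 : z ≠ e' := fun h => hc (h ▸ ih)
      have hz2 : z ≠ e := fun h => hn (Equiv.Perm.SameCycle.symm ⟨((n + 1 : ℕ) : ℤ), by
        rw [zpow_natCast, ← hz, h]⟩)
      have h1 := next_cycle (σ * Equiv.swap e e') z
      have h2 : (σ * Equiv.swap e e') z = σ z := by
        rw [Equiv.Perm.mul_apply, Equiv.swap_apply_of_ne_of_ne hz2 hz1]
      rw [h2] at h1
      rw [pow_succ', Equiv.Perm.mul_apply, ← hz]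
      exact ih.trans h1
  obtain ⟨n, hn'⟩ := hfin
  have := key n
  rw [hn'] at this
  exact hc this

theorem merge_old {σ : Equiv.Perm α} {e e' : α} (hn : ¬ σ.SameCycle e e') {x y : α}
    (h : σ.SameCycle x y) : (σ * Equiv.swap e e').SameCycle x y := by
  have hm := merge_same hn
  refine step_cycle (ι := id) (fun z => ?_) h
  show (σ * Equiv.swap e e').SameCycle z (σ z)
  by_cases h1 : z = e
  · subst h1
    have h2 := next_cycle (σ * Equiv.swap z e') e'
    rw [Equiv.Perm.mul_apply, Equiv.swap_apply_right] at h2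
    exact hm.trans h2
  by_cases h2 : z = e'
  · subst h2
    have h2 := next_cycle (σ * Equiv.swap e z) e
    rw [Equiv.Perm.mul_apply, Equiv.swap_apply_left] at h2
    exact hm.symm.trans h2
  have h3 := next_cycle (σ * Equiv.swap e e') z
  rwa [Equiv.Perm.mul_apply, Equiv.swap_apply_of_ne_of_ne h1 h2] at h3

end merge

section con

variable {V : Type} {G : SimpleGraph V} {x y : V}

theorem pinch_eq (hxy : x ≠ y) {u v : V} (h : pinch x y hxy u = pinch x y hxy v) :
    u = v ∨ (u = x ∧ v = y) ∨ (u = y ∧ v = x) := by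
  classical
  unfold pinch at h
  by_cases hu : u = y <;> by_cases hv : v = y
  · exact Or.inl (hu.trans hv.symm)
  · rw [dif_pos hu, dif_neg hv] at h
    exact Or.inr (Or.inr ⟨hu, (congrArg Subtype.val h).symm⟩)
  · rw [dif_neg hu, dif_pos hv] at h
    exact Or.inr (Or.inl ⟨congrArg Subtype.val h, hv⟩)
  · rw [dif_neg hu, dif_neg hv] at h
    exact Or.inl (congrArg Subtype.val h)

theorem pinch_xy (hxy : x ≠ y) : pinch x y hxy x = pinch x y hxy y := by
  classical
  unfold pinch
  rw [dif_neg hxy, dif_pos rfl]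

theorem pinch_surj (hxy : x ≠ y) : Function.Surjective (pinch x y hxy) := by
  classical
  rintro ⟨v, hv⟩
  refine ⟨v, ?_⟩
  unfold pinch
  rw [dif_neg hv]

/-- the dart of the quotient of a dart other than the contracted edge -/
theorem pinch_ne (hxy : G.Adj x y) (d : G.Dart) (h1 : d ≠ ⟨(x, y), hxy⟩)
    (h2 : d ≠ ⟨(y, x), hxy.symm⟩) : pinch x y hxy.ne d.fst ≠ pinch x y hxy.ne d.snd := by
  intro h
  rcases pinch_eq hxy.ne h with h | ⟨h3, h4⟩ | ⟨h3, h4⟩
  · exact d.adj.ne h
  · exact h1 (SimpleGraph.Dart.ext _ _ (Prod.ext h3 h4))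
  · exact h2 (SimpleGraph.Dart.ext _ _ (Prod.ext h3 h4))

/-- the dart of the quotient -/
noncomputable def pd (hxy : G.Adj x y)
    (d : {d : G.Dart // d ≠ ⟨(x, y), hxy⟩ ∧ d ≠ ⟨(y, x), hxy.symm⟩}) :
    (quo G (pinch x y hxy.ne)).Dart :=
  ⟨(pinch x y hxy.ne d.1.fst, pinch x y hxy.ne d.1.snd),
    pinch_ne hxy d.1 d.2.1 d.2.2, d.1.fst, d.1.snd, d.1.adj, rfl, rfl⟩

theorem pd_bij (hxy : G.Adj x y) (hno : ∀ v, G.Adj x v → ¬ G.Adj y v) :
    Function.Bijective (pd (G := G) hxy) := by
  constructor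
  · rintro ⟨d, h1, h2⟩ ⟨d', h3, h4⟩ h
    have e1 : pinch x y hxy.ne d.fst = pinch x y hxy.ne d'.fst :=
      congrArg (fun d : (quo G (pinch x y hxy.ne)).Dart => d.fst) h
    have e2 : pinch x y hxy.ne d.snd = pinch x y hxy.ne d'.snd :=
      congrArg (fun d : (quo G (pinch x y hxy.ne)).Dart => d.snd) h
    have a1 := d.adj
    have a2 := d'.adj
    refine Subtype.ext (SimpleGraph.Dart.ext _ _ (Prod.ext ?_ ?_))
    · rcases pinch_eq hxy.ne e1 with h5 | ⟨h5, h6⟩ | ⟨h5, h6⟩
      · exact h5
      · exfalso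
        rcases pinch_eq hxy.ne e2 with h7 | ⟨h7, h8⟩ | ⟨h7, h8⟩
        · rw [h5] at a1
          rw [h6, ← h7] at a2
          exact hno _ a1 a2
        · exact a2.ne (h6.trans h8.symm)
        · exact h1 (SimpleGraph.Dart.ext _ _ (Prod.ext h5 h7))
      · exfalso
        rcases pinch_eq hxy.ne e2 with h7 | ⟨h7, h8⟩ | ⟨h7, h8⟩
        · rw [h5] at a1
          rw [h6, ← h7] at a2
          exact hno _ a2 a1
        · exact h2 (SimpleGraph.Dart.ext _ _ (Prod.ext h5 h7))
        · exact a2.ne (h6.trans h8.symm)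
    · rcases pinch_eq hxy.ne e2 with h5 | ⟨h5, h6⟩ | ⟨h5, h6⟩
      · exact h5
      · exfalso
        rcases pinch_eq hxy.ne e1 with h7 | ⟨h7, h8⟩ | ⟨h7, h8⟩
        · rw [h5] at a1
          rw [h6, ← h7] at a2
          exact hno _ a1.symm a2.symm
        · exact a2.ne (h8.trans h6.symm)
        · exact h2 (SimpleGraph.Dart.ext _ _ (Prod.ext h7 h5))
      · exfalso
        rcases pinch_eq hxy.ne e1 with h7 | ⟨h7, h8⟩ | ⟨h7, h8⟩
        · rw [h5] at a1
          rw [h6, ← h7] at a2
          exact hno _ a2.symm a1.symm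
        · exact h1 (SimpleGraph.Dart.ext _ _ (Prod.ext h7 h5))
        · exact a2.ne (h8.trans h6.symm)
  · rintro ⟨⟨w, w'⟩, hw, u, v, huv, h1, h2⟩
    change w ≠ w' at hw
    change pinch x y hxy.ne u = w at h1
    change pinch x y hxy.ne v = w' at h2
    subst h1 h2
    refine ⟨⟨⟨(u, v), huv⟩, ?_, ?_⟩, rfl⟩
    · intro h
      have e1 : u = x := congrArg (fun d : G.Dart => d.fst) h
      have e2 : v = y := congrArg (fun d : G.Dart => d.snd) h
      rw [e1, e2] at hw
      exact hw (pinch_xy hxy.ne)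
    · intro h
      have e1 : u = y := congrArg (fun d : G.Dart => d.fst) h
      have e2 : v = x := congrArg (fun d : G.Dart => d.snd) h
      rw [e1, e2] at hw
      exact hw (pinch_xy hxy.ne).symm

end con

theorem rowCon : RowCon := by
  intro V _ G σ x y hxy hG hσ hno hcard
  classical
  set π := pinch x y hxy.ne with hπ
  set Q := quo G π with hQ
  set e : G.Dart := ⟨(x, y), hxy⟩ with he
  set e' : G.Dart := ⟨(y, x), hxy.symm⟩ with he'
  have hD : Finite G.Dart := fin_dart G
  have hDQ : Finite Q.Dart := fin_dart Q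
  have hes : e.symm = e' := rfl
  have hes' : e'.symm = e := rfl
  have hne : e ≠ e' := fun h => hxy.ne (congrArg (fun d : G.Dart => d.fst) h)
  let P : {d : G.Dart // d ≠ e ∧ d ≠ e'} ≃ Q.Dart := Equiv.ofBijective (pd hxy) (pd_bij hxy hno)
  let ι : Q.Dart → G.Dart := fun d => (P.symm d).1
  have ι1 : ∀ d, ι d ≠ e := fun d => (P.symm d).2.1
  have ι2 : ∀ d, ι d ≠ e' := fun d => (P.symm d).2.2
  have ιinj : Function.Injective ι := fun a b h => P.symm.injective (Subtype.ext h)
  have ιsurj : ∀ z : G.Dart, z ≠ e → z ≠ e' → ∃ d, ι d = z := by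
    intro z h1 h2
    refine ⟨P ⟨z, h1, h2⟩, ?_⟩
    show (P.symm (P ⟨z, h1, h2⟩)).1 = z
    rw [P.symm_apply_apply]
  have ιfst : ∀ d : Q.Dart, π (ι d).fst = d.fst := by
    intro d
    have h1 : P (P.symm d) = d := P.apply_symm_apply d
    exact congrArg (fun d : Q.Dart => d.fst) h1
  have ιsnd : ∀ d : Q.Dart, π (ι d).snd = d.snd := by
    intro d
    have h1 : P (P.symm d) = d := P.apply_symm_apply d
    exact congrArg (fun d : Q.Dart => d.snd) h1
  have ιsymm : ∀ d : Q.Dart, ι d.symm = (ι d).symm := by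
    intro d
    have h0 : (ι d).symm ≠ e ∧ (ι d).symm ≠ e' := by
      constructor
      · intro h
        apply ι2 d
        rw [← hes, ← h, SimpleGraph.Dart.symm_symm]
      · intro h
        apply ι1 d
        rw [← hes', ← h, SimpleGraph.Dart.symm_symm]
    have h1 : d.symm = P ⟨(ι d).symm, h0⟩ := by
      refine SimpleGraph.Dart.ext _ _ (Prod.ext ?_ ?_)
      · exact (ιsnd d).symm
      · exact (ιfst d).symm
    show (P.symm d.symm).1 = _
    rw [h1, P.symm_apply_apply]
  -- rotations
  have hnc : ¬ σ.SameCycle e e' := by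
    intro h
    have h1 : e.fst = e'.fst := const_cycle' (c := fun d : G.Dart => d.fst) hσ.fst h
    exact hxy.ne h1
  set τ : Equiv.Perm G.Dart := σ * Equiv.swap e e' with hτ
  set ρ₁ := byp τ e with hρ₁
  set ρ := byp ρ₁ e' with hρ
  have hρe : ρ e = e := byp_fix hne byp_self
  have hρe' : ρ e' = e' := byp_self
  have hρn : ∀ z, z ≠ e → ρ z ≠ e := fun z h h' => h (ρ.injective (h'.trans hρe.symm))
  have hρn' : ∀ z, z ≠ e' → ρ z ≠ e' := fun z h h' => h (ρ.injective (h'.trans hρe'.symm))
  have hex : ∀ d : Q.Dart, ∃ d' : Q.Dart, ι d' = ρ (ι d) := fun d =>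
    ιsurj _ (hρn _ (ι1 d)) (hρn' _ (ι2 d))
  choose f hf using hex
  have hfi : Function.Injective f := by
    intro d d' h
    apply ιinj
    apply ρ.injective
    rw [← hf, ← hf, h]
  set σ' : Equiv.Perm Q.Dart := Equiv.ofBijective f (Finite.injective_iff_bijective.1 hfi) with hσ'
  have hup : ∀ d, ι (σ' d) = ρ (ι d) := hf
  -- labels of the rotation
  have hsw : ∀ {β : Type} (c g : G.Dart → β), (∀ z, c (σ z) = g z) →
      ∀ z, c (τ z) = g (Equiv.swap e e' z) := by
    intro β c g h z
    show c (σ (Equiv.swap e e' z)) = _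
    rw [h]
  have hswe : Equiv.swap e e' e = e' := Equiv.swap_apply_left _ _
  have hswe' : Equiv.swap e e' e' = e := Equiv.swap_apply_right _ _
  have hswn : ∀ z, z ≠ e → z ≠ e' → Equiv.swap e e' z = z := fun z h1 h2 =>
    Equiv.swap_apply_of_ne_of_ne h1 h2
  have hπf : ∀ z, π (Equiv.swap e e' z).fst = π z.fst := by
    intro z
    by_cases h1 : z = e
    · rw [h1, hswe]
      exact (pinch_xy hxy.ne).symm
    by_cases h2 : z = e'
    · rw [h2, hswe']
      exact pinch_xy hxy.ne
    rw [hswn z h1 h2]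
  have hl0 : ∀ z, π (τ z).fst = π z.fst := by
    intro z
    have h1 := hsw (fun d : G.Dart => π d.fst) (fun d : G.Dart => π d.fst)
      (fun z => by show π (σ z).fst = _; rw [hσ.fst]) z
    exact h1.trans (hπf z)
  have hl1 : ∀ z, π (ρ₁ z).fst = π z.fst := fun z =>
    byp_label (c := fun d : G.Dart => π d.fst) (g := fun d : G.Dart => π d.fst) hl0 rfl z
  have hl2 : ∀ z, π (ρ z).fst = π z.fst := fun z =>
    byp_label (c := fun d : G.Dart => π d.fst) (g := fun d : G.Dart => π d.fst) hl1 rfl z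
  have hfst : ∀ d, (σ' d).fst = d.fst := by
    intro d
    rw [← ιfst, hup, hl2, ιfst]
  -- cyclic
  have hcyc : ∀ d d' : Q.Dart, d.fst = d'.fst → σ'.SameCycle d d' := by
    intro d d' h
    have h0 : τ.SameCycle (ι d) (ι d') := by
      have h1 : π (ι d).fst = π (ι d').fst := by rw [ιfst, ιfst, h]
      rcases pinch_eq hxy.ne h1 with h2 | ⟨h2, h3⟩ | ⟨h2, h3⟩
      · exact merge_old hnc (hσ.cyc _ _ h2)
      · exact ((merge_old hnc (hσ.cyc (ι d) e h2)).trans (merge_same hnc)).trans
          (merge_old hnc (hσ.cyc e' (ι d') h3.symm))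
      · exact ((merge_old hnc (hσ.cyc (ι d) e' h2)).trans (merge_same hnc).symm).trans
          (merge_old hnc (hσ.cyc e (ι d') h3.symm))
    have h2 : ρ.SameCycle (ι d) (ι d') :=
      byp_same (byp_same h0 (ι1 d) (ι1 d')) (ι2 d) (ι2 d')
    obtain ⟨n, hn⟩ := h2.exists_nat_pow_eq
    have h3 : ∀ n : ℕ, ι ((σ' ^ n) d) = (ρ ^ n) (ι d) := by
      intro n
      induction n with
      | zero => rfl
      | succ n ih => rw [pow_succ', pow_succ', Equiv.Perm.mul_apply, Equiv.Perm.mul_apply, hup, ih]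
    refine ⟨n, ?_⟩
    rw [zpow_natCast]
    apply ιinj
    rw [h3, hn]
  -- faces
  let q : G.Dart → Cy (faceNext σ) := Quotient.mk _
  have hq : ∀ d, q (faceNext σ d) = q d := fun d => Quotient.sound ⟨-1, by simp⟩
  have hq1 : ∀ z : G.Dart, q (σ z) = q z.symm := by
    intro z
    have := hq z.symm
    rwa [show faceNext σ z.symm = σ z from congrArg σ (SimpleGraph.Dart.symm_symm z)] at this
  have hq2 : ∀ z, q (τ z) = q (Equiv.swap e e' z).symm :=
    hsw q (fun z => q z.symm) hq1
  have hq3 : ∀ z, q (ρ₁ z) = q (Equiv.swap e e' z).symm :=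
    byp_label (g := fun z : G.Dart => q (Equiv.swap e e' z).symm) hq2 (by
      show q (Equiv.swap e e' e).symm = q e
      rw [hswe, hes'])
  have hq4 : ∀ z, q (ρ z) = q (Equiv.swap e e' z).symm :=
    byp_label (g := fun z : G.Dart => q (Equiv.swap e e' z).symm) hq3 (by
      show q (Equiv.swap e e' e').symm = q e'
      rw [hswe', hes])
  have hinv : ∀ d : Q.Dart, q (ι (faceNext σ' d)) = q (ι d) := by
    intro d
    show q (ι (σ' d.symm)) = _
    rw [hup, hq4, hswn _ (ι1 _) (ι2 _), ιsymm, SimpleGraph.Dart.symm_symm]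
  -- each face has another dart
  have hnof : ∀ z : G.Dart, faceNext σ z ≠ z := by
    intro z h
    have h1 : (faceNext σ z).fst = z.snd := hσ.fst z.symm
    rw [h] at h1
    exact z.adj.ne h1
  have hdeg : ¬ (faceNext σ e = e' ∧ faceNext σ e' = e) := by
    rintro ⟨h1, h2⟩
    have hx : ∀ v, G.Adj x v → v = y := by
      intro v hv
      have h3 : σ.SameCycle e ⟨(x, v), hv⟩ := hσ.cyc _ _ rfl
      have h4 : σ e = e := h2
      have h5 := h3.eq_of_left h4
      exact (congrArg (fun d : G.Dart => d.snd) h5).symm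
    have hy : ∀ v, G.Adj y v → v = x := by
      intro v hv
      have h3 : σ.SameCycle e' ⟨(y, v), hv⟩ := hσ.cyc _ _ rfl
      have h4 : σ e' = e' := h1
      have h5 := h3.eq_of_left h4
      exact (congrArg (fun d : G.Dart => d.snd) h5).symm
    have hall : ∀ v : V, v = x ∨ v = y := by
      intro v
      obtain ⟨w⟩ := hG.preconnected v x
      have : ∀ u v : V, G.Walk u v → (v = x ∨ v = y) → (u = x ∨ u = y) := by
        intro u v w
        induction w with
        | nil => exact id
        | cons ha _ ih =>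
          intro h
          rcases ih h with rfl | rfl
          · exact Or.inr (hx _ ha.symm)
          · exact Or.inl (hy _ ha.symm)
      exact this _ _ w (Or.inl rfl)
    have hle : Nat.card V ≤ 2 := by
      have h6 : Function.Surjective (fun b : Bool => if b then x else y) := by
        intro v
        rcases hall v with rfl | rfl
        · exact ⟨true, rfl⟩
        · exact ⟨false, rfl⟩
      have := Nat.card_le_card_of_surjective _ h6
      simpa using this
    omega
  have hlab : ∀ F : Cy (faceNext σ), ∃ d : Q.Dart, q (ι d) = F := by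
    intro F
    induction F using Quotient.inductionOn with
    | h z =>
    change ∃ d : Q.Dart, q (ι d) = q z
    by_cases h1 : z = e
    · by_cases h2 : faceNext σ e = e'
      · have h3 : faceNext σ e' ≠ e := fun h => hdeg ⟨h2, h⟩
        obtain ⟨d, hd⟩ := ιsurj _ h3 (hnof e')
        refine ⟨d, ?_⟩
        rw [hd, hq, ← h2, hq, h1]
      · obtain ⟨d, hd⟩ := ιsurj _ (hnof e) h2
        exact ⟨d, by rw [hd, hq, h1]⟩
    by_cases h1' : z = e'
    · by_cases h2 : faceNext σ e' = e
      · have h3 : faceNext σ e ≠ e' := fun h => hdeg ⟨h, h2⟩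
        obtain ⟨d, hd⟩ := ιsurj _ (hnof e) h3
        refine ⟨d, ?_⟩
        rw [hd, hq, ← h2, hq, h1']
      · obtain ⟨d, hd⟩ := ιsurj _ h2 (hnof e')
        exact ⟨d, by rw [hd, hq, h1']⟩
    obtain ⟨d, hd⟩ := ιsurj z h1 h1'
    exact ⟨d, by rw [hd]⟩
  let C : Cy (faceNext σ') → Cy (faceNext σ) := Quotient.lift (fun d => q (ι d))
    fun d d' h => const_cycle' (c := fun d => q (ι d)) hinv h
  have hC : Function.Surjective C := by
    intro F
    obtain ⟨d, hd⟩ := hlab F
    exact ⟨Quotient.mk _ d, hd⟩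
  have hle := Nat.card_le_card_of_surjective C hC
  -- counting
  have hVc : Nat.card V = Nat.card {v : V // v ≠ y} + 1 := by
    have : Fintype V := Fintype.ofFinite _
    rw [Nat.card_eq_fintype_card, Nat.card_eq_fintype_card, Fintype.card_subtype_compl,
      Fintype.card_subtype_eq]
    have : 0 < Fintype.card V := Fintype.card_pos_iff.2 ⟨x⟩
    omega
  have hDc : Nat.card G.Dart = Nat.card Q.Dart + 2 := by
    have h1 : Nat.card (Q.Dart ⊕ Bool) = Nat.card G.Dart := by
      refine Nat.card_congr (Equiv.ofBijective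
        (fun z : Q.Dart ⊕ Bool => match z with
          | .inl d => ι d
          | .inr true => e
          | .inr false => e') ⟨?_, ?_⟩)
      · rintro (a | _ | _) (b | _ | _) h
        · exact congrArg _ (ιinj h)
        · exact absurd h (ι2 a)
        · exact absurd h (ι1 a)
        · exact absurd h.symm (ι2 b)
        · rfl
        · exact absurd h.symm hne
        · exact absurd h.symm (ι1 b)
        · exact absurd h hne
        · rfl
      · intro z
        by_cases h1 : z = e
        · exact ⟨.inr true, h1.symm⟩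
        by_cases h2 : z = e'
        · exact ⟨.inr false, h2.symm⟩
        obtain ⟨d, hd⟩ := ιsurj z h1 h2
        exact ⟨.inl d, hd⟩
    rw [← h1, Nat.card_sum]
    simp
  have hE1 := card_dart G
  have hE2 := card_dart Q
  have hQc : Q.Connected := quo_conn hG (pinch_surj hxy.ne)
  have heul := hσ.euler
  refine ⟨σ', SurfMap.plane hQc ⟨hfst, hcyc, ?_⟩⟩
  show Nat.card Q.edgeSet + 2 ≤ Nat.card {v : V // v ≠ y} + Nat.card (Cy (faceNext σ')) + 0
  have h' : Nat.card V + Nat.card (Cy (faceNext σ)) = Nat.card G.edgeSet + 2 := heul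
  omega

end Vale.Agent.P235.R2.H582.Contract
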