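import Vale.Agent.P235.R2.H582.Cap

/-!
P235-M, RowCap2 (helper582): a new vertex joined to any vertices of one face; the other faces
survive.
-/

set_option autoImplicit false
set_option linter.all false

namespace Vale.Agent.P235.R2.H582

open Equiv.Perm Function
open Vale.Agent.P235.H341W (capG)

/-- **RowCap with both invariants**: every dart of the face of `d₀` is on a face which meets the new
vertex; every other face is copied -/
theorem cap_aux2 {V : Type} [Finite V] {G : SimpleGraph V} {σ : Equiv.Perm G.Dart} {d₀ : G.Dart}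
    (hP : PlaneMap G σ) (s : Finset V) (hs : s.Nonempty) (hsub : (s : Set V) ⊆ onFace σ d₀) :
    ∀ T : Set V, T = s → ∃ σ' : Equiv.Perm (capG G T).Dart, PlaneMap (capG G T) σ' ∧
      (∀ d, (faceNext σ).SameCycle d₀ d → none ∈ onFace σ' (cD G T d)) ∧
      ∀ d, ¬ (faceNext σ).SameCycle d₀ d →
        (∀ d', (faceNext σ).SameCycle d d' → (faceNext σ').SameCycle (cD G T d) (cD G T d')) ∧
        ∀ y, (faceNext σ').SameCycle (cD G T d) y →
          ∃ d', y = cD G T d' ∧ (faceNext σ).SameCycle d d' := by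
  classical
  induction hs using Finset.Nonempty.cons_induction with
  | singleton t =>
    intro T hT
    have hT' : T = {t} := by rw [hT]; simp
    subst hT'
    obtain ⟨e, he, hef⟩ := hsub (by simp : t ∈ ((({t} : Finset V)) : Set V))
    obtain ⟨σ', h1, h2, h3⟩ := ins_pend2 hP (emb_pend G t) (e := e) (by rw [hef]; rfl) rfl
    exact ⟨σ', h1, fun d hd => h2 d (hd.symm.trans he),
      fun d hd => h3 d fun hc => hd (he.trans hc.symm)⟩
  | cons t s ht hs ih =>
    intro T hT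
    have hT' : T = insert t (s : Set V) := by rw [hT]; simp
    obtain ⟨σ₁, p1, p2, p3⟩ := ih (fun x hx => hsub (by simp [Finset.mem_coe.1 hx]))
      (s : Set V) rfl
    have hsT : (s : Set V) ⊆ T := by rw [hT']; exact Set.subset_insert _ _
    have htT : t ∈ T := by rw [hT']; exact Set.mem_insert _ _
    obtain ⟨e, he, hef⟩ := hsub (by simp : t ∈ ((Finset.cons t s ht : Finset V) : Set V))
    obtain ⟨c, hc, hcf⟩ := p2 e he
    have hemb := emb_edge G (t := t) (fun h => ht (Finset.mem_coe.1 h)) hT' hsT htT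
    obtain ⟨σ₂, q1, q2, q3⟩ := ins_edge2 p1 hemb (e1 := c) (e2 := cD G s e) hcf
      (by rw [cD_fst, hef]; rfl) hc.symm
    refine ⟨σ₂, q1, fun d hd => q2 (cD G s d) (p2 d hd), fun d hd => ?_⟩
    obtain ⟨a1, a2⟩ := p3 d hd
    have hnc : ¬ (faceNext σ₁).SameCycle (cD G s d) c := by
      intro hcc
      obtain ⟨d', hd', _⟩ := a2 c hcc
      rw [hd', cD_fst] at hcf
      exact absurd hcf (by simp)
    obtain ⟨b1, b2⟩ := q3 (cD G s d) hnc
    refine ⟨fun d' h' => b1 _ (a1 d' h'), fun y hy => ?_⟩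
    obtain ⟨y1, e1, h1⟩ := b2 y hy
    obtain ⟨d', e2, h2⟩ := a2 y1 h1
    refine ⟨d', ?_, h2⟩
    rw [e1, e2]
    rfl

/-- **RowCap2** in full: all faces besides the one of `d₀` are copied dart by dart -/
theorem rowCapFull {V : Type} [Finite V] {G : SimpleGraph V} {σ : Equiv.Perm G.Dart} {d₀ : G.Dart}
    {T : Set V} (hP : PlaneMap G σ) (hne : T.Nonempty) (hT : T ⊆ onFace σ d₀) :
    ∃ σ' : Equiv.Perm (capG G T).Dart, PlaneMap (capG G T) σ' ∧
      (∀ d, (faceNext σ).SameCycle d₀ d → none ∈ onFace σ' (cD G T d)) ∧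
      ∀ d, ¬ (faceNext σ).SameCycle d₀ d → ∀ v, v ∈ onFace σ d ↔
        some v ∈ onFace σ' (cD G T d) := by
  classical
  have hfin : T.Finite := Set.toFinite T
  obtain ⟨σ', h1, h2, h3⟩ := cap_aux2 (d₀ := d₀) hP hfin.toFinset (by simpa using hne)
    (by simpa using hT) T (by simp)
  refine ⟨σ', h1, h2, fun d hd v => ?_⟩
  obtain ⟨a1, a2⟩ := h3 d hd
  constructor
  · rintro ⟨d', k1, k2⟩
    exact ⟨cD G T d', a1 d' k1, by rw [cD_fst, k2]⟩
  · rintro ⟨y, k1, k2⟩
    obtain ⟨d', e1, h4⟩ := a2 y k1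
    rw [e1, cD_fst] at k2
    exact ⟨d', h4, Option.some.inj k2⟩

/-- **RowCap2** -/
theorem rowCap2 : ∀ (V : Type) [Finite V] (G : SimpleGraph V) (σ : Equiv.Perm G.Dart)
    (d₀ : G.Dart) (T : Set V), G.Connected → PlaneMap G σ → T.Nonempty → T ⊆ onFace σ d₀ →
    ∃ σ' : Equiv.Perm (capG G T).Dart, PlaneMap (capG G T) σ' ∧
      ∀ d₂ : G.Dart, ¬ (faceNext σ).SameCycle d₀ d₂ → ∃ d', ∀ v ∈ onFace σ d₂,
        some v ∈ onFace σ' d' := by
  intro V _ G σ d₀ T _ hP hne hT
  obtain ⟨σ', h1, _, h3⟩ := rowCapFull hP hne hT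
  exact ⟨σ', h1, fun d₂ hd => ⟨cD G T d₂, fun v hv => (h3 d₂ hd v).1 hv⟩⟩

end Vale.Agent.P235.R2.H582
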