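import Vale.Agent.P235.R2.H611.K33a
import Vale.Agent.P235.H536.PlaneDefs
import Vale.Agent.P235.Comp.Core

/-!
P235-M (helper582).  Klein, Plotkin, Rao for plane graphs, random retractions onto arbitrary sets
and rounds which delete arbitrary sets: the literal rows (statements only).
-/

set_option autoImplicit false

namespace Vale.Agent.P235.Kpr

open Vale.Agent.P235

/-- a potential of the graph `H`: distances to one root in every component -/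
structure Pot {V : Type} (H : SimpleGraph V) (ℓ : Sym2 V → ℝ) (f : V → ℝ) (r : V → V) : Prop where
  lip : ∀ u v, H.Adj u v → |f u - f v| ≤ ℓ s(u, v)
  same : ∀ u v, H.Reachable u v → r u = r v
  zero : ∀ v, f (r v) = 0
  nonneg : ∀ v, 0 ≤ f v
  desc : ∀ v, v ≠ r v → ∃ u, H.Adj v u ∧ f v = f u + ℓ s(v, u)

/-- the number of the slab of width `Δ` (shifted by `θ`) which contains `v` -/
noncomputable def slab {V : Type} (f : V → ℝ) (Δ θ : ℝ) (v : V) : ℤ := ⌊(f v + θ) / Δ⌋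

/-- the edges of `H` with both ends in the same slab -/
def chop {V : Type} (H : SimpleGraph V) (f : V → ℝ) (Δ θ : ℝ) : SimpleGraph V where
  Adj u v := H.Adj u v ∧ slab f Δ θ u = slab f Δ θ v
  symm := ⟨fun _ _ h => ⟨h.1.symm, h.2.symm⟩⟩
  loopless := ⟨fun _ h => h.1.ne rfl⟩

/-- a partial `K_{n,3}` minor of `G`: connected sets `A 0, …, A (n-1)` and `X 0, X 1, X 2`, all in
the component of `x 0` of the graph `H`, `X k` near `x k`, and vertices `y k` of `X k` which are far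
from all `A j` in `H` -/
structure Stage {V : Type} (G : SimpleGraph V) (ℓ : Sym2 V → ℝ) (Δ : ℝ) (x : Fin 3 → V)
    (H : SimpleGraph V) (n : ℕ) (A : ℕ → Set V) (X : Fin 3 → Set V) (y : Fin 3 → V) (ρ : ℝ) :
    Prop where
  aconn : ∀ j < n, (G.induce (A j)).Connected
  adisj : ∀ i < n, ∀ j < n, i ≠ j → Disjoint (A i) (A j)
  xconn : ∀ k, (G.induce (X k)).Connected
  ax : ∀ j < n, ∀ k, Disjoint (A j) (X k)
  adj : ∀ j < n, ∀ k, ∃ a ∈ A j, ∃ b ∈ X k, G.Adj a b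
  xmem : ∀ k, x k ∈ X k
  ymem : ∀ k, y k ∈ X k
  ball : ∀ k, ∀ v ∈ X k, pathDist G ℓ (x k) v ≤ ρ
  areach : ∀ j < n, ∀ a ∈ A j, H.Reachable (x 0) a
  xreach : ∀ k, ∀ v ∈ X k, H.Reachable (x 0) v
  far : ∀ j < n, ∀ k, ∀ a ∈ A j, ∀ w : H.Walk (y k) a, Δ < (w.edges.map ℓ).sum

/-- (R1) no `K_{3,3}` minor -/
def RowMinor : Prop :=
  ∀ (V : Type) [Finite V] (G : SimpleGraph V), G.Connected →
    (∃ σ : Equiv.Perm G.Dart, PlaneMap G σ) → ∀ (A S : Fin 3 → Set V),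
    (∀ i, (G.induce (A i)).Connected) → (∀ i, (G.induce (S i)).Connected) →
    (∀ i j, i ≠ j → Disjoint (A i) (A j)) → (∀ i j, i ≠ j → Disjoint (S i) (S j)) →
    (∀ i j, Disjoint (A i) (S j)) → (∀ i j, ∃ a ∈ A i, ∃ b ∈ S j, G.Adj a b) → False

/-- (R2) potentials exist -/
def RowPot : Prop :=
  ∀ (V : Type) [Finite V] (H : SimpleGraph V) (ℓ : Sym2 V → ℝ), (∀ e ∈ H.edgeSet, 0 < ℓ e) →
    ∃ f r, Pot H ℓ f r

/-- (R3) the number of shifts which separate two reals -/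
def RowCount : Prop :=
  ∀ (a b t Δ : ℝ) (N : ℕ), |a - b| ≤ t → 0 < Δ → 0 < N →
    ({k : Fin N | ⌊(a + (k : ℕ) * Δ / N) / Δ⌋ ≠ ⌊(b + (k : ℕ) * Δ / N) / Δ⌋}.ncard : ℝ) ≤
      N * t / Δ + 1

/-- (R4) one more set `A n` -/
def RowStage : Prop :=
  ∀ (V : Type) [Finite V] (G H : SimpleGraph V) (ℓ : Sym2 V → ℝ) (Δ θ ρ : ℝ) (x : Fin 3 → V)
    (n : ℕ) (A : ℕ → Set V) (X : Fin 3 → Set V) (y : Fin 3 → V) (f : V → ℝ) (r : V → V),
    G.Connected → (∀ e ∈ G.edgeSet, 0 < ℓ e) → H ≤ G → 0 < Δ → 0 ≤ ρ →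
    (∀ u v, H.Adj u v → ℓ s(u, v) ≤ Δ) → Pot H ℓ f r →
    (∀ k l, k ≠ l → 2 * (ρ + 4 * Δ) < pathDist G ℓ (x k) (x l)) →
    Stage G ℓ Δ x (chop H f Δ θ) n A X y ρ →
    ∃ A' X' y', Stage G ℓ Δ x H (n + 1) A' X' y' (ρ + 4 * Δ)

/-- (R5) three chops leave components of weak diameter at most `52 Δ` -/
def RowDiam : Prop :=
  ∀ (V : Type) [Finite V] (G H : SimpleGraph V) (ℓ : Sym2 V → ℝ) (Δ θ₁ θ₂ θ₃ : ℝ)
    (f₁ f₂ f₃ : V → ℝ) (r₁ r₂ r₃ : V → V),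
    G.Connected → (∃ σ : Equiv.Perm G.Dart, PlaneMap G σ) → (∀ e ∈ G.edgeSet, 0 < ℓ e) →
    H ≤ G → 0 < Δ → (∀ u v, H.Adj u v → ℓ s(u, v) ≤ Δ) → Pot H ℓ f₁ r₁ →
    Pot (chop H f₁ Δ θ₁) ℓ f₂ r₂ → Pot (chop (chop H f₁ Δ θ₁) f₂ Δ θ₂) ℓ f₃ r₃ →
    ∀ x y, (chop (chop (chop H f₁ Δ θ₁) f₂ Δ θ₂) f₃ Δ θ₃).Reachable x y →
      pathDist G ℓ x y ≤ 52 * Δ

/-- (R6) random partitions: `c ω` is constant exactly on the clusters -/
def RowKPR : Prop :=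
  ∀ (V : Type) [Finite V] (G : SimpleGraph V) (ℓ : Sym2 V → ℝ), G.Connected →
    (∃ σ : Equiv.Perm G.Dart, PlaneMap G σ) → (∀ e ∈ G.edgeSet, 0 < ℓ e) →
    ∀ (Δ : ℝ) (N : ℕ), 0 < Δ → 0 < N → ∃ c : Fin N × Fin N × Fin N → V → V,
      (∀ ω u v, c ω u = c ω v → pathDist G ℓ u v ≤ 52 * Δ) ∧
      ∀ u v, G.Adj u v → ({ω | c ω u ≠ c ω v}.ncard : ℝ) ≤
        3 * (N : ℝ) ^ 3 * (ℓ s(u, v) / Δ + 1 / N)

/-- (R7) random retractions onto any set `X` -/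
def RowRetr : Prop :=
  ∀ (V : Type) [Finite V] (G : SimpleGraph V) (ℓ : Sym2 V → ℝ), G.Connected →
    (∃ σ : Equiv.Perm G.Dart, PlaneMap G σ) → (∀ e ∈ G.edgeSet, 0 < ℓ e) →
    ∀ (X : Set V) (ν : V → V), Near G ℓ X ν →
    ∃ (ι : Type) (_ : Fintype ι) (w : ι → ℝ) (π : ι → V → V), (∀ i, 0 ≤ w i) ∧ ∑ i, w i = 1 ∧
      (∀ i v, π i v ∈ X) ∧
      (∀ u v, G.Adj u v → ∑ i, w i * pathDist G ℓ (π i u) (π i v) ≤ 5000 * ℓ s(u, v)) ∧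
      ∀ i v, pathDist G ℓ v (π i v) ≤ 3 * pathDist G ℓ v (ν v)

/-- (R8) the step which deletes any set `X` whose metric embeds with distortion `B` -/
def RowStep : Prop :=
  ∀ (V : Type) [Finite V] (G : SimpleGraph V) (ℓ : Sym2 V → ℝ), G.Connected →
    (∃ σ : Equiv.Perm G.Dart, PlaneMap G σ) → (∀ e ∈ G.edgeSet, 0 < ℓ e) →
    ∀ (X : Set V) (B : ℝ), X.Nonempty → 1 ≤ B →
    EmbedsL1 (fun u v : X => pathDist G ℓ u v) B →
    ∃ F : V → V → ℝ, IsL1 F ∧ (∀ u v, G.Adj u v → F u v ≤ ℓ s(u, v)) ∧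
      ∀ ν : V → V, Near G ℓ X ν → ∀ x y δ, 0 < δ → pathDist G ℓ x (ν x) ≤ δ →
        pathDist G ℓ y (ν y) ≤ 5 / 4 * δ → 8 * δ ≤ pathDist G ℓ x y →
        2 * δ ≤ 10000 * B * F x y

end Vale.Agent.P235.Kpr
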