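import Vale.Agent.P235.R2.H582.KprSpec
import Vale.Agent.P235.R2.H611.StarMetric

/-!
P235-M (helper582).  Row R4: the step of Klein, Plotkin, Rao.
-/

set_option autoImplicit false
set_option linter.all false

namespace Vale.Agent.P235.Kpr

open SimpleGraph Relation Vale.Agent.P235

section

variable {V : Type} {G H : SimpleGraph V} {ℓ : Sym2 V → ℝ} {f : V → ℝ} {r : V → V} {Δ θ : ℝ}

/-- tight steps down -/
def Pd (H : SimpleGraph V) (ℓ : Sym2 V → ℝ) (f : V → ℝ) (u v : V) : Prop :=
  H.Adj u v ∧ f u = f v + ℓ s(u, v)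

/-- tight paths down -/
def Dn (H : SimpleGraph V) (ℓ : Sym2 V → ℝ) (f : V → ℝ) : V → V → Prop :=
  ReflTransGen (Pd H ℓ f)

theorem Pd.lt (hℓ : ∀ u v, H.Adj u v → 0 < ℓ s(u, v)) {u v : V} (h : Pd H ℓ f u v) :
    f v < f u := by
  have := hℓ u v h.1
  have := h.2
  linarith

theorem Dn.le (hℓ : ∀ u v, H.Adj u v → 0 < ℓ s(u, v)) {u v : V} (h : Dn H ℓ f u v) :
    f v ≤ f u := by
  induction h with
  | refl => exact le_rfl
  | tail _ h2 ih => exact (h2.lt hℓ).le.trans ih

theorem Dn.reach {u v : V} (h : Dn H ℓ f u v) : H.Reachable u v := by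
  induction h with
  | refl => exact Reachable.refl _
  | tail _ h2 ih => exact ih.trans h2.1.reachable

theorem Dn.dist [Finite V] (hc : G.Connected) (hℓ : ∀ e ∈ G.edgeSet, 0 < ℓ e) (hHG : H ≤ G)
    {u v : V} (h : Dn H ℓ f u v) : pathDist G ℓ u v ≤ f u - f v := by
  have hd := pathDist_isMet hc hℓ
  induction h with
  | refl => rw [hd.self, sub_self]
  | @tail c v _ h2 ih =>
    have h3 := pathDist_adj hℓ (hHG h2.1)
    have h4 := hd.tri u c v
    have h5 := h2.2
    linarith

theorem Dn.root [Finite V] (hℓ : ∀ u v, H.Adj u v → 0 < ℓ s(u, v)) (hf : Pot H ℓ f r) (u : V) :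
    Dn H ℓ f u (r u) := by
  obtain ⟨w, hw, hmin⟩ := Set.exists_min_image {w | Dn H ℓ f u w} f (Set.toFinite _)
    ⟨u, ReflTransGen.refl⟩
  have h1 : w = r w := by
    by_contra hne
    obtain ⟨z, hz, hfz⟩ := hf.desc w hne
    have h2 : Pd H ℓ f w z := ⟨hz, hfz⟩
    exact absurd (hmin z (ReflTransGen.tail hw h2)) (not_le.2 (h2.lt hℓ))
  have h2 : r u = r w := hf.same u w (Dn.reach hw)
  rw [h2, ← h1]
  exact hw

theorem walk_lip (hf : Pot H ℓ f r) {u v : V} (w : H.Walk u v) :
    |f u - f v| ≤ (w.edges.map ℓ).sum := by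
  induction w with
  | nil => simp
  | @cons a b c hab p ih =>
    have h1 := hf.lip a b hab
    have h2 := abs_sub_le (f a) (f b) (f c)
    rw [Walk.edges_cons, List.map_cons, List.sum_cons]
    linarith

theorem chop_le : chop H f Δ θ ≤ H := fun _ _ h => h.1

theorem chop_slab {u v : V} (h : (chop H f Δ θ).Reachable u v) :
    slab f Δ θ u = slab f Δ θ v := by
  obtain ⟨w⟩ := h
  induction w with
  | nil => rfl
  | cons h _ ih => exact h.2.trans ih

/-- crossing a level -/
theorem cross_level [Finite V] (hℓ : ∀ u v, H.Adj u v → 0 < ℓ s(u, v)) {p q : V} {t : ℝ}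
    (hpq : Dn H ℓ f p q) (hp : t ≤ f p) (hq : f q < t) :
    ∃ u v, Dn H ℓ f p u ∧ Pd H ℓ f u v ∧ t ≤ f u ∧ f v < t := by
  induction hpq with
  | refl => exact absurd hp (not_le.2 hq)
  | @tail c d h1 h2 ih =>
    by_cases hc : f c < t
    · exact ih hc
    · exact ⟨c, d, h1, h2, not_lt.1 hc, hq⟩

end

theorem rowStage : RowStage := by
  intro V _ G H ℓ Δ θ ρ x n A X y f r hc hℓ hHG hΔ hρ hle hf hfar hS
  classical
  have hd := pathDist_isMet hc hℓ
  have hpos : ∀ u v, H.Adj u v → 0 < ℓ s(u, v) := fun u v h => hℓ _ (G.mem_edgeSet.2 (hHG h))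
  obtain ⟨β, hβ⟩ : ∃ β : ℤ, β = slab f Δ θ (x 0) := ⟨_, rfl⟩
  obtain ⟨b, hb⟩ : ∃ b : ℝ, b = Δ * β - θ := ⟨_, rfl⟩
  have hslab : ∀ v, slab f Δ θ v = β → b ≤ f v ∧ f v < b + Δ := by
    intro v hv
    have h1 := (Int.floor_eq_iff (a := (f v + θ) / Δ) (z := β)).1 hv
    rw [le_div_iff₀ hΔ, div_lt_iff₀ hΔ] at h1
    constructor <;> nlinarith [h1.1, h1.2]
  have hslab' : ∀ v, b ≤ f v → f v < b + Δ → slab f Δ θ v = β := by
    intro v h1 h2
    refine (Int.floor_eq_iff (a := (f v + θ) / Δ) (z := β)).2 ?_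
    rw [le_div_iff₀ hΔ, div_lt_iff₀ hΔ]
    constructor <;> nlinarith
  have hin : ∀ v, (chop H f Δ θ).Reachable (x 0) v → b ≤ f v ∧ f v < b + Δ := by
    intro v hv
    exact hslab v (by rw [hβ]; exact (chop_slab hv).symm)
  have hy : ∀ k, b ≤ f (y k) ∧ f (y k) < b + Δ := fun k => hin _ (hS.xreach k _ (hS.ymem k))
  have hx : ∀ k, b ≤ f (x k) ∧ f (x k) < b + Δ := fun k => hin _ (hS.xreach k _ (hS.xmem k))
  have hroot : ∀ v, (chop H f Δ θ).Reachable (x 0) v → r v = r (x 0) := fun v hv =>
    (hf.same _ _ (hv.mono chop_le)).symm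
  -- the root is far below
  have hb3 : 3 * Δ < b := by
    by_contra hcon
    have h1 : ∀ k, pathDist G ℓ (x k) (r (x 0)) ≤ f (x k) := by
      intro k
      have h2 := (Dn.root hpos hf (x k)).dist hc hℓ hHG
      rw [hroot _ (hS.xreach k _ (hS.xmem k))] at h2
      rw [hf.zero, sub_zero] at h2
      exact h2
    have h2 := hfar 0 1 (by decide)
    have h3 := hd.tri (x 0) (r (x 0)) (x 1)
    have h4 := h1 0
    have h5 := h1 1
    rw [hd.symm] at h5
    have h6 := (hx 0).2
    have h7 := (hx 1).2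
    linarith
  have hdn : ∀ k, Dn H ℓ f (y k) (r (x 0)) := by
    intro k
    have h2 := Dn.root hpos hf (y k)
    rwa [hroot _ (hS.xreach k _ (hS.ymem k))] at h2
  have hr0 : f (r (x 0)) = 0 := hf.zero _
  -- the new sets
  let T : Fin 3 → Set V := fun k => {v | Dn H ℓ f (y k) v ∧ b - 3 * Δ ≤ f v}
  let N : Set V := {v | (∃ k, Dn H ℓ f (y k) v) ∧ f v < b - 3 * Δ}
  have hyT : ∀ k, y k ∈ T k := fun k => ⟨ReflTransGen.refl, by linarith [(hy k).1]⟩
  have hrN : r (x 0) ∈ N := ⟨⟨0, hdn 0⟩, by rw [hr0]; linarith⟩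
  have hTconn : ∀ k, (G.induce (T k)).Connected := by
    intro k
    refine Vale.Agent.P235.Tight.conn_of_up (t := (⟨y k, hyT k⟩ : T k)) (h := fun v : T k => f v)
      fun v hv => ?_
    rcases ReflTransGen.cases_tail v.2.1 with h1 | ⟨c, h1, h2⟩
    · exact absurd (Subtype.ext h1) hv
    · have h3 := h2.lt hpos
      have h4 := v.2.2
      exact ⟨⟨c, h1, by linarith⟩, (hHG h2.1).symm, h3⟩
  have hNconn : (G.induce N).Connected := by
    refine Vale.Agent.P235.Tight.conn_of_up (t := (⟨r (x 0), hrN⟩ : N))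
      (h := fun v : N => - f v) fun v hv => ?_
    obtain ⟨⟨k, hk⟩, hv2⟩ := v.2
    have hrv : r v.1 = r (x 0) := by
      have h1 := hf.same _ _ hk.reach
      rw [← h1]
      exact hroot _ (hS.xreach k _ (hS.ymem k))
    obtain ⟨z, hz, hfz⟩ := hf.desc v.1 (fun h => hv (Subtype.ext (h.trans hrv)))
    have h2 : Pd H ℓ f v.1 z := ⟨hz, hfz⟩
    have h3 := h2.lt hpos
    exact ⟨⟨z, ⟨k, hk.tail h2⟩, by linarith⟩, hHG hz, neg_lt_neg h3⟩
  -- walks inside the slab
  have hwalk : ∀ k v, Dn H ℓ f (y k) v → b ≤ f v →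
      ∃ w : (chop H f Δ θ).Walk (y k) v, (w.edges.map ℓ).sum = f (y k) - f v := by
    intro k v hv
    induction hv with
    | refl => exact fun _ => ⟨Walk.nil, by simp⟩
    | @tail c d h1 h2 ih =>
      intro hbd
      have h3 := h2.lt hpos
      obtain ⟨w, hw⟩ := ih (by linarith)
      have h4 := Dn.le hpos h1
      have h5 := (hy k).2
      have hadj : (chop H f Δ θ).Adj c d := ⟨h2.1, by
        rw [hslab' c (by linarith) (by linarith), hslab' d hbd (by linarith)]⟩
      refine ⟨w.concat hadj, ?_⟩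
      rw [Walk.edges_concat, List.concat_eq_append, List.map_append, List.sum_append, hw]
      have h6 := h2.2
      simp only [List.map_cons, List.map_nil, List.sum_cons, List.sum_nil, add_zero]
      linarith
  have hAT : ∀ j < n, ∀ k, ∀ v ∈ A j, ¬ Dn H ℓ f (y k) v := by
    intro j hj k v hv hdv
    have h1 := hin v (hS.areach j hj v hv)
    obtain ⟨w, hw⟩ := hwalk k v hdv h1.1
    have h2 := hS.far j hj k v hv w
    have h3 := (hy k).2
    linarith
  -- the new vertices
  have hy' : ∀ k, ∃ z, Dn H ℓ f (y k) z ∧ b - 2 * Δ ≤ f z ∧ f z < b - Δ := by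
    intro k
    obtain ⟨u, v, h1, h2, h3, h4⟩ := cross_level hpos (t := b - Δ) (hdn k)
      (by linarith [(hy k).1]) (by rw [hr0]; linarith)
    have h5 := hle u v h2.1
    have h6 := h2.2
    exact ⟨v, h1.tail h2, by linarith, h4⟩
  choose y' hy'1 hy'2 hy'3 using hy'
  have hT3 : ∀ k, ∀ v ∈ X k ∪ T k, b - 3 * Δ ≤ f v := by
    rintro k v (hv | hv)
    · have := (hin v (hS.xreach k v hv)).1
      linarith
    · exact hv.2
  have hA' : ∀ j < n + 1, j ≠ n → j < n := fun j h1 h2 => by omega
  refine ⟨fun j => if j = n then N else A j, fun k => X k ∪ T k, y', ?_⟩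
  constructor
  · intro j hj
    by_cases hjn : j = n
    · show (G.induce (if j = n then N else A j)).Connected
      rw [if_pos hjn]
      exact hNconn
    · show (G.induce (if j = n then N else A j)).Connected
      rw [if_neg hjn]
      exact hS.aconn j (hA' j hj hjn)
  · have hNA : ∀ j < n, Disjoint N (A j) := by
      intro j hj
      refine Set.disjoint_left.2 fun v hv hvA => ?_
      have h1 := (hin v (hS.areach j hj v hvA)).1
      have h2 := hv.2
      linarith
    intro i hi j hj hij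
    by_cases hin' : i = n
    · have hjn : j ≠ n := fun h => hij (hin'.trans h.symm)
      show Disjoint (if i = n then N else A i) (if j = n then N else A j)
      rw [if_pos hin', if_neg hjn]
      exact hNA j (hA' j hj hjn)
    · by_cases hjn : j = n
      · show Disjoint (if i = n then N else A i) (if j = n then N else A j)
        rw [if_pos hjn, if_neg hin']
        exact (hNA i (hA' i hi hin')).symm
      · show Disjoint (if i = n then N else A i) (if j = n then N else A j)
        rw [if_neg hjn, if_neg hin']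
        exact hS.adisj i (hA' i hi hin') j (hA' j hj hjn) hij
  · intro k
    exact induce_union_connected (hS.xconn k).preconnected (hTconn k).preconnected
      ⟨y k, hS.ymem k, hyT k⟩
  · intro j hj k
    by_cases hjn : j = n
    · simp only [if_pos hjn]
      refine Set.disjoint_left.2 fun v hv hvX => ?_
      have h1 := hT3 k v hvX
      have h2 := hv.2
      linarith
    · simp only [if_neg hjn]
      refine Set.disjoint_left.2 fun v hv hvX => ?_
      rcases hvX with hvX | hvX
      · exact Set.disjoint_left.1 (hS.ax j (hA' j hj hjn) k) hv hvX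
      · exact hAT j (hA' j hj hjn) k v hv hvX.1
  · intro j hj k
    by_cases hjn : j = n
    · simp only [if_pos hjn]
      obtain ⟨u, v, h1, h2, h3, h4⟩ := cross_level hpos (t := b - 3 * Δ) (hdn k)
        (by linarith [(hy k).1]) (by rw [hr0]; linarith)
      exact ⟨v, ⟨⟨k, h1.tail h2⟩, h4⟩, u, Or.inr ⟨h1, h3⟩, (hHG h2.1).symm⟩
    · simp only [if_neg hjn]
      obtain ⟨a, ha, c, hc', hac⟩ := hS.adj j (hA' j hj hjn) k
      exact ⟨a, ha, c, Or.inl hc', hac⟩
  · exact fun k => Or.inl (hS.xmem k)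
  · exact fun k => Or.inr ⟨hy'1 k, by linarith [hy'2 k]⟩
  · rintro k v (hv | hv)
    · have := hS.ball k v hv
      linarith
    · have h1 := hS.ball k _ (hS.ymem k)
      have h2 := hv.1.dist hc hℓ hHG
      have h3 := hd.tri (x k) (y k) v
      have h4 := hv.2
      have h5 := (hy k).2
      linarith
  · intro j hj a ha
    by_cases hjn : j = n
    · simp only [if_pos hjn] at ha
      obtain ⟨⟨k, hk⟩, -⟩ := ha
      exact ((hS.xreach k _ (hS.ymem k)).mono chop_le).trans hk.reach
    · simp only [if_neg hjn] at ha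
      exact (hS.areach j (hA' j hj hjn) a ha).mono chop_le
  · rintro k v (hv | hv)
    · exact (hS.xreach k v hv).mono chop_le
    · exact ((hS.xreach k _ (hS.ymem k)).mono chop_le).trans hv.1.reach
  · intro j hj k a ha w
    have h1 := walk_lip hf w
    by_cases hjn : j = n
    · simp only [if_pos hjn] at ha
      have h2 := ha.2
      have h3 := hy'2 k
      have h4 := le_abs_self (f (y' k) - f a)
      linarith
    · simp only [if_neg hjn] at ha
      have h2 := (hin a (hS.areach j (hA' j hj hjn) a ha)).1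
      have h3 := hy'3 k
      have h4 := neg_abs_le (f (y' k) - f a)
      linarith

end Vale.Agent.P235.Kpr
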