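import Vale.Agent.P235.R2.H582.CapB
import Vale.Agent.P235.R2.H341.CapDefs
import Mathlib.Data.Finset.Basic

/-!
P235-M, RowCap (helper582), part C: a new vertex joined to any vertices of one face.
-/

set_option autoImplicit false
set_option linter.all false

namespace Vale.Agent.P235.R2.H582

open Equiv.Perm Function
open Vale.Agent.P235.H341W (capG RowCap)

/-- the dart of `capG G T` over a dart of `G` -/
def cD {V : Type} (G : SimpleGraph V) (T : Set V) (d : G.Dart) : (capG G T).Dart :=
  ⟨(some d.fst, some d.snd), d.adj⟩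

/-- the dart from `none` to `t` -/
def nD {V : Type} (G : SimpleGraph V) {T : Set V} {t : V} (ht : t ∈ T) : (capG G T).Dart :=
  ⟨(none, some t), ht⟩

theorem cD_fst {V : Type} (G : SimpleGraph V) (T : Set V) (d : G.Dart) :
    (cD G T d).fst = some d.fst := rfl

theorem cD_inj {V : Type} (G : SimpleGraph V) (T : Set V) : Injective (cD G T) := by
  intro d d' h
  have h1 : (some d.fst, some d.snd) = ((some d'.fst, some d'.snd) : Option V × Option V) :=
    congrArg SimpleGraph.Dart.toProd h
  simp only [Prod.mk.injEq, Option.some.injEq] at h1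
  exact SimpleGraph.Dart.ext _ _ (Prod.ext h1.1 h1.2)

/-- one new edge: the pendant vertex -/
theorem emb_pend {V : Type} (G : SimpleGraph V) (t : V) :
    Emb2 G (capG G {t}) some (cD G {t}) (nD G (T := {t}) (t := t) rfl).symm := by
  refine ⟨Option.some_injective V, fun _ => rfl, fun _ => rfl, cD_inj G _, ?_, ?_, ?_⟩
  · intro d h
    have h1 : (some d.fst, some d.snd) = ((some t, none) : Option V × Option V) :=
      congrArg SimpleGraph.Dart.toProd h
    simp at h1
  · intro d h
    have h1 : (some d.fst, some d.snd) = ((none, some t) : Option V × Option V) :=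
      congrArg SimpleGraph.Dart.toProd h
    simp at h1
  · rintro ⟨⟨x, y⟩, h⟩
    rcases x with _ | x <;> rcases y with _ | y
    · exact h.elim
    · have hy : y = t := h
      subst hy
      exact Or.inr (Or.inl rfl)
    · have hx : x = t := h
      subst hx
      exact Or.inl rfl
    · exact Or.inr (Or.inr ⟨⟨(x, y), h⟩, rfl⟩)

/-- the dart of a larger cap over a dart of a smaller cap -/
def uD {V : Type} (G : SimpleGraph V) {T T' : Set V} (h : T ⊆ T') (d : (capG G T).Dart) :
    (capG G T').Dart :=
  ⟨(d.fst, d.snd), by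
    obtain ⟨⟨x, y⟩, hd⟩ := d
    rcases x with _ | x <;> rcases y with _ | y
    · exact hd.elim
    · exact h hd
    · exact h hd
    · exact hd⟩

theorem uD_cD {V : Type} (G : SimpleGraph V) {T T' : Set V} (h : T ⊆ T') (d : G.Dart) :
    uD G h (cD G T d) = cD G T' d := rfl

/-- one new edge from `none` -/
theorem emb_edge {V : Type} (G : SimpleGraph V) {T T' : Set V} {t : V} (ht : t ∉ T)
    (hT : T' = insert t T) (h : T ⊆ T') (ht' : t ∈ T') :
    Emb2 (capG G T) (capG G T') id (uD G h) (nD G ht') := by
  refine ⟨injective_id, fun _ => rfl, fun _ => rfl, ?_, ?_, ?_, ?_⟩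
  · intro d d' hd
    have h1 : (uD G h d).toProd = (uD G h d').toProd := by rw [hd]
    exact SimpleGraph.Dart.ext _ _ h1
  · intro d hd
    have h1 : ((d.fst, d.snd) : Option V × Option V) = (none, some t) :=
      congrArg (SimpleGraph.Dart.toProd (G := capG G T')) hd
    simp only [Prod.mk.injEq] at h1
    have h2 := d.adj
    rw [h1.1, h1.2] at h2
    exact ht h2
  · intro d hd
    have h1 : ((d.fst, d.snd) : Option V × Option V) = (some t, none) :=
      congrArg (SimpleGraph.Dart.toProd (G := capG G T')) hd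
    simp only [Prod.mk.injEq] at h1
    have h2 := d.adj
    rw [h1.1, h1.2] at h2
    exact ht h2
  · rintro ⟨⟨x, y⟩, hd⟩
    rcases x with _ | x <;> rcases y with _ | y
    · exact hd.elim
    · have hy : y ∈ T' := hd
      rw [hT] at hy
      rcases hy with rfl | hy
      · exact Or.inl rfl
      · exact Or.inr (Or.inr ⟨⟨(none, some y), hy⟩, rfl⟩)
    · have hx : x ∈ T' := hd
      rw [hT] at hx
      rcases hx with rfl | hx
      · exact Or.inr (Or.inl rfl)
      · exact Or.inr (Or.inr ⟨⟨(some x, none), hx⟩, rfl⟩)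
    · exact Or.inr (Or.inr ⟨⟨(some x, some y), hd⟩, rfl⟩)

/-- **RowCap with the invariant**: every dart of the face of `d₀` is on a face which meets the new
vertex -/
theorem cap_aux {V : Type} [Finite V] {G : SimpleGraph V} {σ : Equiv.Perm G.Dart} {d₀ : G.Dart}
    (hP : PlaneMap G σ) (s : Finset V) (hs : s.Nonempty) (hsub : (s : Set V) ⊆ onFace σ d₀) :
    ∀ T : Set V, T = s → ∃ σ' : Equiv.Perm (capG G T).Dart, PlaneMap (capG G T) σ' ∧
      ∀ d, (faceNext σ).SameCycle d₀ d → none ∈ onFace σ' (cD G T d) := by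
  classical
  induction hs using Finset.Nonempty.cons_induction with
  | singleton t =>
    intro T hT
    have hT' : T = {t} := by rw [hT]; simp
    subst hT'
    obtain ⟨e, he, hef⟩ := hsub (by simp : t ∈ ((({t} : Finset V)) : Set V))
    obtain ⟨σ', h1, h2⟩ := ins_pend hP (emb_pend G t) (e := e) (by rw [hef]; rfl) rfl
    exact ⟨σ', h1, fun d hd => h2 d (hd.symm.trans he)⟩
  | cons t s ht hs ih =>
    intro T hT
    have hT' : T = insert t (s : Set V) := by rw [hT]; simp
    obtain ⟨σ₁, p1, p2⟩ := ih (fun x hx => hsub (by simp [Finset.mem_coe.1 hx])) (s : Set V) rfl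
    have hsT : (s : Set V) ⊆ T := by rw [hT']; exact Set.subset_insert _ _
    have htT : t ∈ T := by rw [hT']; exact Set.mem_insert _ _
    obtain ⟨e, he, hef⟩ := hsub (by simp : t ∈ ((Finset.cons t s ht : Finset V) : Set V))
    obtain ⟨c, hc, hcf⟩ := p2 e he
    have hemb := emb_edge G (t := t) (fun h => ht (Finset.mem_coe.1 h)) hT' hsT htT
    obtain ⟨σ₂, q1, q2⟩ := ins_edge p1 hemb (e1 := c) (e2 := cD G s e) hcf
      (by rw [cD_fst, hef]; rfl) hc.symm
    refine ⟨σ₂, q1, fun d hd => ?_⟩
    have h3 := q2 (cD G s d) (p2 d hd)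
    exact h3

/-- **RowCap** -/
theorem rowCap : RowCap := by
  intro V _ G σ d₀ T _ hP hne hT
  classical
  have hfin : T.Finite := Set.toFinite T
  obtain ⟨σ', h, _⟩ := cap_aux (d₀ := d₀) hP hfin.toFinset (by simpa using hne)
    (by simpa using hT) T (by simp)
  exact ⟨σ', h⟩

/-- **RowCap, second form**: the new vertex is on the face of every old dart of the face `d₀` -/
theorem rowCap' {V : Type} [Finite V] {G : SimpleGraph V} {σ : Equiv.Perm G.Dart} {d₀ : G.Dart}
    {T : Set V} (hP : PlaneMap G σ) (hne : T.Nonempty) (hT : T ⊆ onFace σ d₀) :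
    ∃ σ' : Equiv.Perm (capG G T).Dart, PlaneMap (capG G T) σ' ∧
      ∀ d, (faceNext σ).SameCycle d₀ d → none ∈ onFace σ' (cD G T d) := by
  classical
  have hfin : T.Finite := Set.toFinite T
  exact cap_aux (d₀ := d₀) hP hfin.toFinset (by simpa using hne) (by simpa using hT) T (by simp)

end Vale.Agent.P235.R2.H582
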