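import Vale.Agent.P235.H536.PlaneDefs

/-!
P235-M, RowCap (helper582), part A: two surgeries of permutations.

`Pend`: a cycle `.. → x → e ..` becomes `.. → x → a → b → e ..` (two new points): same number of
cycles.  `Split`: a cycle which contains `e1 ≠ e2` becomes two cycles, `x₁ → a → e2` and
`x₂ → b → e1` (`φ x₁ = e1`, `φ x₂ = e2`): one cycle more.
-/

set_option autoImplicit false
set_option linter.all false

namespace Vale.Agent.P235.R2.H582

open Equiv.Perm Function

/-- cycles of a permutation -/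
abbrev Cy {α : Type} (f : Equiv.Perm α) : Type := Quotient (Equiv.Perm.SameCycle.setoid f)

theorem closed_cycle {α : Type} [Finite α] {f : Equiv.Perm α} {S : Set α}
    (h : ∀ x ∈ S, f x ∈ S) {x y : α} (hx : x ∈ S) (hxy : f.SameCycle x y) : y ∈ S := by
  obtain ⟨n, rfl⟩ := hxy.exists_nat_pow_eq
  clear hxy
  induction n with
  | zero => exact hx
  | succ n ih =>
    rw [pow_succ', Equiv.Perm.mul_apply]
    exact h _ ih

theorem step_cycle {α β : Type} [Finite α] {f : Equiv.Perm α} {g : Equiv.Perm β} {ι : α → β}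
    (h : ∀ x, g.SameCycle (ι x) (ι (f x))) {x y : α} (hxy : f.SameCycle x y) :
    g.SameCycle (ι x) (ι y) :=
  closed_cycle (S := {z | g.SameCycle (ι x) (ι z)}) (fun z hz => Equiv.Perm.SameCycle.trans hz (h z))
    (Equiv.Perm.SameCycle.refl _ _) hxy

theorem next_cycle {α : Type} (f : Equiv.Perm α) (x : α) : f.SameCycle x (f x) :=
  Equiv.Perm.sameCycle_apply_right.2 (Equiv.Perm.SameCycle.refl _ _)

/-- two new points `a → b` in front of `e` -/
structure Pend {D D' : Type} (φ : Equiv.Perm D) (φ' : Equiv.Perm D') (ι : D → D') (a b : D')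
    (e : D) : Prop where
  inj : Injective ι
  na : ∀ x, ι x ≠ a
  nb : ∀ x, ι x ≠ b
  all : ∀ y, y = a ∨ y = b ∨ ∃ x, ι x = y
  old : ∀ x, φ x ≠ e → φ' (ι x) = ι (φ x)
  ha : ∀ x, φ x = e → φ' (ι x) = a
  fa : φ' a = b
  fb : φ' b = ι e

section pend

variable {D D' : Type} [Finite D] [Finite D'] {φ : Equiv.Perm D} {φ' : Equiv.Perm D'} {ι : D → D'}
  {a b : D'} {e : D}

theorem Pend.ab (h : Pend φ φ' ι a b e) : φ'.SameCycle a b := by
  have := next_cycle φ' a
  rwa [h.fa] at this

theorem Pend.be (h : Pend φ φ' ι a b e) : φ'.SameCycle b (ι e) := by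
  have := next_cycle φ' b
  rwa [h.fb] at this

theorem Pend.to (h : Pend φ φ' ι a b e) {x y : D} (hxy : φ.SameCycle x y) :
    φ'.SameCycle (ι x) (ι y) := by
  refine step_cycle (fun z => ?_) hxy
  by_cases hz : φ z = e
  · have h1 := next_cycle φ' (ι z)
    rw [h.ha z hz] at h1
    rw [hz]
    exact (h1.trans h.ab).trans h.be
  · have h1 := next_cycle φ' (ι z)
    rwa [h.old z hz] at h1

theorem Pend.from (h : Pend φ φ' ι a b e) {x y : D} (hxy : φ'.SameCycle (ι x) (ι y)) :
    φ.SameCycle x y := by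
  have hmem : ι y ∈ {y' : D' | ∃ z, φ.SameCycle x z ∧ (y' = ι z ∨ (z = e ∧ (y' = a ∨ y' = b)))} := by
    refine closed_cycle ?_ ?_ hxy
    · rintro y' ⟨z, hz, hy'⟩
      rcases hy' with rfl | ⟨rfl, rfl | rfl⟩
      · by_cases hze : φ z = e
        · exact ⟨e, by rw [← hze]; exact hz.trans (next_cycle φ z), Or.inr ⟨rfl, Or.inl (h.ha z hze)⟩⟩
        · exact ⟨φ z, hz.trans (next_cycle φ z), Or.inl (h.old z hze)⟩
      · exact ⟨z, hz, Or.inr ⟨rfl, Or.inr h.fa⟩⟩
      · exact ⟨z, hz, Or.inl h.fb⟩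
    · exact ⟨x, Equiv.Perm.SameCycle.refl _ _, Or.inl rfl⟩
  obtain ⟨z, hz, hy'⟩ := hmem
  rcases hy' with h1 | ⟨_, h1 | h1⟩
  · rw [h.inj h1]
    exact hz
  · exact absurd h1 (h.na y)
  · exact absurd h1 (h.nb y)

theorem Pend.from' (h : Pend φ φ' ι a b e) {x : D} {y' : D'} (hx : ¬ φ.SameCycle x e)
    (hxy : φ'.SameCycle (ι x) y') : ∃ y, y' = ι y ∧ φ.SameCycle x y := by
  have hmem : y' ∈ {y' : D' | ∃ z, y' = ι z ∧ φ.SameCycle x z} := by
    refine closed_cycle ?_ ?_ hxy
    · rintro _ ⟨z, rfl, hz⟩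
      have h1 : φ.SameCycle x (φ z) := hz.trans (next_cycle φ z)
      exact ⟨φ z, h.old z (fun hc => hx (by rw [← hc]; exact h1)), h1⟩
    · exact ⟨x, rfl, Equiv.Perm.SameCycle.refl _ _⟩
  exact hmem

theorem Pend.card (h : Pend φ φ' ι a b e) : Nat.card (Cy φ') = Nat.card (Cy φ) := by
  symm
  refine Nat.card_congr (Equiv.ofBijective (Quotient.map ι fun x y hxy => h.to hxy) ⟨?_, ?_⟩)
  · intro q q' hq
    induction q using Quotient.inductionOn with
    | h x =>
    induction q' using Quotient.inductionOn with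
    | h y => exact Quotient.sound (h.from (Quotient.exact hq))
  · intro q
    induction q using Quotient.inductionOn with
    | h y =>
    rcases h.all y with rfl | rfl | ⟨x, rfl⟩
    · exact ⟨Quotient.mk _ e, Quotient.sound (h.ab.trans h.be).symm⟩
    · exact ⟨Quotient.mk _ e, Quotient.sound h.be.symm⟩
    · exact ⟨Quotient.mk _ x, rfl⟩

end pend

/-- two new points which split the cycle of `e1`, `e2` -/
structure Splt {D D' : Type} (φ : Equiv.Perm D) (φ' : Equiv.Perm D') (ι : D → D') (a b : D')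
    (e1 e2 : D) : Prop where
  inj : Injective ι
  na : ∀ x, ι x ≠ a
  nb : ∀ x, ι x ≠ b
  nab : a ≠ b
  all : ∀ y, y = a ∨ y = b ∨ ∃ x, ι x = y
  ne : e1 ≠ e2
  same : φ.SameCycle e1 e2
  old : ∀ x, φ x ≠ e1 → φ x ≠ e2 → φ' (ι x) = ι (φ x)
  h1 : ∀ x, φ x = e1 → φ' (ι x) = a
  h2 : ∀ x, φ x = e2 → φ' (ι x) = b
  fa : φ' a = ι e2
  fb : φ' b = ι e1

section splt

variable {D D' : Type} [Finite D] [Finite D'] {φ : Equiv.Perm D} {φ' : Equiv.Perm D'} {ι : D → D'}
  {a b : D'} {e1 e2 : D}

theorem Splt.ae (h : Splt φ φ' ι a b e1 e2) : φ'.SameCycle a (ι e2) := by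
  have := next_cycle φ' a
  rwa [h.fa] at this

theorem Splt.be (h : Splt φ φ' ι a b e1 e2) : φ'.SameCycle b (ι e1) := by
  have := next_cycle φ' b
  rwa [h.fb] at this

/-- the old cycle is covered by the two new ones -/
theorem Splt.cov (h : Splt φ φ' ι a b e1 e2) {x : D} (hx : φ.SameCycle x e1) :
    φ'.SameCycle (ι x) a ∨ φ'.SameCycle (ι x) b := by
  refine closed_cycle (S := {x | φ'.SameCycle (ι x) a ∨ φ'.SameCycle (ι x) b}) ?_ ?_ hx.symm
  · intro z hz
    by_cases h1 : φ z = e1
    · right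
      rw [h1]
      exact h.be.symm
    by_cases h2 : φ z = e2
    · left
      rw [h2]
      exact h.ae.symm
    have h3 := next_cycle φ' (ι z)
    rw [h.old z h1 h2] at h3
    rcases hz with hz | hz
    · exact Or.inl (h3.symm.trans hz)
    · exact Or.inr (h3.symm.trans hz)
  · exact Or.inr h.be.symm

/-- the two new cycles are different -/
theorem Splt.sep (h : Splt φ φ' ι a b e1 e2) : ¬ φ'.SameCycle b a := by
  classical
  intro hab
  have hex : ∃ k : ℕ, 1 ≤ k ∧ (φ ^ k) e1 = e2 := by
    obtain ⟨n, hn⟩ := h.same.exists_nat_pow_eq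
    refine ⟨n, ?_, hn⟩
    by_contra hc
    have : n = 0 := by omega
    subst this
    exact h.ne hn
  set k := Nat.find hex with hk
  obtain ⟨hk1, hke⟩ := Nat.find_spec hex
  have hmin : ∀ i, i < k → 1 ≤ i → (φ ^ i) e1 ≠ e2 := fun i hi h1 h2 =>
    Nat.find_min hex hi ⟨h1, h2⟩
  have hmem : a ∈ {y' : D' | y' = b ∨ ∃ i, i < k ∧ y' = ι ((φ ^ i) e1)} := by
    refine closed_cycle ?_ (Or.inl rfl) hab
    rintro y' (rfl | ⟨i, hi, rfl⟩)
    · exact Or.inr ⟨0, by omega, h.fb⟩
    · have hs : φ ((φ ^ i) e1) = (φ ^ (i + 1)) e1 := by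
        rw [pow_succ', Equiv.Perm.mul_apply]
      rcases Nat.lt_or_ge (i + 1) k with hlt | hge
      · right
        refine ⟨i + 1, hlt, ?_⟩
        rw [← hs]
        refine h.old _ ?_ ?_
        · rw [hs]
          intro h1
          have h2 : (φ ^ (k - (i + 1))) e1 = e2 := by
            have h3 : (φ ^ (k - (i + 1))) ((φ ^ (i + 1)) e1) = e2 := by
              rw [← Equiv.Perm.mul_apply, ← pow_add, Nat.sub_add_cancel hlt.le]
              exact hke
            rwa [h1] at h3
          exact hmin _ (by omega) (by omega) h2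
        · rw [hs]
          exact hmin _ hlt (by omega)
      · left
        have : i + 1 = k := by omega
        refine h.h2 _ ?_
        rw [hs, this]
        exact hke
  rcases hmem with h1 | ⟨i, _, h1⟩
  · exact h.nab h1
  · exact h.na _ h1.symm

/-- the other cycles do not change -/
theorem Splt.to (h : Splt φ φ' ι a b e1 e2) {x y : D} (hx : ¬ φ.SameCycle x e1)
    (hxy : φ.SameCycle x y) : φ'.SameCycle (ι x) (ι y) := by
  have hmem : y ∈ {z | φ.SameCycle x z ∧ φ'.SameCycle (ι x) (ι z)} := by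
    refine closed_cycle ?_ ?_ hxy
    · rintro z ⟨hz, hz'⟩
      have h1 : φ.SameCycle x (φ z) := hz.trans (next_cycle φ z)
      refine ⟨h1, ?_⟩
      have h3 := next_cycle φ' (ι z)
      rw [h.old z (fun hc => hx (by rw [← hc]; exact h1))
        (fun hc => hx ((by rw [← hc]; exact h1 : φ.SameCycle x e2).trans h.same.symm))] at h3
      exact hz'.trans h3
    · exact ⟨Equiv.Perm.SameCycle.refl _ _, Equiv.Perm.SameCycle.refl _ _⟩
  exact hmem.2

theorem Splt.from (h : Splt φ φ' ι a b e1 e2) {x : D} {y' : D'} (hx : ¬ φ.SameCycle x e1)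
    (hxy : φ'.SameCycle (ι x) y') : ∃ y, y' = ι y ∧ φ.SameCycle x y := by
  have hmem : y' ∈ {y' : D' | ∃ z, y' = ι z ∧ φ.SameCycle x z} := by
    refine closed_cycle ?_ ?_ hxy
    · rintro _ ⟨z, rfl, hz⟩
      have h1 : φ.SameCycle x (φ z) := hz.trans (next_cycle φ z)
      exact ⟨φ z, h.old z (fun hc => hx (by rw [← hc]; exact h1))
        (fun hc => hx ((by rw [← hc]; exact h1 : φ.SameCycle x e2).trans h.same.symm)), h1⟩
    · exact ⟨x, rfl, Equiv.Perm.SameCycle.refl _ _⟩
  exact hmem

open Classical in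
/-- the new cycles, from the old ones and one more -/
noncomputable def spF (φ : Equiv.Perm D) (φ' : Equiv.Perm D') (ι : D → D') (a b : D') (e1 : D)
    (h : ∀ x y : D, ¬ φ.SameCycle x e1 → φ.SameCycle x y → φ'.SameCycle (ι x) (ι y)) :
    Option (Cy φ) → Cy φ'
  | none => Quotient.mk _ a
  | some q => Quotient.lift (fun x => if φ.SameCycle x e1 then (Quotient.mk _ b : Cy φ') else
      Quotient.mk _ (ι x)) (fun x y hxy => by
        have hxy' : φ.SameCycle x y := hxy
        by_cases hx : φ.SameCycle x e1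
        · have hy : φ.SameCycle y e1 := hxy'.symm.trans hx
          simp only [hx, hy, if_true]
        · have hy : ¬ φ.SameCycle y e1 := fun hc => hx (hxy'.trans hc)
          simp only [hx, hy, if_false]
          exact Quotient.sound (h x y hx hxy')) q

theorem Splt.card (h : Splt φ φ' ι a b e1 e2) : Nat.card (Cy φ') = Nat.card (Cy φ) + 1 := by
  classical
  have hQ : Finite (Cy φ) := Quotient.finite _
  rw [← Finite.card_option]
  symm
  have e0 : ∀ x, φ.SameCycle x e1 →
      spF φ φ' ι a b e1 (fun x y hx hxy => h.to hx hxy) (some (Quotient.mk _ x)) =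
        Quotient.mk _ b := fun x hx => if_pos hx
  have e3 : ∀ x, ¬ φ.SameCycle x e1 →
      spF φ φ' ι a b e1 (fun x y hx hxy => h.to hx hxy) (some (Quotient.mk _ x)) =
        Quotient.mk _ (ι x) := fun x hx => if_neg hx
  have e4 : spF φ φ' ι a b e1 (fun x y hx hxy => h.to hx hxy) none = Quotient.mk _ a := rfl
  refine Nat.card_congr (Equiv.ofBijective
    (spF φ φ' ι a b e1 (fun x y hx hxy => h.to hx hxy)) ⟨?_, ?_⟩)
  · rintro (_ | q) (_ | q') hq
    · rfl
    · exfalso
      induction q' using Quotient.inductionOn with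
      | h y =>
      by_cases hy : φ.SameCycle y e1
      · rw [e0 y hy, e4] at hq
        exact h.sep (Equiv.Perm.SameCycle.symm (Quotient.exact hq))
      · rw [e3 y hy, e4] at hq
        obtain ⟨z, hz, _⟩ := h.from hy (Equiv.Perm.SameCycle.symm (Quotient.exact hq))
        exact h.na z hz.symm
    · exfalso
      induction q using Quotient.inductionOn with
      | h y =>
      by_cases hy : φ.SameCycle y e1
      · rw [e0 y hy, e4] at hq
        exact h.sep (Quotient.exact hq)
      · rw [e3 y hy, e4] at hq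
        obtain ⟨z, hz, _⟩ := h.from hy (Quotient.exact hq)
        exact h.na z hz.symm
    · induction q using Quotient.inductionOn with
      | h x =>
      induction q' using Quotient.inductionOn with
      | h y =>
      congr 1
      refine Quotient.sound ?_
      by_cases hx : φ.SameCycle x e1 <;> by_cases hy : φ.SameCycle y e1
      · exact hx.trans hy.symm
      · exfalso
        rw [e0 x hx, e3 y hy] at hq
        obtain ⟨z, hz, _⟩ := h.from hy (Equiv.Perm.SameCycle.symm (Quotient.exact hq))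
        exact h.nb z hz.symm
      · exfalso
        rw [e3 x hx, e0 y hy] at hq
        obtain ⟨z, hz, _⟩ := h.from hx (Quotient.exact hq)
        exact h.nb z hz.symm
      · rw [e3 x hx, e3 y hy] at hq
        obtain ⟨z, hz, hz'⟩ := h.from hx (Quotient.exact hq)
        rw [h.inj hz]
        exact hz'
  · intro q
    induction q using Quotient.inductionOn with
    | h y =>
    rcases h.all y with rfl | rfl | ⟨x, rfl⟩
    · exact ⟨none, rfl⟩
    · exact ⟨some (Quotient.mk _ e1), e0 e1 (Equiv.Perm.SameCycle.refl _ _)⟩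
    · by_cases hx : φ.SameCycle x e1
      · rcases h.cov hx with hc | hc
        · exact ⟨none, Quotient.sound hc.symm⟩
        · exact ⟨some (Quotient.mk _ e1), (e0 e1 (Equiv.Perm.SameCycle.refl _ _)).trans
            (Quotient.sound hc.symm)⟩
      · exact ⟨some (Quotient.mk _ x), e3 x hx⟩

end splt

end Vale.Agent.P235.R2.H582
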