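import Vale.Agent.P235.R2.H582.FaceU
import Vale.Agent.P235.R2.H582.Cap2

/-!
P235-M (helper582).  Terminals, many sources and sinks, vertices and faces.
-/

set_option autoImplicit false
set_option linter.all false

namespace Vale.Agent.P235.R2.H582.FaceT

open SimpleGraph Vale.Agent.P235 Vale.Agent.P235.Red Vale.Agent.P235.Red.F0 Vale.Agent.P235.Tight
  Vale.Agent.P235.H341W Vale.Agent.P235.Red.W3 Vale.Agent.P235.Quo
open Vale.Agent.P235.R2.H582 (cD cD_fst cD_inj cap_aux2)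

variable {V : Type} {G : SimpleGraph V} {ℓ : Sym2 V → ℝ} {h : V → ℝ} {D : ℝ}
  {L A B : Set V}

theorem widen_low {B₁ B₂ : Set V} (hW : WideL G ℓ h D L B₁ B₂) {B₁' : Set V}
    (hB : ∀ v ∈ L, v ∈ B₁ → v ∈ B₁') : WideL G ℓ h D L B₁' B₂ where
  conn := hW.conn
  pos := hW.pos
  lip := hW.lip
  low := fun v hv hvB => hW.low v hv fun h1 => hvB (hB v hv h1)
  high := hW.high

/-- the faces after one cap -/
theorem cap_facesT [Finite V] {σ : Equiv.Perm G.Dart} (hP : PlaneMap G σ) {m : G.Dart} {T : Set V}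
    (hT : T.Nonempty) (hTm : T ⊆ onFace σ m) :
    ∃ σ' : Equiv.Perm (capG G T).Dart, PlaneMap (capG G T) σ' ∧
      ∀ d, ¬ (faceNext σ).SameCycle m d →
        (∀ v, v ∈ onFace σ d → some v ∈ onFace σ' (cD G T d)) ∧
        ∀ d', (faceNext σ').SameCycle (cD G T d) (cD G T d') → (faceNext σ).SameCycle d d' := by
  classical
  have hfin : T.Finite := Set.toFinite _
  obtain ⟨σ', h1, h2, h3⟩ := cap_aux2 (d₀ := m) hP hfin.toFinset (by simpa using hT)
    (by simpa using hTm) T (by simp)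
  refine ⟨σ', h1, fun d hd => ?_⟩
  obtain ⟨a1, a2⟩ := h3 d hd
  refine ⟨?_, ?_⟩
  · rintro v ⟨d', k1, k2⟩
    exact ⟨cD G _ d', a1 d' k1, by rw [cD_fst, k2]⟩
  · intro d' k
    obtain ⟨d'', e1, h4⟩ := a2 _ k
    rwa [cD_inj G _ e1]

open Classical in
/-- one marked face less -/
theorem top_step [Finite V] {σ : Equiv.Perm G.Dart} {MA MB : Finset G.Dart} (hD : 1 ≤ D)
    (hP : PlaneMap G σ) (hW : WideL G ℓ h D L (A ∪ onM σ MA) (B ∪ onM σ MB))
    (hsep : ∀ m ∈ MA, ∀ m' ∈ MB, ¬ (faceNext σ).SameCycle m m') {m : G.Dart} (hm : m ∈ MB) :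
    ∃ (W : Type) (_ : Finite W) (G' : SimpleGraph W) (σ' : Equiv.Perm G'.Dart)
      (ℓ' : Sym2 W → ℝ) (h' : W → ℝ) (L' A' B' : Set W) (MA' MB' : Finset G'.Dart),
      PlaneMap G' σ' ∧ WideL G' ℓ' h' D L' (A' ∪ onM σ' MA') (B' ∪ onM σ' MB') ∧
      (∀ m ∈ MA', ∀ m' ∈ MB', ¬ (faceNext σ').SameCycle m m') ∧
      Nat.card W ≤ Nat.card V + 1 ∧ MA'.card ≤ MA.card ∧ MB'.card + 1 ≤ MB.card ∧
      A'.ncard ≤ A.ncard ∧ B'.ncard ≤ B.ncard + 1 ∧
      ∀ K : ℝ, EmbedsL1 (fun u v : L' => pathDist G' ℓ' u v) K →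
        EmbedsL1 (fun u v : L => pathDist G ℓ u v) K := by
  have hpos := Finset.card_pos.2 ⟨m, hm⟩
  have hec := Finset.card_erase_of_mem hm
  set T : Set V := onFace σ m ∩ L with hTdef
  rcases T.eq_empty_or_nonempty with hTe | hT
  · refine ⟨V, inferInstance, G, σ, ℓ, h, L, A, B, MA, MB.erase m, hP, widen hW ?_,
      fun m₁ hm₁ m₂ hm₂ => hsep m₁ hm₁ m₂ (Finset.mem_of_mem_erase hm₂), by omega, le_rfl,
      by omega, le_rfl, by omega, fun K hK => hK⟩
    rintro v hv (h1 | ⟨m', hm', h1⟩)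
    · exact Or.inl h1
    · refine Or.inr ⟨m', Finset.mem_erase.2 ⟨?_, hm'⟩, h1⟩
      rintro rfl
      have h2 : v ∈ T := ⟨h1, hv⟩
      rw [hTe] at h2
      exact h2
  · have hne : Nonempty V := hW.conn.nonempty
    obtain ⟨σ', hP', h0⟩ := cap_facesT hP hT (m := m) Set.inter_subset_left
    obtain ⟨M₀, H, h1, h2⟩ := exists_height G ℓ h
    set N : Finset G.Dart := MB.filter fun m' => ¬ (faceNext σ).SameCycle m m' with hN
    have hNM : N ⊆ MB.erase m := by
      intro m' hm'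
      rw [hN, Finset.mem_filter] at hm'
      refine Finset.mem_erase.2 ⟨?_, hm'.1⟩
      rintro rfl
      exact hm'.2 (Equiv.Perm.SameCycle.refl _ _)
    have hNc : N.card + 1 ≤ MB.card := by
      have h3 := Finset.card_le_card hNM
      omega
    have hW1 : WideL G ℓ h D L (A ∪ onM σ MA) ((B ∪ onM σ N) ∪ T) := widen hW (by
      rintro v hv (h3 | ⟨m', hm', h3⟩)
      · exact Or.inl (Or.inl h3)
      · by_cases hs : (faceNext σ).SameCycle m m'
        · exact Or.inr ⟨onFace_same hs h3, hv⟩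
        · exact Or.inl (Or.inr ⟨m', Finset.mem_filter.2 ⟨hm', hs⟩, h3⟩))
    have hW2 := capT hW1 hD hT Set.inter_subset_right h1 h2
    have hW3 : WideL (capG G T) (capL ℓ h H) (capH h H) D (capSet L)
        (some '' A ∪ onM σ' (MA.image (cD G T)))
        ((some '' B ∪ {none}) ∪ onM σ' (N.image (cD G T))) := by
      refine widen_low (widen hW2 ?_) ?_
      · rintro v hv (⟨w, hw | ⟨m', hm', hw⟩, rfl⟩ | h3)
        · exact Or.inl (Or.inl ⟨w, hw, rfl⟩)
        · exact Or.inr ⟨cD G T m', Finset.mem_image_of_mem _ hm',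
            (h0 m' (Finset.mem_filter.1 hm').2).1 w hw⟩
        · exact Or.inl (Or.inr h3)
      · rintro v hv ⟨w, hw | ⟨m', hm', hw⟩, rfl⟩
        · exact Or.inl ⟨w, hw, rfl⟩
        · exact Or.inr ⟨cD G T m', Finset.mem_image_of_mem _ hm',
            (h0 m' fun hs => hsep m' hm' m hm hs.symm).1 w hw⟩
    refine ⟨Option V, inferInstance, capG G T, σ', capL ℓ h H, capH h H, capSet L, some '' A,
      some '' B ∪ {none}, MA.image (cD G T), N.image (cD G T), hP', hW3, ?_, ?_,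
      Finset.card_image_le, ?_, ?_, ?_, ?_⟩
    · intro m₁ hm₁ m₂ hm₂ hs
      obtain ⟨n₁, hn₁, rfl⟩ := Finset.mem_image.1 hm₁
      obtain ⟨n₂, hn₂, rfl⟩ := Finset.mem_image.1 hm₂
      have hn₂' := Finset.mem_filter.1 hn₂
      exact hsep n₁ hn₁ n₂ hn₂'.1 ((h0 n₁ fun hs => hsep n₁ hn₁ m hm hs.symm).2 n₂ hs)
    · rw [Finite.card_option]
    · have h3 : (N.image (cD G T)).card ≤ N.card := Finset.card_image_le
      omega
    · rw [Set.ncard_image_of_injective A (Option.some_injective V)]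
    · refine (Set.ncard_union_le _ _).trans ?_
      rw [Set.ncard_image_of_injective B (Option.some_injective V), Set.ncard_singleton]
    · intro K hK
      exact embeds_restrict (fun u : L => (⟨some u, Or.inr ⟨u, u.2, rfl⟩⟩ : capSet L))
        (fun x y => cap_dist hW.conn hW.pos hT h1 h2 x y) hK

/-- **from exceptional vertices to exceptional faces, both ends** -/
theorem faces_two {D : ℝ} (hD : 1 ≤ D) {F : ℕ → ℕ → ℝ}
    (hF : ∀ n n' b b', n ≤ n' → b ≤ b' → F n b ≤ F n' b')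
    (hV : ∀ (V : Type) [Finite V] (G : SimpleGraph V) (σ : Equiv.Perm G.Dart) (ℓ : Sym2 V → ℝ)
      (h : V → ℝ) (L A B : Set V), PlaneMap G σ → WideL G ℓ h D L A B →
      EmbedsL1 (fun u v : L => pathDist G ℓ u v) (F (Nat.card V) (A.ncard + B.ncard))) :
    ∀ (k : ℕ) (V : Type) [Finite V] (G : SimpleGraph V) (σ : Equiv.Perm G.Dart)
      (ℓ : Sym2 V → ℝ) (h : V → ℝ) (L A B : Set V) (MA MB : Finset G.Dart),
      MA.card + MB.card ≤ k → PlaneMap G σ → WideL G ℓ h D L (A ∪ onM σ MA) (B ∪ onM σ MB) →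
      (∀ m ∈ MA, ∀ m' ∈ MB, ¬ (faceNext σ).SameCycle m m') →
      EmbedsL1 (fun u v : L => pathDist G ℓ u v)
        (F (Nat.card V + k) (A.ncard + B.ncard + k)) := by
  intro k
  induction k with
  | zero =>
    intro V _ G σ ℓ h L A B MA MB hM hP hW _
    have hMA : MA = ∅ := Finset.card_eq_zero.1 (by omega)
    have hMB : MB = ∅ := Finset.card_eq_zero.1 (by omega)
    subst hMA hMB
    refine hV V G σ ℓ h L A B hP (widen_low (widen hW ?_) ?_)
    · rintro v hv (h1 | ⟨m, hm, -⟩)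
      · exact h1
      · exact absurd hm (Finset.notMem_empty m)
    · rintro v hv (h1 | ⟨m, hm, -⟩)
      · exact h1
      · exact absurd hm (Finset.notMem_empty m)
  | succ k ih =>
    intro V _ G σ ℓ h L A B MA MB hM hP hW hsep
    have hmono : ∀ {K K' : ℝ}, K ≤ K' → EmbedsL1 (fun u v : L => pathDist G ℓ u v) K →
        EmbedsL1 (fun u v : L => pathDist G ℓ u v) K' := by
      intro K K' hK hE
      obtain ⟨Ω, m, μ, f, hf⟩ := hE
      exact ⟨Ω, m, μ, f, fun x y => ⟨(hf x y).1, (hf x y).2.trans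
        (mul_le_mul_of_nonneg_right hK (d_nonneg hW.pos _ _))⟩⟩
    rcases MB.eq_empty_or_nonempty with hB | ⟨m, hm⟩
    · rcases MA.eq_empty_or_nonempty with hA | ⟨m, hm⟩
      · refine hmono ?_ (ih V G σ ℓ h L A B MA MB (by rw [hA, hB]; simp) hP hW hsep)
        exact hF _ _ _ _ (by omega) (by omega)
      · obtain ⟨W, _, G', σ', ℓ', h', L', A', B', MA', MB', e1, e2, e3, e4, e5, e6, e7, e8, e9⟩ :=
          top_step (A := B) (B := A) (MA := MB) (MB := MA) hD hP hW.neg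
            (fun m₁ h₁ m₂ h₂ hs => hsep m₂ h₂ m₁ h₁ hs.symm) hm
        refine e9 _ ?_
        have hE := ih W G' σ' ℓ' h' L' A' B' MA' MB' (by omega) e1 e2 e3
        obtain ⟨Ω, m, μ, f, hf⟩ := hE
        exact ⟨Ω, m, μ, f, fun x y => ⟨(hf x y).1, (hf x y).2.trans
          (mul_le_mul_of_nonneg_right (hF _ _ _ _ (by omega) (by omega))
            (d_nonneg e2.pos _ _))⟩⟩
    · obtain ⟨W, _, G', σ', ℓ', h', L', A', B', MA', MB', e1, e2, e3, e4, e5, e6, e7, e8, e9⟩ :=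
        top_step hD hP hW hsep hm
      refine e9 _ ?_
      have hE := ih W G' σ' ℓ' h' L' A' B' MA' MB' (by omega) e1 e2 e3
      obtain ⟨Ω, m, μ, f, hf⟩ := hE
      exact ⟨Ω, m, μ, f, fun x y => ⟨(hf x y).1, (hf x y).2.trans
        (mul_le_mul_of_nonneg_right (hF _ _ _ _ (by omega) (by omega))
          (d_nonneg e2.pos _ _))⟩⟩

/-- **Terminals, many sources and sinks, vertices and faces.**  `G` is any plane graph with
positive lengths, `L` any set of vertices (terminals), `h` nonexpansive on `L`; every terminal has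
a neighbour in `L` with slope at least `1/D` downwards, or is in `A` or on one of the faces of
`MA`; every terminal has one upwards, or is in `B` or on one of the faces of `MB`. -/
theorem ends_terminals {C : ℝ} (hC : 1 ≤ C) (hM : MStarLL C) (V : Type) [Finite V]
    (G : SimpleGraph V) (σ : Equiv.Perm G.Dart) (ℓ : Sym2 V → ℝ) (h : V → ℝ) (L : Set V)
    (A B : Finset V) (MA MB : Finset G.Dart) (D : ℝ) (hD : 1 ≤ D)
    (hc : G.Connected) (hP : PlaneMap G σ) (hℓ : ∀ e ∈ G.edgeSet, 0 < ℓ e)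
    (hsep : ∀ m ∈ MA, ∀ m' ∈ MB, ¬ (faceNext σ).SameCycle m m')
    (h1 : ∀ u ∈ L, ∀ v ∈ L, |h u - h v| ≤ pathDist G ℓ u v)
    (hlow : ∀ v ∈ L, (∃ u ∈ L, G.Adj v u ∧ ℓ s(v, u) ≤ D * (h v - h u)) ∨ v ∈ A ∨
      ∃ m ∈ MA, v ∈ onFace σ m)
    (hhigh : ∀ v ∈ L, (∃ u ∈ L, G.Adj v u ∧ ℓ s(v, u) ≤ D * (h u - h v)) ∨ v ∈ B ∨
      ∃ m ∈ MB, v ∈ onFace σ m) :
    EmbedsL1 (fun u v : L => pathDist G ℓ u v) (1600000000000000 * C * D *
      ((ll (Nat.card V) : ℝ) + 1 +
        Real.log (((A.card + B.card + MA.card + MB.card : ℕ) : ℝ) + 2))) := by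
  classical
  have hne : Nonempty V := hc.nonempty
  have hcard : 1 ≤ Nat.card V := Nat.card_pos
  obtain ⟨a, b, hab⟩ := planeMap_adj hc hP
  have hcard2 : 2 ≤ Nat.card V := by
    have := Fintype.ofFinite V
    rw [Nat.card_eq_fintype_card]
    exact Fintype.one_lt_card_iff.2 ⟨a, b, hab.ne⟩
  let F : ℕ → ℕ → ℝ := fun n b => 320000000000000 * C * D *
    ((ll n : ℝ) + 1 + Real.log ((b : ℝ) + 2))
  have hF : ∀ n n' b b', n ≤ n' → b ≤ b' → F n b ≤ F n' b' := by
    intro n n' b b' hn hb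
    have h2 : (ll n : ℝ) ≤ ll n' := by exact_mod_cast ll_mono' hn
    have h3 : Real.log ((b : ℝ) + 2) ≤ Real.log ((b' : ℝ) + 2) := by
      refine Real.log_le_log (by positivity) ?_
      have : (b : ℝ) ≤ b' := by exact_mod_cast hb
      linarith
    refine mul_le_mul_of_nonneg_left ?_ (by positivity)
    linarith
  have hV : ∀ (V : Type) [Finite V] (G : SimpleGraph V) (σ : Equiv.Perm G.Dart) (ℓ : Sym2 V → ℝ)
      (h : V → ℝ) (L A B : Set V), PlaneMap G σ → WideL G ℓ h D L A B →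
      EmbedsL1 (fun u v : L => pathDist G ℓ u v) (F (Nat.card V) (A.ncard + B.ncard)) := by
    intro V' _ G' σ' ℓ' h' L' A' B' hP' hW'
    have hE := FewT.few_terminals hC hM V' G' σ' ℓ' h' L' A' B' D hD hW'.conn hP' hW'.pos hW'.lip
      (fun v hv hvA => hW'.low v hv hvA) (fun v hv hvB => hW'.high v hv hvB)
    have h2 : (320000000000000 * C * D *
        ((ll (Nat.card V') : ℝ) + 1 + Real.log ((A'.ncard : ℝ) + B'.ncard + 2))) =
        F (Nat.card V') (A'.ncard + B'.ncard) := by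
      show _ = 320000000000000 * C * D *
        ((ll (Nat.card V') : ℝ) + 1 + Real.log (((A'.ncard + B'.ncard : ℕ) : ℝ) + 2))
      push_cast
      rfl
    rwa [h2] at hE
  obtain ⟨NA, n1, n2, n3⟩ := few_marks σ MA
  obtain ⟨NB, n4, n5, n6⟩ := few_marks σ MB
  have hW : WideL G ℓ h D L ((A : Set V) ∪ onM σ NA) ((B : Set V) ∪ onM σ NB) :=
    ⟨hc, hℓ, h1, fun v hv hvB => by
      rcases hlow v hv with h2 | h2 | h2
      · exact h2
      · exact absurd (Or.inl h2) hvB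
      · exact absurd (Or.inr (n3 h2)) hvB, fun v hv hvB => by
      rcases hhigh v hv with h2 | h2 | h2
      · exact h2
      · exact absurd (Or.inl h2) hvB
      · exact absurd (Or.inr (n6 h2)) hvB⟩
  have hE := faces_two hD hF hV (NA.card + NB.card) V G σ ℓ h L (A : Set V) (B : Set V) NA NB
    le_rfl hP hW (fun m hm m' hm' => hsep m (n1 hm) m' (n4 hm'))
  have c1 := Finset.card_le_card n1
  have c2 := Finset.card_le_card n4
  rw [Set.ncard_coe_finset, Set.ncard_coe_finset] at hE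
  obtain ⟨Ω, m, μ, f, hf⟩ := hE
  refine ⟨Ω, m, μ, f, fun x y => ⟨(hf x y).1, (hf x y).2.trans
    (mul_le_mul_of_nonneg_right ?_ (d_nonneg hℓ _ _))⟩⟩
  refine (hF _ (3 * Nat.card V) _ (A.card + B.card + MA.card + MB.card) (by omega)
    (by omega)).trans ?_
  show 320000000000000 * C * D * ((ll (3 * Nat.card V) : ℝ) + 1 +
    Real.log (((A.card + B.card + MA.card + MB.card : ℕ) : ℝ) + 2)) ≤ _
  have h2 : (ll (3 * Nat.card V) : ℝ) ≤ (ll (Nat.card V) : ℝ) + 2 := by
    exact_mod_cast ll_add_sq _ hcard (by nlinarith)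
  have h3 : (0 : ℝ) ≤ ll (Nat.card V) := Nat.cast_nonneg _
  have h4 : 0 ≤ Real.log (((A.card + B.card + MA.card + MB.card : ℕ) : ℝ) + 2) :=
    Real.log_nonneg (by
      have : (0 : ℝ) ≤ ((A.card + B.card + MA.card + MB.card : ℕ) : ℝ) := Nat.cast_nonneg _
      linarith)
  have h5 : (0 : ℝ) ≤ C * D := by positivity
  have h6 : (ll (3 * Nat.card V) : ℝ) + 1 +
      Real.log (((A.card + B.card + MA.card + MB.card : ℕ) : ℝ) + 2) ≤
      3 * ((ll (Nat.card V) : ℝ) + 1 +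
        Real.log (((A.card + B.card + MA.card + MB.card : ℕ) : ℝ) + 2)) := by
    linarith
  have h7 := mul_le_mul_of_nonneg_left h6 h5
  have h8 : 0 ≤ C * D * ((ll (Nat.card V) : ℝ) + 1 +
        Real.log (((A.card + B.card + MA.card + MB.card : ℕ) : ℝ) + 2)) := by positivity
  nlinarith

end Vale.Agent.P235.R2.H582.FaceT
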