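import Vale.Agent.P235.R2.H611.TermFinal

/-!
P235-M (helper582).  Terminals: from exceptional vertices to exceptional faces.
-/

set_option autoImplicit false
set_option linter.all false

namespace Vale.Agent.P235.R2.H582.FaceT

open SimpleGraph Vale.Agent.P235 Vale.Agent.P235.Red Vale.Agent.P235.Red.F0 Vale.Agent.P235.Tight
  Vale.Agent.P235.H341W Vale.Agent.P235.Red.W3 Vale.Agent.P235.Quo

variable {V : Type} {G : SimpleGraph V} {ℓ : Sym2 V → ℝ} {h : V → ℝ} {D : ℝ} {L B₁ B₂ T : Set V}

theorem widen (hW : WideL G ℓ h D L B₁ B₂) {B₂' : Set V} (hB : ∀ v ∈ L, v ∈ B₂ → v ∈ B₂') :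
    WideL G ℓ h D L B₁ B₂' where
  conn := hW.conn
  pos := hW.pos
  lip := hW.lip
  low := hW.low
  high := fun v hv hvB => hW.high v hv fun h1 => hvB (hB v hv h1)

/-- one new top joined to the terminals in `T` -/
theorem capT [Finite V] (hW : WideL G ℓ h D L B₁ (B₂ ∪ T)) (hD : 1 ≤ D) (hT : T.Nonempty)
    (hTL : T ⊆ L) {M H : ℝ} (hM : ∀ x y, pathDist G ℓ x y ≤ M) (hH : ∀ v, M < H - h v) :
    WideL (capG G T) (capL ℓ h H) (capH h H) D (capSet L) (some '' B₁) (some '' B₂ ∪ {none}) := by
  have hT' := hT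
  obtain ⟨x, hxT⟩ := hT'
  have hx : x ∈ L := hTL hxT
  have hM0 : 0 ≤ M := (pd_nonneg hW.pos x x).trans (hM x x)
  have hcc : (capG G T).Connected := cap_connected hW.conn hT
  have hpos : ∀ e ∈ (capG G T).edgeSet, 0 < capL ℓ h H e := by
    intro e he
    induction e with
    | _ a b =>
      rcases a with _ | a <;> rcases b with _ | b
      · exact absurd he (by simp [capG])
      · rw [capL_ns]; exact abs_pos.2 (by linarith [hH b])
      · rw [capL_sn]; exact abs_pos.2 (by linarith [hH a])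
      · rw [capL_some]; exact hW.pos _ he
  have hnone : ∀ v ∈ L, |H - h v| ≤ pathDist (capG G T) (capL ℓ h H) none (some v) := by
    intro v hv
    set f : Option V → ℝ := fun u => match u with
      | none => H - h v
      | some u => pathDist G ℓ u v with hf
    have hl : ∀ a b, (capG G T).Adj a b → |f a - f b| ≤ capL ℓ h H s(a, b) := by
      have k1 : ∀ y, y ∈ T → |H - h v - pathDist G ℓ y v| ≤ |H - h y| := by
        intro y hy
        have h1 := le_of_abs_le (hW.lip y (hTL hy) v hv)
        have h2 := hM y v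
        have h3 := hH v
        have h4 := hH y
        rw [abs_of_nonneg (show 0 ≤ H - h y by linarith), abs_le]
        constructor <;> linarith
      rintro (_ | a) (_ | b) ha
      · exact absurd ha (fun h => h)
      · exact k1 b ha
      · show |pathDist G ℓ a v - (H - h v)| ≤ |H - h a|
        rw [abs_sub_comm]
        exact k1 a ha
      · have ha' : G.Adj a b := ha
        have h1 := d_tri hW.conn hW.pos a b v
        have h2 := d_tri hW.conn hW.pos b a v
        have h3 := d_adj hW.pos ha'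
        rw [d_symm hW.conn hW.pos b a] at h2
        show |pathDist G ℓ a v - pathDist G ℓ b v| ≤ ℓ s(a, b)
        rw [abs_le]
        constructor <;> linarith
    have h1 := R2.H673.abs_sub_le_pathDist hl (hcc none (some v))
    have h2 : f none - f (some v) = H - h v := by
      show H - h v - pathDist G ℓ v v = H - h v
      rw [d_self hW.pos, sub_zero]
    rwa [h2] at h1
  refine ⟨hcc, hpos, ?_, ?_, ?_⟩
  · rintro u (rfl | ⟨u, hu, rfl⟩) v (rfl | ⟨v, hv, rfl⟩)
    · show |H - H| ≤ _
      rw [sub_self, abs_zero]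
      exact d_nonneg hpos _ _
    · exact hnone v hv
    · show |h u - H| ≤ _
      rw [abs_sub_comm, R2.H673.pathDist_comm']
      exact hnone u hu
    · rw [cap_dist hW.conn hW.pos hT hM hH]
      exact hW.lip u hu v hv
  · rintro v (rfl | ⟨v, hv, rfl⟩) hvB
    · refine ⟨some x, Or.inr ⟨x, hx, rfl⟩, hxT, ?_⟩
      show |H - h x| ≤ D * (H - h x)
      rw [abs_of_nonneg (by linarith [hH x])]
      exact le_mul_of_one_le_left (by linarith [hH x]) hD
    · obtain ⟨u, hu, ha, h1⟩ := hW.low v hv (fun h3 => hvB ⟨v, h3, rfl⟩)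
      exact ⟨some u, Or.inr ⟨u, hu, rfl⟩, ha, h1⟩
  · rintro v (rfl | ⟨v, hv, rfl⟩) hvB
    · exact absurd (Or.inr rfl) hvB
    · have hvB' : v ∉ B₂ := fun h3 => hvB (Or.inl ⟨v, h3, rfl⟩)
      by_cases hvT : v ∈ T
      · refine ⟨none, Or.inl rfl, hvT, ?_⟩
        show |H - h v| ≤ D * (H - h v)
        rw [abs_of_nonneg (by linarith [hH v])]
        exact le_mul_of_one_le_left (by linarith [hH v]) hD
      · obtain ⟨u, hu, ha, h1⟩ := hW.high v hv (by
          rintro (h3 | h3)
          · exact hvB' h3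
          · exact hvT h3)
        exact ⟨some u, Or.inr ⟨u, hu, rfl⟩, ha, h1⟩

/-- a bound `F n b` for graphs with `n` vertices and `b` exceptional terminals upwards -/
def VForm (D : ℝ) (α : ℕ) (F : ℕ → ℕ → ℝ) : Prop :=
  ∀ (V : Type) [Finite V] (G : SimpleGraph V) (σ : Equiv.Perm G.Dart) (ℓ : Sym2 V → ℝ)
    (h : V → ℝ) (L A B : Set V), PlaneMap G σ → WideL G ℓ h D L A B → A.ncard ≤ α →
    EmbedsL1 (fun u v : L => pathDist G ℓ u v) (F (Nat.card V) B.ncard)

/-- the vertices on the faces of `M` -/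
def onM {V : Type} {G : SimpleGraph V} (σ : Equiv.Perm G.Dart) (M : Finset G.Dart) : Set V :=
  {v | ∃ m ∈ M, v ∈ onFace σ m}

theorem onFace_same {σ : Equiv.Perm G.Dart} {m m' : G.Dart}
    (hs : (faceNext σ).SameCycle m m') {v : V} (hv : v ∈ onFace σ m') : v ∈ onFace σ m := by
  obtain ⟨d, hd, h1⟩ := hv
  exact ⟨d, hs.trans hd, h1⟩

/-- **from exceptional vertices to exceptional faces** -/
theorem faces_of {D : ℝ} (hD : 1 ≤ D) {α : ℕ} {F : ℕ → ℕ → ℝ}
    (hF : ∀ n n' b b', n ≤ n' → b ≤ b' → F n b ≤ F n' b') (hV : VForm D α F) :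
    ∀ (k : ℕ) (V : Type) [Finite V] (G : SimpleGraph V) (σ : Equiv.Perm G.Dart)
      (ℓ : Sym2 V → ℝ) (h : V → ℝ) (L A B : Set V) (M : Finset G.Dart), M.card ≤ k →
      PlaneMap G σ → WideL G ℓ h D L A (B ∪ onM σ M) → A.ncard ≤ α →
      EmbedsL1 (fun u v : L => pathDist G ℓ u v) (F (Nat.card V + k) (B.ncard + k)) := by
  classical
  intro k
  induction k with
  | zero =>
    intro V _ G σ ℓ h L A B M hM hP hW hA
    have hM0 : M = ∅ := Finset.card_eq_zero.1 (Nat.le_zero.1 hM)
    subst hM0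
    exact hV V G σ ℓ h L A B hP (widen hW (by
      rintro v hv (h1 | ⟨m, hm, -⟩)
      · exact h1
      · exact absurd hm (Finset.notMem_empty m))) hA
  | succ k ih =>
    intro V _ G σ ℓ h L A B M hM hP hW hA
    have hne : Nonempty V := hW.conn.nonempty
    have hmono : ∀ {X : Type} {d : X → X → ℝ}, (∀ x y, 0 ≤ d x y) → ∀ {K K' : ℝ}, K ≤ K' →
        EmbedsL1 d K → EmbedsL1 d K' := by
      intro X d hd K K' hK hE
      obtain ⟨Ω, m, μ, f, hf⟩ := hE
      exact ⟨Ω, m, μ, f, fun x y => ⟨(hf x y).1, (hf x y).2.trans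
        (mul_le_mul_of_nonneg_right hK (hd x y))⟩⟩
    rcases M.eq_empty_or_nonempty with rfl | ⟨m, hm⟩
    · refine hmono (fun x y => d_nonneg hW.pos _ _) ?_
        (ih V G σ ℓ h L A B ∅ (Nat.zero_le _) hP hW hA)
      exact hF _ _ _ _ (by omega) (by omega)
    set T : Set V := onFace σ m ∩ L with hTdef
    rcases T.eq_empty_or_nonempty with hTe | hT
    · -- nothing on this face
      refine hmono (fun x y => d_nonneg hW.pos _ _) ?_
        (ih V G σ ℓ h L A B (M.erase m) (by
          rw [Finset.card_erase_of_mem hm]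
          omega) hP (widen hW ?_) hA)
      · exact hF _ _ _ _ (by omega) (by omega)
      · rintro v hv (h1 | ⟨m', hm', h1⟩)
        · exact Or.inl h1
        · refine Or.inr ⟨m', Finset.mem_erase.2 ⟨?_, hm'⟩, h1⟩
          rintro rfl
          have h2 : v ∈ T := ⟨h1, hv⟩
          rw [hTe] at h2
          exact h2
    · obtain ⟨σ', hP', h0⟩ := R2.H582.rowCap2 V G σ m T hW.conn hP hT Set.inter_subset_left
      have hnd : Nonempty (capG G T).Dart := by
        obtain ⟨x, hx⟩ := hT
        have ha : (capG G T).Adj none (some x) := hx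
        exact ⟨⟨(none, some x), ha⟩⟩
      choose! d' hd' using h0
      obtain ⟨M₀, H, h1, h2⟩ := exists_height G ℓ h
      set N : Finset G.Dart := M.filter fun m' => ¬ (faceNext σ).SameCycle m m' with hN
      have hNM : N ⊆ M.erase m := by
        intro m' hm'
        rw [hN, Finset.mem_filter] at hm'
        refine Finset.mem_erase.2 ⟨?_, hm'.1⟩
        rintro rfl
        exact hm'.2 (Equiv.Perm.SameCycle.refl _ _)
      have hNc : N.card ≤ k := by
        have h3 := Finset.card_le_card hNM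
        rw [Finset.card_erase_of_mem hm] at h3
        omega
      set M' : Finset (capG G T).Dart := N.image d' with hM'
      have hM'c : M'.card ≤ k := Finset.card_image_le.trans hNc
      have hW1 : WideL G ℓ h D L A ((B ∪ onM σ N) ∪ T) := widen hW (by
        rintro v hv (h3 | ⟨m', hm', h3⟩)
        · exact Or.inl (Or.inl h3)
        · by_cases hs : (faceNext σ).SameCycle m m'
          · exact Or.inr ⟨onFace_same hs h3, hv⟩
          · exact Or.inl (Or.inr ⟨m', Finset.mem_filter.2 ⟨hm', hs⟩, h3⟩))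
      have hW2 := capT hW1 hD hT Set.inter_subset_right h1 h2
      have hW3 : WideL (capG G T) (capL ℓ h H) (capH h H) D (capSet L) (some '' A)
          ((some '' B ∪ {none}) ∪ onM σ' M') := widen hW2 (by
        rintro v hv (⟨w, hw | ⟨m', hm', hw⟩, rfl⟩ | h3)
        · exact Or.inl (Or.inl ⟨w, hw, rfl⟩)
        · refine Or.inr ⟨d' m', Finset.mem_image_of_mem _ hm', ?_⟩
          exact hd' m' (Finset.mem_filter.1 hm').2 w hw
        · exact Or.inl (Or.inr h3))
      have hE := ih (Option V) (capG G T) σ' (capL ℓ h H) (capH h H) (capSet L) (some '' A)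
        (some '' B ∪ {none}) M' hM'c hP' hW3
        ((Set.ncard_image_of_injective A (Option.some_injective V)).le.trans hA)
      have hE' := embeds_restrict (fun u : L => (⟨some u, Or.inr ⟨u, u.2, rfl⟩⟩ : capSet L))
        (fun x y => cap_dist hW.conn hW.pos hT h1 h2 x y) hE
      refine hmono (fun x y => d_nonneg hW.pos _ _) ?_ hE'
      refine hF _ _ _ _ ?_ ?_
      · rw [Finite.card_option]
        omega
      · have h3 : (some '' B ∪ {none} : Set (Option V)).ncard ≤ B.ncard + 1 := by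
          refine (Set.ncard_union_le _ _).trans ?_
          rw [Set.ncard_image_of_injective B (Option.some_injective V), Set.ncard_singleton]
        omega

/-- at most one face per vertex is needed -/
theorem few_marks [Finite V] (σ : Equiv.Perm G.Dart) (M : Finset G.Dart) :
    ∃ M₀ ⊆ M, M₀.card ≤ Nat.card V ∧ onM σ M ⊆ onM σ M₀ := by
  classical
  have := Fintype.ofFinite V
  have hch : ∀ v : onM σ M, ∃ m, m ∈ M ∧ v.1 ∈ onFace σ m := fun v => v.2
  choose f hf1 hf2 using hch
  have : Fintype (onM σ M) := Fintype.ofFinite _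
  refine ⟨Finset.univ.image f, ?_, ?_, ?_⟩
  · intro m hm
    rw [Finset.mem_image] at hm
    obtain ⟨v, -, rfl⟩ := hm
    exact hf1 v
  · refine Finset.card_image_le.trans ?_
    rw [Finset.card_univ, ← Nat.card_eq_fintype_card]
    exact Nat.card_le_card_of_injective _ Subtype.val_injective
  · intro v hv
    exact ⟨f ⟨v, hv⟩, Finset.mem_image_of_mem _ (Finset.mem_univ _), hf2 ⟨v, hv⟩⟩

/-- faces, at most twice as many vertices -/
theorem faces_of' {D : ℝ} (hD : 1 ≤ D) {α : ℕ} {F : ℕ → ℕ → ℝ}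
    (hF : ∀ n n' b b', n ≤ n' → b ≤ b' → F n b ≤ F n' b') (hV : VForm D α F)
    (V : Type) [Finite V] (G : SimpleGraph V) (σ : Equiv.Perm G.Dart)
    (ℓ : Sym2 V → ℝ) (h : V → ℝ) (L A B : Set V) (M : Finset G.Dart)
    (hP : PlaneMap G σ) (hW : WideL G ℓ h D L A (B ∪ onM σ M)) (hA : A.ncard ≤ α) :
    EmbedsL1 (fun u v : L => pathDist G ℓ u v) (F (2 * Nat.card V) (B.ncard + M.card)) := by
  obtain ⟨M₀, h1, h2, h3⟩ := few_marks σ M
  have hE := faces_of hD hF hV M₀.card V G σ ℓ h L A B M₀ le_rfl hP (widen hW (by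
    rintro v hv (h4 | h4)
    · exact Or.inl h4
    · exact Or.inr (h3 h4))) hA
  have h4 := Finset.card_le_card h1
  obtain ⟨Ω, m, μ, f, hf⟩ := hE
  exact ⟨Ω, m, μ, f, fun x y => ⟨(hf x y).1, (hf x y).2.trans
    (mul_le_mul_of_nonneg_right (hF _ _ _ _ (by omega) (by omega)) (d_nonneg hW.pos _ _))⟩⟩

/-- both kinds of faces: `F n a b`, with exceptional faces downwards -/
theorem neg_form {V : Type} {G : SimpleGraph V} {ℓ : Sym2 V → ℝ} {h : V → ℝ} {D : ℝ}
    {L A B : Set V} (hW : WideL G ℓ h D L A B) : WideL G ℓ (fun v => - h v) D L B A := hW.neg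

end Vale.Agent.P235.R2.H582.FaceT
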