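import Vale.Agent.P235.R2.H582.FewT

/-!
P235-M (helper582).  Terminals in a plane graph with few exceptional terminals: the theorem.
-/

set_option autoImplicit false
set_option linter.all false

namespace Vale.Agent.P235.R2.H582.FewT

open SimpleGraph Relation Vale.Agent.P235 Vale.Agent.P235.Red Vale.Agent.P235.Quo
  Vale.Agent.P235.R2.H582.GL Vale.Agent.P235.H341W
open Vale.Agent.P235.R2.H168 (hlen hlen_mk)

/-- **Few exceptional terminals, tight form.** -/
theorem few_tight {C : ℝ} (hC : 1 ≤ C) (hM : MStarLL C) (V : Type) [Finite V]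
    (G : SimpleGraph V) (σ : Equiv.Perm G.Dart) (ℓ : Sym2 V → ℝ) (h : V → ℝ) (L A B : Set V)
    (hc : G.Connected) (hP : PlaneMap G σ) (hℓ : ∀ e ∈ G.edgeSet, 0 < ℓ e)
    (h1 : ∀ u ∈ L, ∀ v ∈ L, |h u - h v| ≤ pathDist G ℓ u v)
    (hlow : ∀ v ∈ L, v ∉ A → ∃ u, T G ℓ h L u v)
    (hhigh : ∀ v ∈ L, v ∉ B → ∃ u, T G ℓ h L v u) :
    EmbedsL1 (fun u v : L => pathDist G ℓ u v) (320000000000000 * C *
      ((ll (Nat.card V) : ℝ) + 1 + Real.log ((A.ncard : ℝ) + B.ncard + 2))) := by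
  classical
  rcases L.eq_empty_or_nonempty with rfl | hL
  · exact embeds_empty _
  have hd := pathDist_isMet hc hℓ
  have hgc := gr_conn hc hℓ hL
  have hgℓ := gl_pos (L := L) hc hℓ
  obtain ⟨X, hXne, hXl, hX⟩ := exists_cover hc ⟨σ, hP⟩ hℓ h1 hL hlow hhigh
  have hch : ∀ u : L, ∃ a b, u.1 ∈ Btw G ℓ h L a b ∧
      (u ∉ X → ∀ v ∈ compSet (gr G L) X u, v.1 ∈ Btw G ℓ h L a b) := by
    intro u
    by_cases hu : u ∈ X
    · exact ⟨u, u, ⟨u.2, ReflTransGen.refl, ReflTransGen.refl⟩, fun h2 => absurd hu h2⟩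
    · obtain ⟨a, -, b, -, h2, h3⟩ := hX u hu
      exact ⟨a, b, h2, fun _ => h3⟩
  choose a b hu hcomp using hch
  let Λ : L → Set V := fun u => Btw G ℓ h L (a u) (b u)
  have hΛne : ∀ u, (Λ u).Nonempty := fun u => ⟨u.1, hu u⟩
  let C₀ : ℝ := 219073 * 96 * C * 1 * (2 * 1 + 1) * ((ll (Nat.card V) : ℝ) + 1)
  let Q : ∀ (V : Type), SimpleGraph V → (Sym2 V → ℝ) → Prop := fun V' G' ℓ' =>
    EmbedsL1 (pathDist G' ℓ') C₀
  have hll : (0 : ℝ) ≤ (ll (Nat.card V) : ℝ) := Nat.cast_nonneg _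
  have hC₀ : 1 ≤ C₀ := by
    show (1 : ℝ) ≤ 219073 * 96 * C * 1 * (2 * 1 + 1) * ((ll (Nat.card V) : ℝ) + 1)
    nlinarith
  have hleaf : ∀ u, Q (Λ u) (gr G (Λ u)) (gl G ℓ (Λ u)) := by
    intro u
    have haL : a u ∈ L := (hu u).2.1.left_mem u.2
    have hbL : b u ∈ L := (hu u).2.2.right_mem u.2
    have hab : Up G ℓ h L (a u) (b u) := (hu u).2.1.trans (hu u).2.2
    have hE := term_embeds quo_row w2_row hC hM V G σ ℓ (Λ u) h (a u) (b u) 1 le_rfl hc hP hℓ
      (fun x hx y hy => h1 x hx.1 y hy.1)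
      ⟨haL, ReflTransGen.refl, hab⟩ ⟨hbL, hab, ReflTransGen.refl⟩
      (fun v hv hva => by
        rcases ReflTransGen.cases_tail hv.2.1 with h4 | ⟨w, h4, h5⟩
        · exact absurd h4 hva
        · refine ⟨w, ⟨h5.2.2.1, h4, ReflTransGen.head h5 hv.2.2⟩, h5.1.symm, ?_⟩
          rw [Sym2.eq_swap, one_mul]
          exact h5.2.1)
      (fun v hv hvb => by
        rcases ReflTransGen.cases_head hv.2.2 with h4 | ⟨w, h4, h5⟩
        · exact absurd h4 hvb
        · refine ⟨w, ⟨h4.2.2.2, ReflTransGen.tail hv.2.1 h4, h5⟩, h4.1, ?_⟩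
          rw [one_mul]
          exact h4.2.1)
    show EmbedsL1 (pathDist (gr G (Λ u)) (gl G ℓ (Λ u))) C₀
    rw [show pathDist (gr G (Λ u)) (gl G ℓ (Λ u)) = fun x y : Λ u => pathDist G ℓ x y from
      funext fun x => funext fun y => gr_dist hc hℓ x y]
    exact hE
  have hrounds : Rounds Q (2 * (A.ncard + B.ncard) ^ 3 + 1) 0 (0 + 1) (gr G L) (gl G ℓ L) := by
    refine Rounds.lanes (W := fun u => Λ u) (G' := fun u => gr G (Λ u))
      (ℓ' := fun u => gl G ℓ (Λ u))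
      (κ := fun u v => ⟨v.1.1, hcomp u (ReachOff.left v.2) v.1 v.2⟩) hXne hXl ?_ ?_
    · intro u hu'
      refine ⟨inferInstance, gr_conn hc hℓ (hΛne u), gl_pos hc hℓ, fun x y hxy => ?_,
        fun x y => ?_⟩
      · rw [gr_dist hc hℓ]
        exact le_gl hxy fun w _ => F0.d_le hℓ w
      · rw [gr_dist hc hℓ, gr_dist hc hℓ]
    · exact fun u _ => Rounds.leaf (hleaf u)
  have hmain := rounds_distortion Q hC₀ (fun V' _ G' ℓ' _ _ h2 => h2)
    (2 * (A.ncard + B.ncard) ^ 3 + 1) 0 (0 + 1) L (gr G L) (gl G ℓ L) hgc hgℓ hrounds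
  rw [show pathDist (gr G L) (gl G ℓ L) = fun x y : L => pathDist G ℓ x y from
    funext fun x => funext fun y => gr_dist hc hℓ x y] at hmain
  obtain ⟨Ω, m, μ, g, hg⟩ := hmain
  refine ⟨Ω, m, μ, g, fun x y => ⟨(hg x y).1, (hg x y).2.trans
    (mul_le_mul_of_nonneg_right ?_ (hd.nonneg _ _))⟩⟩
  obtain ⟨M, hM'⟩ : ∃ M : ℝ, M = (A.ncard : ℝ) + B.ncard := ⟨_, rfl⟩
  have hM0 : 0 ≤ M := by rw [hM']; positivity
  rw [← hM']
  have hlog : Real.log (((2 * (A.ncard + B.ncard) ^ 3 + 1 : ℕ) : ℝ) + 2) ≤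
      4 * Real.log (M + 2) := by
    rw [show (4 : ℝ) * Real.log (M + 2) = Real.log ((M + 2) ^ 4) by
      rw [Real.log_pow]; norm_num]
    apply Real.log_le_log (by positivity)
    push_cast
    rw [← hM']
    nlinarith [pow_nonneg hM0 2, pow_nonneg hM0 3, pow_nonneg hM0 4]
  have hlog0 : 0 ≤ Real.log (M + 2) := Real.log_nonneg (by linarith)
  show 5000000 * (219073 * 96 * C * 1 * (2 * 1 + 1) * ((ll (Nat.card V) : ℝ) + 1) +
    ((0 + 1 : ℕ) : ℝ) * (((0 : ℕ) : ℝ) +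
      Real.log (((2 * (A.ncard + B.ncard) ^ 3 + 1 : ℕ) : ℝ) + 2))) ≤ _
  have h7 : Real.log (M + 2) ≤ C * Real.log (M + 2) := by nlinarith
  have h8 : 0 ≤ C * ((ll (Nat.card V) : ℝ) + 1) := by positivity
  have h9 : 0 ≤ C * Real.log (M + 2) := by positivity
  push_cast at hlog ⊢
  nlinarith

/-- **Few exceptional terminals.**  `G` is any plane graph with positive lengths, `L` any set of
vertices (terminals), `h` nonexpansive on `L`; every terminal outside `A` has a neighbour in `L`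
with slope at least `1/D` downwards, every terminal outside `B` one upwards. -/
theorem few_terminals {C : ℝ} (hC : 1 ≤ C) (hM : MStarLL C) (V : Type) [Finite V]
    (G : SimpleGraph V) (σ : Equiv.Perm G.Dart) (ℓ : Sym2 V → ℝ) (h : V → ℝ) (L A B : Set V)
    (D : ℝ) (hD : 1 ≤ D)
    (hc : G.Connected) (hP : PlaneMap G σ) (hℓ : ∀ e ∈ G.edgeSet, 0 < ℓ e)
    (h1 : ∀ u ∈ L, ∀ v ∈ L, |h u - h v| ≤ pathDist G ℓ u v)
    (hlow : ∀ v ∈ L, v ∉ A → ∃ u ∈ L, G.Adj v u ∧ ℓ s(v, u) ≤ D * (h v - h u))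
    (hhigh : ∀ v ∈ L, v ∉ B → ∃ u ∈ L, G.Adj v u ∧ ℓ s(v, u) ≤ D * (h u - h v)) :
    EmbedsL1 (fun u v : L => pathDist G ℓ u v) (320000000000000 * C * D *
      ((ll (Nat.card V) : ℝ) + 1 + Real.log ((A.ncard : ℝ) + B.ncard + 2))) := by
  classical
  have hD0 : (0 : ℝ) < D := by linarith
  have hpos : ∀ u v, G.Adj u v → 0 < ℓ s(u, v) := fun u v ha => hℓ _ ((G.mem_edgeSet).2 ha)
  -- the tight lengths
  let ℓ₁ : Sym2 V → ℝ := fun e => if (∀ z ∈ e, z ∈ L) ∧ ℓ e ≤ D * hlen h e then hlen h e else ℓ e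
  have hs1 : ∀ u v, u ∈ L → v ∈ L → ℓ s(u, v) ≤ D * |h u - h v| → ℓ₁ s(u, v) = |h u - h v| := by
    intro u v hu hv huv
    show (if (∀ z ∈ s(u, v), z ∈ L) ∧ ℓ s(u, v) ≤ D * hlen h s(u, v) then hlen h s(u, v) else
      ℓ s(u, v)) = _
    rw [if_pos, hlen_mk]
    refine ⟨fun z hz => ?_, by rw [hlen_mk]; exact huv⟩
    rcases Sym2.mem_iff.1 hz with rfl | rfl
    · exact hu
    · exact hv
  have hcases : ∀ u v, G.Adj u v → (u ∈ L ∧ v ∈ L ∧ ℓ s(u, v) ≤ D * |h u - h v| ∧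
      ℓ₁ s(u, v) = |h u - h v|) ∨ ℓ₁ s(u, v) = ℓ s(u, v) := by
    intro u v ha
    by_cases huv : (∀ z ∈ s(u, v), z ∈ L) ∧ ℓ s(u, v) ≤ D * hlen h s(u, v)
    · have hu : u ∈ L := huv.1 u (Sym2.mem_mk_left u v)
      have hv : v ∈ L := huv.1 v (Sym2.mem_mk_right u v)
      have h2 := huv.2
      rw [hlen_mk] at h2
      exact Or.inl ⟨hu, hv, h2, hs1 u v hu hv h2⟩
    · exact Or.inr (if_neg huv)
  have hLl : ∀ u v, G.Adj u v → u ∈ L → v ∈ L → |h u - h v| ≤ ℓ s(u, v) := fun u v ha hu hv =>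
    (h1 u hu v hv).trans (F0.d_adj hℓ ha)
  have hne : ∀ u v, G.Adj u v → ℓ s(u, v) ≤ D * |h u - h v| → 0 < |h u - h v| := by
    intro u v ha huv
    have h3 := hpos u v ha
    by_contra hh
    have h4 : |h u - h v| = 0 := le_antisymm (not_lt.1 hh) (abs_nonneg _)
    rw [h4, mul_zero] at huv
    linarith
  have hℓ₁ : ∀ e ∈ G.edgeSet, 0 < ℓ₁ e := fun e he => by
    induction e with
    | _ u v =>
      rcases hcases u v he with ⟨-, -, h2, h3⟩ | h2
      · rw [h3]
        exact hne u v he h2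
      · rw [h2]
        exact hℓ _ he
  have hle1 : ∀ u v, G.Adj u v → ℓ₁ s(u, v) ≤ ℓ s(u, v) := by
    intro u v ha
    rcases hcases u v ha with ⟨hu, hv, h2, h3⟩ | h2
    · rw [h3]
      exact hLl u v ha hu hv
    · rw [h2]
  have hle2 : ∀ u v, G.Adj u v → ℓ s(u, v) ≤ D * ℓ₁ s(u, v) := by
    intro u v ha
    rcases hcases u v ha with ⟨-, -, h2, h3⟩ | h2
    · rw [h3]
      exact h2
    · rw [h2]
      exact le_mul_of_one_le_left (hpos u v ha).le hD
  -- `h` is still nonexpansive on the terminals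
  have h1' : ∀ u ∈ L, ∀ v ∈ L, |h u - h v| ≤ pathDist G ℓ₁ u v := by
    intro u hu v hv
    have h2 := pd_semi (ℓ := gl G ℓ₁ L) (ρ := fun x y : L => |h x - h y|)
      (gr_conn hc hℓ₁ ⟨u, hu⟩) one_pos (fun x => by simp)
      (fun x y z => abs_sub_le _ _ _) (fun x y hxy => by
        rw [one_mul]
        refine le_gl hxy fun w hw => ?_
        by_cases hin : ∃ e ∈ w.edges, ∀ z ∈ e, z ∈ L
        · obtain ⟨e, he, hez⟩ := hin
          have h3 : |h x.1 - h y.1| ≤ ℓ₁ e := by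
            induction e with
            | _ p q =>
              have hpq : G.Adj p q := w.adj_of_mem_edges he
              have hp := hez p (Sym2.mem_mk_left p q)
              have hq := hez q (Sym2.mem_mk_right p q)
              have hpe := hw p (w.fst_mem_support_of_mem_edges he) hp
              have hqe := hw q (w.snd_mem_support_of_mem_edges he) hq
              have h4 : |h p - h q| ≤ ℓ₁ s(p, q) := by
                rcases hcases p q hpq with ⟨-, -, -, h5⟩ | h5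
                · rw [h5]
                · rw [h5]
                  exact hLl p q hpq hp hq
              rcases hpe with rfl | rfl <;> rcases hqe with rfl | rfl
              · exact absurd rfl hpq.ne
              · exact h4
              · rw [abs_sub_comm]
                exact h4
              · exact absurd rfl hpq.ne
          refine h3.trans ?_
          have hmem : ℓ₁ e ∈ w.edges.map ℓ₁ := List.mem_map_of_mem he
          refine List.single_le_sum (fun r hr => ?_) _ hmem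
          rw [List.mem_map] at hr
          obtain ⟨e', he', rfl⟩ := hr
          exact (hℓ₁ e' (w.edges_subset_edgeSet he')).le
        · push Not at hin
          have h3 : wl ℓ₁ w = wl ℓ w := by
            unfold wl
            congr 1
            refine List.map_congr_left fun e he => ?_
            refine if_neg fun h4 => ?_
            obtain ⟨z, hz, hzL⟩ := hin e he
            exact hzL (h4.1 z hz)
          rw [h3]
          exact (h1 x x.2 y y.2).trans (F0.d_le hℓ w)) ⟨u, hu⟩ ⟨v, hv⟩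
    rw [one_mul, gr_dist hc hℓ₁] at h2
    exact h2
  have hdn : ∀ u v, u ∈ L → v ∈ L → G.Adj u v → ℓ s(u, v) ≤ D * (h v - h u) →
      T G ℓ₁ h L u v := by
    intro u v hu hv ha huv
    have h3 := hpos u v ha
    have h4 : 0 < h v - h u := by
      by_contra hh
      have h5 : D * (h v - h u) ≤ 0 := mul_nonpos_of_nonneg_of_nonpos hD0.le (not_lt.1 hh)
      linarith
    refine ⟨ha, ?_, hu, hv⟩
    rw [hs1 u v hu hv (by rw [abs_sub_comm, abs_of_pos h4]; exact huv), abs_sub_comm,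
      abs_of_pos h4]
  have hmain := few_tight hC hM V G σ ℓ₁ h L A B hc hP hℓ₁ h1'
    (fun v hv hvA => by
      obtain ⟨u, hu, ha, h2⟩ := hlow v hv hvA
      exact ⟨u, hdn u v hu hv ha.symm (by rw [Sym2.eq_swap]; exact h2)⟩)
    (fun v hv hvB => by
      obtain ⟨u, hu, ha, h2⟩ := hhigh v hv hvB
      exact ⟨u, hdn v u hv hu ha h2⟩)
  have e1 : ∀ x y, pathDist G ℓ x y ≤ D * pathDist G ℓ₁ x y :=
    R2.H673.pathDist_le_mul hD0.le (fun u v ha => (hpos u v ha).le) hle2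
  have e2 : ∀ x y, pathDist G ℓ₁ x y ≤ 1 * pathDist G ℓ x y :=
    R2.H673.pathDist_le_mul zero_le_one (fun u v ha => (hℓ₁ _ ((G.mem_edgeSet).2 ha)).le)
      (fun u v ha => by rw [one_mul]; exact hle1 u v ha)
  refine R2.H673.embedsL1_scale (d := fun u v : L => pathDist G ℓ u v)
    (d' := fun u v : L => pathDist G ℓ₁ u v) hD0.le hmain (fun x y => e1 x y) (fun x y => ?_)
  have hlog : 0 ≤ Real.log ((A.ncard : ℝ) + B.ncard + 2) := Real.log_nonneg (by
    have h3 : (0 : ℝ) ≤ A.ncard := Nat.cast_nonneg _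
    have h4 : (0 : ℝ) ≤ B.ncard := Nat.cast_nonneg _
    linarith)
  have h3 : (0 : ℝ) ≤ 320000000000000 * C * D *
      ((ll (Nat.card V) : ℝ) + 1 + Real.log ((A.ncard : ℝ) + B.ncard + 2)) := by positivity
  have h4 := mul_le_mul_of_nonneg_left (e2 x y) h3
  rw [one_mul] at h4
  calc D * (320000000000000 * C * ((ll (Nat.card V) : ℝ) + 1 +
        Real.log ((A.ncard : ℝ) + B.ncard + 2)) * pathDist G ℓ₁ x y) =
      320000000000000 * C * D * ((ll (Nat.card V) : ℝ) + 1 +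
        Real.log ((A.ncard : ℝ) + B.ncard + 2)) * pathDist G ℓ₁ x y := by ring
    _ ≤ _ := h4

end Vale.Agent.P235.R2.H582.FewT
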