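import Vale.Agent.P235.R2.H582.FaceT
import Vale.Agent.P235.R2.H582.FewU

/-!
P235-M (helper582).  Terminals with few exceptional faces and vertices; the union of all shortest
paths from one vertex to the vertices of few faces.
-/

set_option autoImplicit false
set_option linter.all false

namespace Vale.Agent.P235.R2.H582.FaceT

open SimpleGraph Vale.Agent.P235 Vale.Agent.P235.Red Vale.Agent.P235.Red.F0 Vale.Agent.P235.Tight
  Vale.Agent.P235.H341W Vale.Agent.P235.Red.W3 Vale.Agent.P235.Quo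

theorem ll_two (m : ℕ) (hm : 1 ≤ m) : ll (2 * m) ≤ ll m + 2 :=
  ll_add_sq m hm (by nlinarith)

theorem ll_mono' {a b : ℕ} (h : a ≤ b) : ll a ≤ ll b := by
  unfold ll
  exact Nat.log_mono_right (Nat.add_le_add_right (Nat.log_mono_right h) 1)

/-- **Terminals, exceptional faces and vertices.**  `G` is any plane graph with positive lengths,
`L` any set of vertices (terminals), `h` nonexpansive on `L`; every terminal outside `A` has a
neighbour in `L` with slope at least `1/D` downwards; every terminal outside `B` and the faces of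
`M` has one upwards. -/
theorem faces_terminals {C : ℝ} (hC : 1 ≤ C) (hM : MStarLL C) (V : Type) [Finite V]
    (G : SimpleGraph V) (σ : Equiv.Perm G.Dart) (ℓ : Sym2 V → ℝ) (h : V → ℝ) (L A B : Set V)
    (M : Finset G.Dart) (D : ℝ) (hD : 1 ≤ D)
    (hc : G.Connected) (hP : PlaneMap G σ) (hℓ : ∀ e ∈ G.edgeSet, 0 < ℓ e)
    (h1 : ∀ u ∈ L, ∀ v ∈ L, |h u - h v| ≤ pathDist G ℓ u v)
    (hlow : ∀ v ∈ L, v ∉ A → ∃ u ∈ L, G.Adj v u ∧ ℓ s(v, u) ≤ D * (h v - h u))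
    (hhigh : ∀ v ∈ L, (∃ u ∈ L, G.Adj v u ∧ ℓ s(v, u) ≤ D * (h u - h v)) ∨ v ∈ B ∨
      ∃ m ∈ M, v ∈ onFace σ m) :
    EmbedsL1 (fun u v : L => pathDist G ℓ u v) (960000000000000 * C * D *
      ((ll (Nat.card V) : ℝ) + 1 + Real.log (((A.ncard + B.ncard + M.card : ℕ) : ℝ) + 2))) := by
  have hne : Nonempty V := hc.nonempty
  have hcard : 1 ≤ Nat.card V := Nat.card_pos
  set α := A.ncard with hα
  let F : ℕ → ℕ → ℝ := fun n b => 320000000000000 * C * D *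
    ((ll n : ℝ) + 1 + Real.log (((α + b : ℕ) : ℝ) + 2))
  have hF : ∀ n n' b b', n ≤ n' → b ≤ b' → F n b ≤ F n' b' := by
    intro n n' b b' hn hb
    have h2 : (ll n : ℝ) ≤ ll n' := by exact_mod_cast ll_mono' hn
    have h3 : Real.log (((α + b : ℕ) : ℝ) + 2) ≤ Real.log (((α + b' : ℕ) : ℝ) + 2) := by
      refine Real.log_le_log (by positivity) ?_
      have : ((α + b : ℕ) : ℝ) ≤ ((α + b' : ℕ) : ℝ) := by exact_mod_cast Nat.add_le_add_left hb α
      linarith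
    refine mul_le_mul_of_nonneg_left ?_ (by positivity)
    linarith
  have hV : VForm D α F := by
    intro V' _ G' σ' ℓ' h' L' A' B' hP' hW' hA'
    have hE := FewT.few_terminals hC hM V' G' σ' ℓ' h' L' A' B' D hD hW'.conn hP' hW'.pos hW'.lip
      (fun v hv hvA => hW'.low v hv hvA) (fun v hv hvB => hW'.high v hv hvB)
    obtain ⟨Ω, m, μ, f, hf⟩ := hE
    refine ⟨Ω, m, μ, f, fun x y => ⟨(hf x y).1, (hf x y).2.trans
      (mul_le_mul_of_nonneg_right ?_ (d_nonneg hW'.pos _ _))⟩⟩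
    refine mul_le_mul_of_nonneg_left ?_ (by positivity)
    have h3 : Real.log ((A'.ncard : ℝ) + B'.ncard + 2) ≤
        Real.log (((α + B'.ncard : ℕ) : ℝ) + 2) := by
      refine Real.log_le_log (by positivity) ?_
      have : (A'.ncard : ℝ) ≤ α := by exact_mod_cast hA'
      push_cast
      linarith
    linarith
  have hW : WideL G ℓ h D L A (B ∪ onM σ M) := ⟨hc, hℓ, h1, hlow, fun v hv hvB => by
    rcases hhigh v hv with h2 | h2 | h2
    · exact h2
    · exact absurd (Or.inl h2) hvB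
    · exact absurd (Or.inr h2) hvB⟩
  have hE := faces_of' hD hF hV V G σ ℓ h L A B M hP hW le_rfl
  obtain ⟨Ω, m, μ, f, hf⟩ := hE
  refine ⟨Ω, m, μ, f, fun x y => ⟨(hf x y).1, (hf x y).2.trans
    (mul_le_mul_of_nonneg_right ?_ (d_nonneg hℓ _ _))⟩⟩
  show 320000000000000 * C * D * ((ll (2 * Nat.card V) : ℝ) + 1 +
    Real.log (((α + (B.ncard + M.card) : ℕ) : ℝ) + 2)) ≤ _
  have h2 : (ll (2 * Nat.card V) : ℝ) ≤ (ll (Nat.card V) : ℝ) + 2 := by
    exact_mod_cast ll_two _ hcard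
  have h3 : (0 : ℝ) ≤ ll (Nat.card V) := Nat.cast_nonneg _
  have h4 : 0 ≤ Real.log (((α + B.ncard + M.card : ℕ) : ℝ) + 2) :=
    Real.log_nonneg (by
      have : (0 : ℝ) ≤ ((α + B.ncard + M.card : ℕ) : ℝ) := Nat.cast_nonneg _
      linarith)
  rw [← add_assoc]
  have h5 : (0 : ℝ) ≤ C * D := by positivity
  have h6 : (ll (2 * Nat.card V) : ℝ) + 1 + Real.log (((α + B.ncard + M.card : ℕ) : ℝ) + 2) ≤
      3 * ((ll (Nat.card V) : ℝ) + 1 + Real.log (((α + B.ncard + M.card : ℕ) : ℝ) + 2)) := by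
    linarith
  have h7 := mul_le_mul_of_nonneg_left h6 h5
  nlinarith

/-- the union of all shortest paths from `r` to the vertices of the faces of `M` -/
def geo {V : Type} (G : SimpleGraph V) (ℓ : Sym2 V → ℝ) (r : V) (S : Set V) : Set V :=
  {v | ∃ w ∈ S, pathDist G ℓ r w = pathDist G ℓ r v + pathDist G ℓ v w}

theorem geo_lip {V : Type} [Finite V] {G : SimpleGraph V} {ℓ : Sym2 V → ℝ} (hc : G.Connected)
    (hℓ : ∀ e ∈ G.edgeSet, 0 < ℓ e) (r u v : V) :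
    |pathDist G ℓ r u - pathDist G ℓ r v| ≤ pathDist G ℓ u v := by
  have h1 := d_tri hc hℓ r u v
  have h2 := d_tri hc hℓ r v u
  rw [d_symm hc hℓ v u] at h2
  rw [abs_le]
  constructor <;> linarith

theorem geo_low {V : Type} [Finite V] {G : SimpleGraph V} {ℓ : Sym2 V → ℝ} (hc : G.Connected)
    (hℓ : ∀ e ∈ G.edgeSet, 0 < ℓ e) {r : V} {S : Set V} {v : V} (hv : v ∈ geo G ℓ r S)
    (hvr : v ≠ r) : ∃ u ∈ geo G ℓ r S, G.Adj v u ∧
      ℓ s(v, u) ≤ pathDist G ℓ r v - pathDist G ℓ r u := by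
  obtain ⟨w, hw, h1⟩ := hv
  obtain ⟨u, hu, h2⟩ := exists_first hc hℓ hvr
  rw [d_symm hc hℓ u r, d_symm hc hℓ v r] at h2
  have h3 := d_adj hℓ hu
  have h4 := d_tri hc hℓ r u w
  have h5 := d_tri hc hℓ u v w
  rw [d_symm hc hℓ v u] at h3
  exact ⟨u, ⟨w, hw, by linarith⟩, hu, by linarith⟩

theorem geo_high {V : Type} [Finite V] {G : SimpleGraph V} {ℓ : Sym2 V → ℝ} (hc : G.Connected)
    (hℓ : ∀ e ∈ G.edgeSet, 0 < ℓ e) {r : V} {S : Set V} {v : V} (hv : v ∈ geo G ℓ r S)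
    (hvS : v ∉ S) : ∃ u ∈ geo G ℓ r S, G.Adj v u ∧
      ℓ s(v, u) ≤ pathDist G ℓ r u - pathDist G ℓ r v := by
  obtain ⟨w, hw, h1⟩ := hv
  have hvw : v ≠ w := fun h => hvS (h ▸ hw)
  obtain ⟨u, hu, h2⟩ := exists_first hc hℓ hvw
  have h3 := d_adj hℓ hu
  have h4 := d_tri hc hℓ r u w
  have h5 := d_tri hc hℓ r v u
  exact ⟨u, ⟨w, hw, by linarith⟩, hu, by linarith⟩

/-- **All shortest paths from one vertex to few faces of an arbitrary plane graph.** -/
theorem geo_faces {C : ℝ} (hC : 1 ≤ C) (hM : MStarLL C) (V : Type) [Finite V]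
    (G : SimpleGraph V) (σ : Equiv.Perm G.Dart) (ℓ : Sym2 V → ℝ) (r : V)
    (M : Finset G.Dart) (hc : G.Connected) (hP : PlaneMap G σ) (hℓ : ∀ e ∈ G.edgeSet, 0 < ℓ e) :
    EmbedsL1 (fun u v : geo G ℓ r (onM σ M) => pathDist G ℓ u v) (1920000000000000 * C *
      ((ll (Nat.card V) : ℝ) + 1 + Real.log ((M.card : ℝ) + 2))) := by
  have hE := faces_terminals hC hM V G σ ℓ (pathDist G ℓ r) (geo G ℓ r (onM σ M)) {r} ∅ M 1 le_rfl
    hc hP hℓ (fun u _ v _ => geo_lip hc hℓ r u v)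
    (fun v hv hvr => by
      obtain ⟨u, hu, ha, h2⟩ := geo_low hc hℓ hv hvr
      exact ⟨u, hu, ha, by rwa [one_mul]⟩)
    (fun v hv => by
      by_cases hvM : v ∈ onM σ M
      · exact Or.inr (Or.inr hvM)
      · obtain ⟨u, hu, ha, h2⟩ := geo_high hc hℓ hv hvM
        exact Or.inl ⟨u, hu, ha, by rwa [one_mul]⟩)
  obtain ⟨Ω, m, μ, f, hf⟩ := hE
  refine ⟨Ω, m, μ, f, fun x y => ⟨(hf x y).1, (hf x y).2.trans
    (mul_le_mul_of_nonneg_right ?_ (d_nonneg hℓ _ _))⟩⟩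
  rw [Set.ncard_singleton, Set.ncard_empty]
  have h3 : (0 : ℝ) ≤ ll (Nat.card V) := Nat.cast_nonneg _
  have hm : (0 : ℝ) ≤ M.card := Nat.cast_nonneg _
  have h4 : 0 ≤ Real.log ((M.card : ℝ) + 2) := Real.log_nonneg (by linarith)
  have h5 : Real.log (((1 + 0 + M.card : ℕ) : ℝ) + 2) ≤ 2 * Real.log ((M.card : ℝ) + 2) := by
    rw [show (2 : ℝ) * Real.log ((M.card : ℝ) + 2) = Real.log (((M.card : ℝ) + 2) ^ 2) by
      rw [Real.log_pow]; norm_num]
    refine Real.log_le_log (by positivity) ?_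
    push_cast
    nlinarith
  have h6 : (ll (Nat.card V) : ℝ) + 1 + Real.log (((1 + 0 + M.card : ℕ) : ℝ) + 2) ≤
      2 * ((ll (Nat.card V) : ℝ) + 1 + Real.log ((M.card : ℝ) + 2)) := by linarith
  have h7 := mul_le_mul_of_nonneg_left h6 (show (0 : ℝ) ≤ C by linarith)
  nlinarith

end Vale.Agent.P235.R2.H582.FaceT
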