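import Vale.Agent.P235.R2.H934.Cap
import Vale.Agent.P235.R2.H341.W2
import Vale.Agent.P235.R2.H341.W5Defs
import Vale.Agent.P235.R2.H582.Cap

/-!
P235-M, W7 (helper582): plane graphs with one local minimum and all local maxima on few faces,
from helper341's decomposition `RowMP`.
-/

set_option autoImplicit false
set_option linter.all false

namespace Vale.Agent.P235.R2.H582

open Vale.Agent.P235 Vale.Agent.P235.Red Vale.Agent.P235.H341W
open Vale.Agent.P235.R2.H168 (hlen hlen_mk)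

variable {V : Type} {G : SimpleGraph V}

theorem embeds_mono {d : V → V → ℝ} (hd : ∀ x y, 0 ≤ d x y) {K K' : ℝ} (hK : K ≤ K')
    (h : EmbedsL1 d K) : EmbedsL1 d K' := by
  obtain ⟨Ω, m, μ, f, hf⟩ := h
  exact ⟨Ω, m, μ, f, fun x y => ⟨(hf x y).1, (hf x y).2.trans
    (mul_le_mul_of_nonneg_right hK (hd x y))⟩⟩

theorem ll_mono {a b : ℕ} (h : a ≤ b) : ll a ≤ ll b := by
  unfold ll
  exact Nat.log_mono_right (Nat.add_le_add_right (Nat.log_mono_right h) 1)

theorem hlen_pos {h : V → ℝ} (hne : ∀ u v, G.Adj u v → h u ≠ h v) :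
    ∀ e ∈ G.edgeSet, 0 < hlen h e := fun e he => by
  induction e with
  | _ u v => exact abs_pos.2 (sub_ne_zero.2 (hne u v he))

/-- a descending path is isometric -/
theorem desc_le {h : V → ℝ} (hc : G.Connected) (hne : ∀ u v, G.Adj u v → h u ≠ h v) {a b : V}
    (hd : Desc G h a b) : pathDist G (hlen h) a b ≤ h a - h b := by
  have hℓ := hlen_pos hne
  induction hd with
  | refl => rw [pd_self hℓ]; simp
  | @tail c b _ hcb ih =>
    have h1 := pd_tri hc hℓ a c b
    have h2 := pd_adj hℓ hcb.1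
    rw [hlen_mk, abs_of_pos (sub_pos.2 hcb.2)] at h2
    linarith

theorem desc_le_abs {h : V → ℝ} (hc : G.Connected) (hne : ∀ u v, G.Adj u v → h u ≠ h v) {a b : V}
    (hd : Desc G h a b ∨ Desc G h b a) : pathDist G (hlen h) a b ≤ |h a - h b| := by
  have hℓ := hlen_pos hne
  rcases hd with hd | hd
  · exact (desc_le hc hne hd).trans (le_abs_self _)
  · rw [pd_comm hc hℓ, abs_sub_comm]
    exact (desc_le hc hne hd).trans (le_abs_self _)

theorem lip_pd {h : V → ℝ} (hc : G.Connected) (a b : V) :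
    |h a - h b| ≤ pathDist G (hlen h) a b := by
  have h1 := pd_semi (ℓ := hlen h) (ρ := fun a b => |h a - h b|) hc one_pos (fun a => by simp)
    (fun a b c => abs_sub_le _ _ _) (fun u v _ => by rw [hlen_mk, one_mul]) a b
  rwa [one_mul] at h1

/-- the leaves: all local maxima on one face -/
def LeafQ (n : ℕ) (W : Type) (G' : SimpleGraph W) (ℓ' : Sym2 W → ℝ) : Prop :=
  ∃ h' : W → ℝ, Leaf1 G' h' ∧ ℓ' = hlen h' ∧ Nat.card W ≤ n

theorem leafQ_embeds {C : ℝ} (hC : 1 ≤ C) (hM : MStarLL C) (n : ℕ) (W : Type) [Finite W]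
    (G' : SimpleGraph W) (ℓ' : Sym2 W → ℝ) (hc : G'.Connected)
    (hℓ : ∀ e ∈ G'.edgeSet, 0 < ℓ' e) (hQ : LeafQ n W G' ℓ') :
    EmbedsL1 (pathDist G' ℓ') (219073 * 32 * C * 1 * ((ll n : ℝ) + 2)) := by
  obtain ⟨h', ⟨σ', s', m, hMP⟩, rfl, hn⟩ := hQ
  have h1 := W3.plane_slope_face hC hM rowCap W G' σ' m (hlen h') h' s' 1 hc hMP.plane hℓ
    (fun u v _ => le_of_eq (hlen_mk h' u v).symm)
    (fun u v _ => by rw [one_mul, hlen_mk]) hMP.low (fun v hv => by
      rcases hMP.high v with h | ⟨m', hm', h⟩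
      · exact h
      · rw [Set.mem_singleton_iff.1 hm'] at h
        exact absurd h hv)
  refine embeds_mono (pd_nonneg hℓ) ?_ h1
  have h2 : (ll (Nat.card W) : ℝ) ≤ ll n := by exact_mod_cast ll_mono hn
  have h3 : (0 : ℝ) ≤ 219073 * 32 * C * 1 := by positivity
  exact mul_le_mul_of_nonneg_left (by linarith) h3

/-- the pieces -/
theorem piece_of {h : V → ℝ} [Finite V] (hc : G.Connected)
    (hne : ∀ u v, G.Adj u v → h u ≠ h v) {K : Set V} {W : Type} [Finite W]
    {G' : SimpleGraph W} {ι : W → V} (hadj : ∀ a b, G'.Adj a b ↔ G.Adj (ι a) (ι b))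
    (hc' : G'.Connected) {κ : K → W} (hκ : ∀ a, ι (κ a) = a.1) :
    H341W.Piece G (hlen h) K G' (hlen (h ∘ ι)) κ := by
  have hne' : ∀ a b, G'.Adj a b → (h ∘ ι) a ≠ (h ∘ ι) b := fun a b hab =>
    hne _ _ ((hadj a b).1 hab)
  have hℓ := hlen_pos hne
  have hℓ' := hlen_pos hne'
  refine ⟨inferInstance, hc', hℓ', ?_, ?_⟩
  · intro a b hab
    have h1 : G'.Adj (κ a) (κ b) := (hadj _ _).2 (by rw [hκ, hκ]; exact hab)
    refine (pd_adj hℓ' h1).trans (le_of_eq ?_)
    rw [hlen_mk, hlen_mk]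
    show |h (ι (κ a)) - h (ι (κ b))| = _
    rw [hκ, hκ]
  · intro a b
    have h1 := pd_semi (ℓ := hlen (h ∘ ι)) (ρ := fun x y => pathDist G (hlen h) (ι x) (ι y)) hc'
      one_pos (fun x => pd_self hℓ _) (fun x y z => pd_tri hc hℓ _ _ _) (fun u v huv => by
        rw [one_mul, hlen_mk]
        refine (pd_adj hℓ ((hadj u v).1 huv)).trans (le_of_eq ?_)
        rw [hlen_mk]
        rfl) (κ a) (κ b)
    rw [one_mul] at h1
    beta_reduce at h1
    rwa [hκ, hκ] at h1

/-- one round -/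
theorem rounds_of {h : V → ℝ} [Finite V] {σ : Equiv.Perm G.Dart} {s : V} {M : Finset G.Dart}
    (hRMP : RowMP) (hMP : MP G σ h s (M : Set G.Dart)) (hM : M.Nonempty) :
    Rounds (LeafQ (Nat.card V)) (4 * M.card) 0 1 G (hlen h) := by
  classical
  have hc := hMP.conn
  have hne := hMP.ne
  obtain ⟨Ls, hlenL, hdesc, hp⟩ := hRMP M.card V G σ h s M hMP hM le_rfl
  set X : Set V := insert s (lanesSet Ls) with hX
  have hlanes : Lanes G (hlen h) (4 * M.card) X := by
    refine ⟨h, ({s} :: Ls).length, fun i => ({s} :: Ls).get i, ?_, lip_pd hc, ?_, ?_, ?_⟩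
    · rw [List.length_cons]
      omega
    · intro i
      beta_reduce
      have hmem := List.get_mem ({s} :: Ls) i
      rcases List.mem_cons.1 hmem with h1 | h1
      · rw [h1]
        exact ⟨s, rfl⟩
      · exact (hdesc _ h1).1
    · intro i a ha b hb
      beta_reduce at ha hb
      have hmem := List.get_mem ({s} :: Ls) i
      rcases List.mem_cons.1 hmem with h1 | h1
      · rw [h1] at ha hb
        rw [Set.mem_singleton_iff.1 ha, Set.mem_singleton_iff.1 hb, pd_self (hlen_pos hne)]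
        exact abs_nonneg _
      · exact desc_le_abs hc hne ((hdesc _ h1).2 a ha b hb)
    · ext x
      rw [Set.mem_iUnion, hX, Set.mem_insert_iff]
      constructor
      · rintro (rfl | ⟨L, hL, hx⟩)
        · exact ⟨⟨0, by simp⟩, rfl⟩
        · obtain ⟨i, hi⟩ := List.mem_iff_get.1 (List.mem_cons_of_mem ({s} : Set V) hL)
          exact ⟨i, by rw [hi]; exact hx⟩
      · rintro ⟨i, hi⟩
        have hmem := List.get_mem ({s} :: Ls) i
        rcases List.mem_cons.1 hmem with h1 | h1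
        · rw [h1] at hi
          exact Or.inl hi
        · exact Or.inr ⟨_, h1, hi⟩
  have key : ∀ u, ∃ (W : Type) (G' : SimpleGraph W) (ℓ' : Sym2 W → ℝ)
      (κ : compSet G X u → W), u ∉ X →
        H341W.Piece G (hlen h) (compSet G X u) G' ℓ' κ ∧ LeafQ (Nat.card V) W G' ℓ' := by
    intro u
    by_cases hu : u ∈ X
    · exact ⟨compSet G X u, ⊥, fun _ => 0, id, fun h => absurd hu h⟩
    · have hu' : u ∉ lanesSet Ls := fun h => hu (Or.inr h)
      obtain ⟨W, fW, G', ι, hinj, hadj, hsub, hleaf⟩ := hp u hu'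
      have hmono : ∀ a : compSet G X u, a.1 ∈ Set.range ι := by
        rintro ⟨a, p, hp'⟩
        exact hsub ⟨p, fun b hb hbX => hp' b hb (Or.inr hbX)⟩
      choose κ hκ using hmono
      obtain ⟨σ', s', m, hMP'⟩ := hleaf
      refine ⟨W, G', hlen (h ∘ ι), κ, fun _ => ⟨piece_of hc hne hadj hMP'.conn hκ,
        h ∘ ι, ⟨σ', s', m, hMP'⟩, rfl, ?_⟩⟩
      exact Nat.card_le_card_of_injective ι hinj
  choose W G' ℓ' κ hW using key
  exact Rounds.lanes ⟨s, Or.inl rfl⟩ hlanes (fun u hu => (hW u hu).1)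
    fun u hu => Rounds.leaf (hW u hu).2

/-- **few faces, height form** -/
theorem plane_faces_h {C : ℝ} (hC : 1 ≤ C) (hMS : MStarLL C) (hRMP : RowMP) (V : Type) [Finite V]
    (G : SimpleGraph V) (σ : Equiv.Perm G.Dart) (h : V → ℝ) (s : V) (M : Finset G.Dart)
    (hMP : MP G σ h s (M : Set G.Dart)) (hM : M.Nonempty) :
    EmbedsL1 (pathDist G (hlen h))
      (70200000000000 * C * ((ll (Nat.card V) : ℝ) + 1 + Real.log (M.card + 2))) := by
  have hℓ := hlen_pos hMP.ne
  have hL0 : (0 : ℝ) ≤ ll (Nat.card V) := Nat.cast_nonneg _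
  have hC' : (1 : ℝ) ≤ 219073 * 32 * C * 1 * ((ll (Nat.card V) : ℝ) + 2) := by nlinarith
  have h1 := rounds_distortion (LeafQ (Nat.card V)) hC'
    (fun W _ G' ℓ' hc' hℓ' hQ => leafQ_embeds hC hMS _ W G' ℓ' hc' hℓ' hQ)
    (4 * M.card) 0 1 V G (hlen h) hMP.conn hℓ (rounds_of hRMP hMP hM)
  refine embeds_mono (pd_nonneg hℓ) ?_ h1
  have hm : (0 : ℝ) ≤ M.card := Nat.cast_nonneg _
  have h2 : Real.log (((4 * M.card : ℕ) : ℝ) + 2) ≤ 2 + Real.log (M.card + 2) := by
    have h3 : Real.log (4 * ((M.card : ℝ) + 2)) = Real.log 4 + Real.log (M.card + 2) :=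
      Real.log_mul (by norm_num) (by positivity)
    have h4 : Real.log 4 ≤ 2 := by
      have h5 : Real.log 4 = 2 * Real.log 2 := by
        rw [show (4 : ℝ) = 2 ^ 2 by norm_num, Real.log_pow]
        norm_num
      have h6 := Real.log_two_lt_d9
      rw [h5]
      linarith
    have h5 : Real.log (((4 * M.card : ℕ) : ℝ) + 2) ≤ Real.log (4 * ((M.card : ℝ) + 2)) := by
      refine Real.log_le_log (by positivity) ?_
      push_cast
      linarith
    linarith
  have h3 : 0 ≤ Real.log ((M.card : ℝ) + 2) := Real.log_nonneg (by linarith)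
  have h4 : Real.log ((M.card : ℝ) + 2) ≤ C * Real.log ((M.card : ℝ) + 2) :=
    le_mul_of_one_le_left h3 hC
  have h5 : (ll (Nat.card V) : ℝ) ≤ C * ll (Nat.card V) := le_mul_of_one_le_left hL0 hC
  push_cast at h2 ⊢
  nlinarith

/-- **few faces, slopes in `[1/D, 1]`** -/
theorem plane_faces {C : ℝ} (hC : 1 ≤ C) (hMS : MStarLL C) (hRMP : RowMP) (V : Type) [Finite V]
    (G : SimpleGraph V) (σ : Equiv.Perm G.Dart) (ℓ : Sym2 V → ℝ) (h : V → ℝ) (s : V) (D : ℝ)
    (M : Finset G.Dart) (hM : M.Nonempty) (hc : G.Connected) (hP : PlaneMap G σ)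
    (hℓ : ∀ e ∈ G.edgeSet, 0 < ℓ e)
    (h1 : ∀ u v, G.Adj u v → |h u - h v| ≤ ℓ s(u, v))
    (h2 : ∀ u v, G.Adj u v → ℓ s(u, v) ≤ D * |h u - h v|)
    (hlow : ∀ v, v ≠ s → ∃ u, G.Adj v u ∧ h u < h v)
    (hhigh : ∀ v, (∃ u, G.Adj v u ∧ h v < h u) ∨ ∃ m ∈ M, v ∈ onFace σ m) :
    EmbedsL1 (pathDist G ℓ)
      (70200000000000 * C * D * ((ll (Nat.card V) : ℝ) + 1 + Real.log (M.card + 2))) := by
  have hne : ∀ u v, G.Adj u v → h u ≠ h v := by
    intro u v ha he
    have h3 := h2 u v ha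
    have h4 := hℓ _ ((G.mem_edgeSet).2 ha)
    rw [he, sub_self, abs_zero, mul_zero] at h3
    linarith
  obtain ⟨a, b, hab⟩ := planeMap_adj hc hP
  have hD : 0 ≤ D := by
    by_contra hD
    push Not at hD
    have h3 := h2 a b hab
    have h4 := hℓ _ ((G.mem_edgeSet).2 hab)
    have h5 : D * |h a - h b| ≤ 0 := mul_nonpos_of_nonpos_of_nonneg hD.le (abs_nonneg _)
    linarith
  have hMP : MP G σ h s (M : Set G.Dart) := ⟨hc, hP, hne, hlow, hhigh⟩
  have hE := plane_faces_h hC hMS hRMP V G σ h s M hMP hM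
  have e1 : ∀ x y, pathDist G ℓ x y ≤ D * pathDist G (hlen h) x y :=
    R2.H673.pathDist_le_mul hD (fun u v ha => (abs_nonneg _).trans (h1 u v ha)) h2
  have e2 : ∀ x y, pathDist G (hlen h) x y ≤ 1 * pathDist G ℓ x y :=
    R2.H673.pathDist_le_mul zero_le_one (fun u v _ => abs_nonneg _)
      (fun u v ha => by rw [one_mul]; exact h1 u v ha)
  refine R2.H673.embedsL1_scale hD hE e1 (fun x y => ?_)
  have hlog : 0 ≤ Real.log ((M.card : ℝ) + 2) := Real.log_nonneg (by
    have : (0 : ℝ) ≤ M.card := Nat.cast_nonneg _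
    linarith)
  have h3 : (0 : ℝ) ≤ 70200000000000 * C * D *
      ((ll (Nat.card V) : ℝ) + 1 + Real.log (M.card + 2)) := by positivity
  have h4 := mul_le_mul_of_nonneg_left (e2 x y) h3
  rw [one_mul] at h4
  calc D * (70200000000000 * C * ((ll (Nat.card V) : ℝ) + 1 + Real.log (M.card + 2)) *
        pathDist G (hlen h) x y) =
      70200000000000 * C * D * ((ll (Nat.card V) : ℝ) + 1 + Real.log (M.card + 2)) *
        pathDist G (hlen h) x y := by ring
    _ ≤ _ := h4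

end Vale.Agent.P235.R2.H582
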