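import Vale.Agent.P235.R2.H582.Faces
import Vale.Agent.P235.R2.H341.W8

/-!
P235-M, W7 (helper582): plane graphs with one local minimum and all local maxima on few faces;
only the words theorem is a hypothesis.
-/

set_option autoImplicit false
set_option linter.all false

namespace Vale.Agent.P235.R2.H582

open Vale.Agent.P235 Vale.Agent.P235.Red Vale.Agent.P235.H341W

/-- **few faces, slopes in `[1/D, 1]`**: `h` has slopes in `[1/D, 1]` on all edges, one local
minimum `s`, and every local maximum is on the boundary of one of the faces of the darts in `M`. -/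
theorem plane_faces_all {C : ℝ} (hC : 1 ≤ C) (hMS : MStarLL C) (V : Type) [Finite V]
    (G : SimpleGraph V) (σ : Equiv.Perm G.Dart) (ℓ : Sym2 V → ℝ) (h : V → ℝ) (s : V) (D : ℝ)
    (M : Finset G.Dart) (hM : M.Nonempty) (hc : G.Connected) (hP : PlaneMap G σ)
    (hℓ : ∀ e ∈ G.edgeSet, 0 < ℓ e)
    (h1 : ∀ u v, G.Adj u v → |h u - h v| ≤ ℓ s(u, v))
    (h2 : ∀ u v, G.Adj u v → ℓ s(u, v) ≤ D * |h u - h v|)
    (hlow : ∀ v, v ≠ s → ∃ u, G.Adj v u ∧ h u < h v)
    (hhigh : ∀ v, (∃ u, G.Adj v u ∧ h v < h u) ∨ ∃ m ∈ M, v ∈ onFace σ m) :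
    EmbedsL1 (pathDist G ℓ)
      (70200000000000 * C * D * ((ll (Nat.card V) : ℝ) + 1 + Real.log (M.card + 2))) :=
  plane_faces hC hMS rowMP V G σ ℓ h s D M hM hc hP hℓ h1 h2 hlow hhigh

/-- **few faces, metric form**: every vertex is on a shortest path from `s` to a vertex of one of
the faces of `M`, and every edge is tight for the distance to `s`. -/
theorem plane_faces_metric {C : ℝ} (hC : 1 ≤ C) (hMS : MStarLL C) (V : Type) [Finite V]
    (G : SimpleGraph V) (σ : Equiv.Perm G.Dart) (ℓ : Sym2 V → ℝ) (s : V)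
    (M : Finset G.Dart) (hM : M.Nonempty) (hc : G.Connected) (hP : PlaneMap G σ)
    (hℓ : ∀ e ∈ G.edgeSet, 0 < ℓ e)
    (htight : ∀ u v, G.Adj u v → |pathDist G ℓ s u - pathDist G ℓ s v| = ℓ s(u, v))
    (hhigh : ∀ v, (∃ u, G.Adj v u ∧ pathDist G ℓ s v < pathDist G ℓ s u) ∨
      ∃ m ∈ M, v ∈ onFace σ m) :
    EmbedsL1 (pathDist G ℓ)
      (70200000000000 * C * ((ll (Nat.card V) : ℝ) + 1 + Real.log (M.card + 2))) := by
  have h := plane_faces_all hC hMS V G σ ℓ (pathDist G ℓ s) s 1 M hM hc hP hℓ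
    (fun u v ha => (htight u v ha).le) (fun u v ha => by rw [one_mul, htight u v ha]) (by
      intro v hv
      obtain ⟨u, hu, hlt⟩ := F0.exists_closer hc hℓ hv
      exact ⟨u, hu, by rwa [pd_comm hc hℓ s u, pd_comm hc hℓ s v]⟩) hhigh
  rwa [mul_one] at h

end Vale.Agent.P235.R2.H582
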