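import Vale.Agent.P235.R2.H582.GL
import Vale.Agent.P235.R2.H324.Few1

/-!
P235-M (helper582).  Terminals in a plane graph with few exceptional terminals: order, components
and lanes (the terminal form of helper324's proof).
-/

set_option autoImplicit false
set_option linter.all false

namespace Vale.Agent.P235.R2.H582.FewT

open SimpleGraph Relation Vale.Agent.P235 Vale.Agent.P235.Red Vale.Agent.P235.Quo
  Vale.Agent.P235.R2.H582.GL

section order

variable {V : Type} {G : SimpleGraph V} {ℓ : Sym2 V → ℝ} {h : V → ℝ} {L : Set V}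

/-- tight upward edges between terminals -/
def T (G : SimpleGraph V) (ℓ : Sym2 V → ℝ) (h : V → ℝ) (L : Set V) (u v : V) : Prop :=
  G.Adj u v ∧ ℓ s(u, v) ≤ h v - h u ∧ u ∈ L ∧ v ∈ L

/-- tight upward paths -/
def Up (G : SimpleGraph V) (ℓ : Sym2 V → ℝ) (h : V → ℝ) (L : Set V) : V → V → Prop :=
  ReflTransGen (T G ℓ h L)

theorem T.lt (hℓ : ∀ e ∈ G.edgeSet, 0 < ℓ e) {u v : V} (hh : T G ℓ h L u v) : h u < h v := by
  have h1 := hℓ _ (G.mem_edgeSet.2 hh.1)
  have h2 := hh.2.1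
  linarith

theorem Up.lt_or_eq (hℓ : ∀ e ∈ G.edgeSet, 0 < ℓ e) {u v : V} (hh : Up G ℓ h L u v) :
    u = v ∨ h u < h v := by
  induction hh with
  | refl => exact Or.inl rfl
  | tail _ h2 ih =>
    have h3 := T.lt hℓ h2
    rcases ih with rfl | ih
    · exact Or.inr h3
    · exact Or.inr (ih.trans h3)

theorem Up.antisymm (hℓ : ∀ e ∈ G.edgeSet, 0 < ℓ e) (u v : V) (h1 : Up G ℓ h L u v)
    (h2 : Up G ℓ h L v u) : u = v := by
  rcases h1.lt_or_eq hℓ with h3 | h3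
  · exact h3
  · rcases h2.lt_or_eq hℓ with h4 | h4
    · exact h4.symm
    · exact absurd (h3.trans h4) (lt_irrefl _)

theorem Up.dist [Finite V] (hc : G.Connected) (hℓ : ∀ e ∈ G.edgeSet, 0 < ℓ e) {u v : V}
    (hh : Up G ℓ h L u v) : pathDist G ℓ u v ≤ h v - h u := by
  have hd := pathDist_isMet hc hℓ
  induction hh with
  | refl => rw [hd.self, sub_self]
  | @tail b c _ h2 ih =>
    have h3 := pathDist_adj hℓ h2.1
    have h4 := hd.tri u b c
    have h5 := h2.2.1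
    linarith

theorem Up.left_mem {u v : V} (hh : Up G ℓ h L u v) (hv : v ∈ L) : u ∈ L := by
  rcases ReflTransGen.cases_head hh with h1 | ⟨c, h1, -⟩
  · rwa [h1]
  · exact h1.2.2.1

theorem Up.right_mem {u v : V} (hh : Up G ℓ h L u v) (hu : u ∈ L) : v ∈ L := by
  rcases ReflTransGen.cases_tail hh with h1 | ⟨c, -, h1⟩
  · rwa [h1]
  · exact h1.2.2.2

theorem exists_bot [Finite V] (hℓ : ∀ e ∈ G.edgeSet, 0 < ℓ e) {A : Set V}
    (hlow : ∀ v ∈ L, v ∉ A → ∃ u, T G ℓ h L u v) {v : V} (hv : v ∈ L) :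
    ∃ a ∈ A, Up G ℓ h L a v := by
  obtain ⟨w, hw, hmin⟩ := Set.exists_min_image {w | Up G ℓ h L w v} h (Set.toFinite _)
    ⟨v, ReflTransGen.refl⟩
  by_contra hcon
  push Not at hcon
  obtain ⟨u, hu⟩ := hlow w (hw.left_mem hv) fun hwA => hcon w hwA hw
  exact absurd (hmin u (ReflTransGen.head hu hw)) (not_le.2 (hu.lt hℓ))

theorem exists_top' [Finite V] (hℓ : ∀ e ∈ G.edgeSet, 0 < ℓ e) {B : Set V}
    (hhigh : ∀ v ∈ L, v ∉ B → ∃ u, T G ℓ h L v u) {v : V} (hv : v ∈ L) :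
    ∃ b ∈ B, Up G ℓ h L v b := by
  obtain ⟨w, hw, hmax⟩ := Set.exists_max_image {w | Up G ℓ h L v w} h (Set.toFinite _)
    ⟨v, ReflTransGen.refl⟩
  by_contra hcon
  push Not at hcon
  obtain ⟨u, hu⟩ := hhigh w (hw.right_mem hv) fun hwB => hcon w hwB hw
  exact absurd (hmax u (ReflTransGen.tail hw hu)) (not_le.2 (hu.lt hℓ))

/-- the terminals between `a` and `b` -/
def Btw (G : SimpleGraph V) (ℓ : Sym2 V → ℝ) (h : V → ℝ) (L : Set V) (a b : V) : Set V :=
  {v | v ∈ L ∧ Up G ℓ h L a v ∧ Up G ℓ h L v b}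

/-- every component of the complement of `Btw` which contains a terminal contains an exceptional
vertex -/
theorem exists_exc [Finite V] (hℓ : ∀ e ∈ G.edgeSet, 0 < ℓ e) {a b : V} {A B : Set V}
    (hlow : ∀ v ∈ L, v ∉ A → ∃ u, T G ℓ h L u v) (hhigh : ∀ v ∈ L, v ∉ B → ∃ u, T G ℓ h L v u)
    {u : V} (huL : u ∈ L) (hu : u ∉ Btw G ℓ h L a b) :
    ∃ x ∈ A ∪ B, x ∈ compSet G (Btw G ℓ h L a b) u := by
  have hux : u ∈ compSet G (Btw G ℓ h L a b) u := ReachOff.refl hu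
  by_contra hcon
  push Not at hcon
  apply hu
  refine ⟨huL, ?_, ?_⟩
  · obtain ⟨w, ⟨hwK, hw⟩, hmin⟩ := Set.exists_min_image
      {w | w ∈ compSet G (Btw G ℓ h L a b) u ∧ Up G ℓ h L w u} h (Set.toFinite _)
      ⟨u, hux, ReflTransGen.refl⟩
    obtain ⟨z, hz⟩ := hlow w (hw.left_mem huL) fun hwA => hcon w (Or.inl hwA) hwK
    have hzL : z ∈ Btw G ℓ h L a b := by
      by_contra hzL
      have hzK : z ∈ compSet G (Btw G ℓ h L a b) u :=
        ReachOff.trans hwK (ReachOff.adj (ReachOff.right hwK) hzL hz.1.symm)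
      exact absurd (hmin z ⟨hzK, ReflTransGen.head hz hw⟩) (not_le.2 (hz.lt hℓ))
    exact (hzL.2.1.tail hz).trans hw
  · obtain ⟨w, ⟨hwK, hw⟩, hmax⟩ := Set.exists_max_image
      {w | w ∈ compSet G (Btw G ℓ h L a b) u ∧ Up G ℓ h L u w} h (Set.toFinite _)
      ⟨u, hux, ReflTransGen.refl⟩
    obtain ⟨z, hz⟩ := hhigh w (hw.right_mem huL) fun hwB => hcon w (Or.inr hwB) hwK
    have hzL : z ∈ Btw G ℓ h L a b := by
      by_contra hzL
      have hzK : z ∈ compSet G (Btw G ℓ h L a b) u :=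
        ReachOff.trans hwK (ReachOff.adj (ReachOff.right hwK) hzL hz.1)
      exact absurd (hmax z ⟨hzK, ReflTransGen.tail hw hz⟩) (not_le.2 (hz.lt hℓ))
    exact hw.trans (ReflTransGen.head hz hzL.2.2)

/-- two of any three attachments of a connected set are comparable -/
theorem attach_three [Finite V] (hc : G.Connected) (hP : ∃ σ : Equiv.Perm G.Dart, PlaneMap G σ)
    (hℓ : ∀ e ∈ G.edgeSet, 0 < ℓ e) {a b : V} {K : Set V}
    (hK : (G.induce K).Connected) (hKL : Disjoint K (Btw G ℓ h L a b)) :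
    ∀ x ∈ {y | y ∈ Btw G ℓ h L a b ∧ ∃ v ∈ K, G.Adj v y},
    ∀ y ∈ {y | y ∈ Btw G ℓ h L a b ∧ ∃ v ∈ K, G.Adj v y},
    ∀ z ∈ {y | y ∈ Btw G ℓ h L a b ∧ ∃ v ∈ K, G.Adj v y},
      Up G ℓ h L x y ∨ Up G ℓ h L y x ∨ Up G ℓ h L x z ∨ Up G ℓ h L z x ∨ Up G ℓ h L y z ∨
        Up G ℓ h L z y := by
  rintro x ⟨hxL, hx⟩ y ⟨hyL, hy⟩ z ⟨hzL, hz⟩
  have haL : a ∈ L := hxL.2.1.left_mem hxL.1
  have hbL : b ∈ L := hxL.2.2.right_mem hxL.1
  have hab : Up G ℓ h L a b := hxL.2.1.trans hxL.2.2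
  let Λ := Btw G ℓ h L a b
  let U : V → V → Prop := fun u v => T G ℓ h L u v ∧ u ∈ Λ ∧ v ∈ Λ
  have hmono : ∀ u v, ReflTransGen U u v → Up G ℓ h L u v := by
    intro u v huv
    induction huv with
    | refl => exact ReflTransGen.refl
    | tail _ h2 ih => exact ReflTransGen.tail ih h2.1
  have := Quo.w2_row V G hc hP Λ h a b U
    (fun u v huv => ⟨huv.1.1, huv.1.lt hℓ, huv.2.1, huv.2.2⟩)
    ⟨haL, ReflTransGen.refl, hab⟩ ⟨hbL, hab, ReflTransGen.refl⟩
    (fun v hv hva => by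
      rcases ReflTransGen.cases_tail hv.2.1 with h1 | ⟨c, h1, h2⟩
      · exact absurd h1 hva
      · exact ⟨c, h2, ⟨h2.2.2.1, h1, ReflTransGen.head h2 hv.2.2⟩, hv⟩)
    (fun v hv hvb => by
      rcases ReflTransGen.cases_head hv.2.2 with h1 | ⟨c, h1, h2⟩
      · exact absurd h1 hvb
      · exact ⟨c, h1, hv, ⟨h1.2.2.2, ReflTransGen.tail hv.2.1 h1, h2⟩⟩)
    K hK hKL x hxL y hyL z hzL hx hy hz
  rcases this with h1 | h1 | h1 | h1 | h1 | h1
  · exact Or.inl (hmono _ _ h1)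
  · exact Or.inr (Or.inl (hmono _ _ h1))
  · exact Or.inr (Or.inr (Or.inl (hmono _ _ h1)))
  · exact Or.inr (Or.inr (Or.inr (Or.inl (hmono _ _ h1))))
  · exact Or.inr (Or.inr (Or.inr (Or.inr (Or.inl (hmono _ _ h1)))))
  · exact Or.inr (Or.inr (Or.inr (Or.inr (Or.inr (hmono _ _ h1)))))

/-- the last visit of a walk -/
theorem last_visit {Λ : Set V} {x z b : V} (q : G.Walk z b) (hb : b ∉ Λ)
    (hq : ∀ v ∈ q.support, v ∈ Λ → v = x) :
    ReachOff G Λ z b ∨ ∃ y, G.Adj x y ∧ ReachOff G Λ y b := by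
  induction q with
  | nil => exact Or.inl (ReachOff.refl hb)
  | @cons z z' b hzz q ih =>
    rcases ih hb (fun v hv => hq v (by
      rw [Walk.support_cons]
      exact List.mem_cons_of_mem _ hv)) with h1 | h1
    · by_cases hz : z ∈ Λ
      · have h2 := hq z (Walk.start_mem_support _) hz
        subst h2
        exact Or.inr ⟨z', hzz, h1⟩
      · exact Or.inl (ReachOff.trans (ReachOff.adj hz (ReachOff.left h1) hzz) h1)
    · exact Or.inr h1

/-- the chains which cover the attachments of one component -/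
theorem exists_chains [Finite V] (hc : G.Connected)
    (hP : ∃ σ : Equiv.Perm G.Dart, PlaneMap G σ)
    (hℓ : ∀ e ∈ G.edgeSet, 0 < ℓ e) (a b x : V) :
    ∃ C : Fin 2 → Set V, (∀ i, C i ⊆ L) ∧
      (∀ i, ∀ y ∈ C i, ∀ z ∈ C i, Up G ℓ h L y z ∨ Up G ℓ h L z y) ∧
      (x ∉ Btw G ℓ h L a b → ∀ y ∈ attach G (Btw G ℓ h L a b) x, ∃ i, y ∈ C i) := by
  by_cases hx : x ∈ Btw G ℓ h L a b
  · exact ⟨fun _ => ∅, fun _ => Set.empty_subset _, by simp, fun h1 => absurd hx h1⟩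
  obtain ⟨C, h1, h2⟩ := Few.two_chains (R := Up G ℓ h L) (fun _ _ _ => ReflTransGen.trans)
    (Up.antisymm hℓ) (fun _ => ReflTransGen.refl)
    (attach_three hc hP hℓ (comp_connected hx)
      (Set.disjoint_left.2 fun v hv => ReachOff.right hv))
  refine ⟨fun i => C i ∩ L, fun i => Set.inter_subset_right,
    fun i y hy z hz => h2 i y hy.1 z hz.1, fun _ y hy => ?_⟩
  obtain ⟨i, hi⟩ := h1 y hy
  exact ⟨i, hi, hy.1.1⟩

end order

/-- **the cover**: few tight chains of terminals such that every component of the graph of the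
terminals minus their union is between two exceptional vertices -/
theorem exists_cover {V : Type} [Finite V] {G : SimpleGraph V} {ℓ : Sym2 V → ℝ} {h : V → ℝ}
    {L : Set V} (hc : G.Connected) (hP : ∃ σ : Equiv.Perm G.Dart, PlaneMap G σ)
    (hℓ : ∀ e ∈ G.edgeSet, 0 < ℓ e)
    (h1 : ∀ u ∈ L, ∀ v ∈ L, |h u - h v| ≤ pathDist G ℓ u v) (hL : L.Nonempty)
    {A B : Set V} (hlow : ∀ v ∈ L, v ∉ A → ∃ u, T G ℓ h L u v)
    (hhigh : ∀ v ∈ L, v ∉ B → ∃ u, T G ℓ h L v u) :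
    ∃ X : Set L, X.Nonempty ∧
      Lanes (gr G L) (gl G ℓ L) (2 * (A.ncard + B.ncard) ^ 3 + 1) X ∧
      ∀ u ∉ X, ∃ a ∈ A, ∃ b ∈ B, u.1 ∈ Btw G ℓ h L a b ∧
        ∀ v ∈ compSet (gr G L) X u, v.1 ∈ Btw G ℓ h L a b := by
  classical
  have := Fintype.ofFinite V
  obtain ⟨v0, hv0⟩ := hL
  choose C hC0 hC1 hC2 using fun a b x : V =>
    exists_chains (h := h) (L := L) hc hP hℓ a b x
  let ι : Type := Option ((A × B) × ((A ∪ B : Set V) × Fin 2))
  have : Fintype ι := Fintype.ofFinite ι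
  let c : ι → Set V := fun o => o.elim {v0} fun q =>
    if (C q.1.1 q.1.2 q.2.1 q.2.2).Nonempty then C q.1.1 q.1.2 q.2.1 q.2.2 else {v0}
  have hcne : ∀ o, (c o).Nonempty := by
    rintro (_ | q)
    · exact ⟨v0, rfl⟩
    · show (if (C q.1.1 q.1.2 q.2.1 q.2.2).Nonempty then C q.1.1 q.1.2 q.2.1 q.2.2
        else {v0}).Nonempty
      split
      · assumption
      · exact ⟨v0, rfl⟩
  have hcL : ∀ o, c o ⊆ L := by
    rintro (_ | q) y hy
    · rw [Set.mem_singleton_iff.1 hy]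
      exact hv0
    · change y ∈ (if (C q.1.1 q.1.2 q.2.1 q.2.2).Nonempty then C q.1.1 q.1.2 q.2.1 q.2.2
        else {v0}) at hy
      split at hy
      · exact hC0 _ _ _ _ hy
      · rw [Set.mem_singleton_iff.1 hy]
        exact hv0
  have hcch : ∀ o, ∀ y ∈ c o, ∀ z ∈ c o, Up G ℓ h L y z ∨ Up G ℓ h L z y := by
    rintro (_ | q) y hy z hz
    · rw [Set.mem_singleton_iff.1 hy, Set.mem_singleton_iff.1 hz]
      exact Or.inl ReflTransGen.refl
    · change y ∈ (if (C q.1.1 q.1.2 q.2.1 q.2.2).Nonempty then C q.1.1 q.1.2 q.2.1 q.2.2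
        else {v0}) at hy
      change z ∈ (if (C q.1.1 q.1.2 q.2.1 q.2.2).Nonempty then C q.1.1 q.1.2 q.2.1 q.2.2
        else {v0}) at hz
      split at hy
      · rename_i hne
        rw [if_pos hne] at hz
        exact hC1 _ _ _ _ y hy z hz
      · rename_i hne
        rw [if_neg hne] at hz
        rw [Set.mem_singleton_iff.1 hy, Set.mem_singleton_iff.1 hz]
        exact Or.inl ReflTransGen.refl
  let c' : ι → Set L := fun o => {x | x.1 ∈ c o}
  set X : Set L := ⋃ i : Fin (Fintype.card ι), c' ((Fintype.equivFin ι).symm i) with hX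
  have hcX : ∀ o, ∀ y : L, y.1 ∈ c o → y ∈ X := by
    intro o y hy
    refine Set.mem_iUnion.2 ⟨Fintype.equivFin ι o, ?_⟩
    rwa [Equiv.symm_apply_apply]
  have hcard : Fintype.card ι ≤ 2 * (A.ncard + B.ncard) ^ 3 + 1 := by
    have e1 : Fintype.card ι = (A.ncard * B.ncard) * ((A ∪ B).ncard * 2) + 1 := by
      rw [← Nat.card_eq_fintype_card]
      show Nat.card (Option ((A × B) × ((A ∪ B : Set V) × Fin 2))) = _
      rw [Finite.card_option, Nat.card_prod, Nat.card_prod, Nat.card_prod, Nat.card_fin,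
        Nat.card_coe_set_eq, Nat.card_coe_set_eq, Nat.card_coe_set_eq]
    rw [e1]
    have e2 : (A ∪ B).ncard ≤ A.ncard + B.ncard := Set.ncard_union_le A B
    have e3 : A.ncard * B.ncard ≤ (A.ncard + B.ncard) * (A.ncard + B.ncard) :=
      Nat.mul_le_mul (Nat.le_add_right _ _) (Nat.le_add_left _ _)
    have e4 := Nat.mul_le_mul e3 (Nat.mul_le_mul_right 2 e2)
    calc _ ≤ (A.ncard + B.ncard) * (A.ncard + B.ncard) * ((A.ncard + B.ncard) * 2) + 1 :=
          Nat.add_le_add_right e4 1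
      _ = _ := by ring
  refine ⟨X, ⟨⟨v0, hv0⟩, hcX none _ rfl⟩, ⟨fun x => h x.1, Fintype.card ι,
    fun i => c' ((Fintype.equivFin ι).symm i), hcard, fun a b => ?_, fun i => ?_,
    fun i y hy z hz => ?_, rfl⟩, fun u hu => ?_⟩
  · rw [gr_dist hc hℓ]
    exact h1 a a.2 b b.2
  · obtain ⟨y, hy⟩ := hcne ((Fintype.equivFin ι).symm i)
    exact ⟨⟨y, hcL _ hy⟩, hy⟩
  · have hd := pathDist_isMet hc hℓ
    rw [gr_dist hc hℓ]
    rcases hcch _ y.1 hy z.1 hz with h2 | h2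
    · refine (h2.dist hc hℓ).trans ?_
      rw [abs_sub_comm]
      exact le_abs_self _
    · rw [hd.symm]
      exact (h2.dist hc hℓ).trans (le_abs_self _)
  · obtain ⟨a, ha, hau⟩ := exists_bot hℓ hlow u.2
    obtain ⟨b, hb, hub⟩ := exists_top' hℓ hhigh u.2
    have huL : u.1 ∈ Btw G ℓ h L a b := ⟨u.2, hau, hub⟩
    refine ⟨a, ha, b, hb, huL, ?_⟩
    have key : ∀ (y z : L) (p : (gr G L).Walk y z), (∀ w ∈ p.support, w ∉ X) →
        y.1 ∈ Btw G ℓ h L a b → z.1 ∈ Btw G ℓ h L a b := by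
      intro y z p
      induction p with
      | nil => exact fun _ h2 => h2
      | @cons y w z hyw p ih =>
        intro hp hy
        apply ih (fun v hv => hp v (by simp [hv]))
        by_contra hw
        have hyw' : ∃ q : G.Walk y.1 w.1, Fr L q := hyw.2
        obtain ⟨q, hq⟩ := hyw'
        have hq' : ∀ v ∈ q.support, v ∈ Btw G ℓ h L a b → v = y.1 := by
          intro v hv hvB
          rcases hq v hv hvB.1 with h2 | h2
          · exact h2
          · rw [h2] at hvB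
            exact absurd hvB hw
        obtain ⟨y', hyy, hy'w⟩ : ∃ y', G.Adj y.1 y' ∧ ReachOff G (Btw G ℓ h L a b) y' w.1 := by
          rcases last_visit q hw hq' with h2 | h2
          · exact absurd hy (ReachOff.left h2)
          · exact h2
        obtain ⟨x, hx, hxw⟩ := exists_exc hℓ hlow hhigh w.2 hw
        have hxL : x ∉ Btw G ℓ h L a b := ReachOff.right hxw
        have hatt : y.1 ∈ attach G (Btw G ℓ h L a b) x :=
          ⟨hy, y', ReachOff.trans (ReachOff.symm hxw) (ReachOff.symm hy'w), hyy.symm⟩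
        obtain ⟨i, hi⟩ := hC2 a b x hxL y.1 hatt
        have hyX : y ∈ X := by
          refine hcX (some ((⟨a, ha⟩, ⟨b, hb⟩), (⟨x, hx⟩, i))) y ?_
          show y.1 ∈ (if (C a b x i).Nonempty then C a b x i else {v0})
          rw [if_pos ⟨y.1, hi⟩]
          exact hi
        exact hp y (by simp) hyX
    rintro v ⟨p, hp⟩
    exact key u v p hp huL

end Vale.Agent.P235.R2.H582.FewT
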