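import Vale.Agent.P235.R2.H582.Faces
import Vale.Agent.P235.R2.H934.TwoFace
import Vale.Agent.P235.R2.H341.XDefs

/-!
P235-M, W7 wide (helper582): plane graphs with slack edges; one vertex without steep edge down, the
vertices without steep edge up and the slack edges lie on few faces; from `RowMQ`.
-/

set_option autoImplicit false
set_option linter.all false

namespace Vale.Agent.P235.R2.H582.Wd

open Vale.Agent.P235 Vale.Agent.P235.Red Vale.Agent.P235.H341W
open Vale.Agent.P235.R2.H168 (hlen hlen_mk)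

variable {V : Type} {G : SimpleGraph V}

/-- the leaves: all vertices without tight edge up are on one face -/
def LeafW (n : ℕ) (W : Type) (G' : SimpleGraph W) (ℓ' : Sym2 W → ℝ) : Prop :=
  ∃ (h' : W → ℝ) (σ' : Equiv.Perm G'.Dart) (s' : W) (m : G'.Dart), PlaneMap G' σ' ∧
    (∀ u v, G'.Adj u v → |h' u - h' v| ≤ ℓ' s(u, v)) ∧
    (∀ v, v ≠ s' → ∃ u, G'.Adj v u ∧ ℓ' s(v, u) ≤ h' v - h' u) ∧
    (∀ v, v ∉ onFace σ' m → ∃ u, G'.Adj v u ∧ ℓ' s(v, u) ≤ h' u - h' v) ∧ Nat.card W ≤ n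

theorem leafW_embeds {C : ℝ} (hC : 1 ≤ C) (hM : MStarLL C) (n : ℕ) (W : Type) [Finite W]
    (G' : SimpleGraph W) (ℓ' : Sym2 W → ℝ) (hc : G'.Connected)
    (hℓ : ∀ e ∈ G'.edgeSet, 0 < ℓ' e) (hQ : LeafW n W G' ℓ') :
    EmbedsL1 (pathDist G' ℓ') (219073 * 96 * C * 1 * ((ll n : ℝ) + 3)) := by
  obtain ⟨h', σ', s', m, hP, hlip, hlow, hhigh, hn⟩ := hQ
  have h1 := W3.plane_ends hC hM W G' σ' ℓ' h' {s'} (onFace σ' m) 1 le_rfl hc hP hℓ
    ⟨Or.inl ⟨s', rfl⟩, Or.inr ⟨m, rfl⟩, Or.inl ⟨s', rfl⟩⟩ hlip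
    (fun v hv => by
      obtain ⟨u, hu, h2⟩ := hlow v hv
      exact ⟨u, hu, by rwa [one_mul]⟩)
    (fun v hv => by
      obtain ⟨u, hu, h2⟩ := hhigh v hv
      exact ⟨u, hu, by rwa [one_mul]⟩)
  refine embeds_mono (pd_nonneg hℓ) ?_ h1
  have h2 : (ll (Nat.card W) : ℝ) ≤ ll n := by exact_mod_cast H582.ll_mono hn
  have h3 : (0 : ℝ) ≤ 219073 * 96 * C * 1 := by positivity
  exact mul_le_mul_of_nonneg_left (by linarith) h3

/-- a descending path of tight edges is isometric -/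
theorem descE_le {ℓ : Sym2 V → ℝ} {h : V → ℝ} {E : V → V → Prop} (hc : G.Connected)
    (hℓ : ∀ e ∈ G.edgeSet, 0 < ℓ e)
    (hE : ∀ u v, E u v → G.Adj u v ∧ ℓ s(u, v) ≤ |h u - h v|) {a b : V}
    (hd : DescE E h a b) : pathDist G ℓ a b ≤ h a - h b := by
  induction hd with
  | refl => rw [pd_self hℓ]; simp
  | @tail c b _ hcb ih =>
    have h1 := pd_tri hc hℓ a c b
    obtain ⟨h3, h4⟩ := hE _ _ hcb.1
    have h2 := pd_adj hℓ h3
    rw [abs_of_pos (sub_pos.2 hcb.2)] at h4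
    linarith

theorem descE_le_abs {ℓ : Sym2 V → ℝ} {h : V → ℝ} {E : V → V → Prop} (hc : G.Connected)
    (hℓ : ∀ e ∈ G.edgeSet, 0 < ℓ e)
    (hE : ∀ u v, E u v → G.Adj u v ∧ ℓ s(u, v) ≤ |h u - h v|) {a b : V}
    (hd : DescE E h a b ∨ DescE E h b a) : pathDist G ℓ a b ≤ |h a - h b| := by
  rcases hd with hd | hd
  · exact (descE_le hc hℓ hE hd).trans (le_abs_self _)
  · rw [pd_comm hc hℓ, abs_sub_comm]
    exact (descE_le hc hℓ hE hd).trans (le_abs_self _)

theorem lip_pdE {ℓ : Sym2 V → ℝ} {h : V → ℝ} (hc : G.Connected)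
    (hlip : ∀ u v, G.Adj u v → |h u - h v| ≤ ℓ s(u, v)) (a b : V) :
    |h a - h b| ≤ pathDist G ℓ a b := by
  have h1 := pd_semi (ℓ := ℓ) (ρ := fun a b => |h a - h b|) hc one_pos (fun a => by simp)
    (fun a b c => abs_sub_le _ _ _) (fun u v ha => by rw [one_mul]; exact hlip u v ha) a b
  rwa [one_mul] at h1

/-- the pieces -/
theorem piece_ofE {ℓ : Sym2 V → ℝ} [Finite V] (hc : G.Connected)
    (hℓ : ∀ e ∈ G.edgeSet, 0 < ℓ e) {K : Set V} {W : Type} [Finite W]
    {G' : SimpleGraph W} {ι : W → V} (hadj : ∀ a b, G'.Adj a b → G.Adj (ι a) (ι b))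
    (hfull : ∀ a b, ι a ∈ K → ι b ∈ K → G.Adj (ι a) (ι b) → G'.Adj a b)
    (hc' : G'.Connected) {κ : K → W} (hκ : ∀ a, ι (κ a) = a.1) :
    H341W.Piece G ℓ K G' (fun e => ℓ (e.map ι)) κ := by
  have hℓ' : ∀ e ∈ G'.edgeSet, 0 < ℓ (e.map ι) := fun e he => by
    induction e with
    | _ u v => exact hℓ _ (hadj u v he)
  refine ⟨inferInstance, hc', hℓ', ?_, ?_⟩
  · intro a b hab
    have h1 : G'.Adj (κ a) (κ b) := hfull _ _ (by rw [hκ]; exact a.2) (by rw [hκ]; exact b.2)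
      (by rw [hκ, hκ]; exact hab)
    refine (pd_adj hℓ' h1).trans (le_of_eq ?_)
    show ℓ s(ι (κ a), ι (κ b)) = _
    rw [hκ, hκ]
  · intro a b
    have h1 := pd_semi (ℓ := fun e => ℓ (e.map ι)) (ρ := fun x y => pathDist G ℓ (ι x) (ι y)) hc'
      one_pos (fun x => pd_self hℓ _) (fun x y z => pd_tri hc hℓ _ _ _) (fun u v huv => by
        rw [one_mul]
        exact pd_adj hℓ (hadj u v huv)) (κ a) (κ b)
    rw [one_mul] at h1
    beta_reduce at h1
    rwa [hκ, hκ] at h1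

/-- one round -/
theorem rounds_ofE {ℓ : Sym2 V → ℝ} {h : V → ℝ} {E : V → V → Prop} [Finite V]
    {σ : Equiv.Perm G.Dart} {s : V} {M : Finset G.Dart} (hRMQ : RowMQ)
    (hℓ : ∀ e ∈ G.edgeSet, 0 < ℓ e) (hlip : ∀ u v, G.Adj u v → |h u - h v| ≤ ℓ s(u, v))
    (hE : ∀ u v, E u v → ℓ s(u, v) ≤ |h u - h v|)
    (hMQ : MQ G σ E h s (M : Set G.Dart)) (hM : M.Nonempty) :
    Rounds (LeafW (Nat.card V)) (4 * M.card) 0 1 G ℓ := by
  classical
  have hc := hMQ.conn
  have hE' : ∀ u v, E u v → G.Adj u v ∧ ℓ s(u, v) ≤ |h u - h v| := fun u v he =>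
    ⟨hMQ.adj u v he, hE u v he⟩
  obtain ⟨Ls, hlenL, hdesc, hp⟩ := hRMQ M.card V G σ E h s M hMQ hM le_rfl
  set X : Set V := insert s (lanesSet Ls) with hX
  have hlanes : Lanes G ℓ (4 * M.card) X := by
    refine ⟨h, ({s} :: Ls).length, fun i => ({s} :: Ls).get i, ?_, lip_pdE hc hlip, ?_, ?_, ?_⟩
    · rw [List.length_cons]
      omega
    · intro i
      beta_reduce
      have hmem := List.get_mem ({s} :: Ls) i
      rcases List.mem_cons.1 hmem with h1 | h1
      · rw [h1]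
        exact ⟨s, rfl⟩
      · exact (hdesc _ h1).1
    · intro i a ha b hb
      beta_reduce at ha hb
      have hmem := List.get_mem ({s} :: Ls) i
      rcases List.mem_cons.1 hmem with h1 | h1
      · rw [h1] at ha hb
        rw [Set.mem_singleton_iff.1 ha, Set.mem_singleton_iff.1 hb, pd_self hℓ]
        exact abs_nonneg _
      · exact descE_le_abs hc hℓ hE' ((hdesc _ h1).2 a ha b hb)
    · ext x
      rw [Set.mem_iUnion, hX, Set.mem_insert_iff]
      constructor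
      · rintro (rfl | ⟨L, hL, hx⟩)
        · exact ⟨⟨0, by simp⟩, rfl⟩
        · obtain ⟨i, hi⟩ := List.mem_iff_get.1 (List.mem_cons_of_mem ({s} : Set V) hL)
          exact ⟨i, by rw [hi]; exact hx⟩
      · rintro ⟨i, hi⟩
        have hmem := List.get_mem ({s} :: Ls) i
        rcases List.mem_cons.1 hmem with h1 | h1
        · rw [h1] at hi
          exact Or.inl hi
        · exact Or.inr ⟨_, h1, hi⟩
  have key : ∀ u, ∃ (W : Type) (G' : SimpleGraph W) (ℓ' : Sym2 W → ℝ)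
      (κ : compSet G X u → W), u ∉ X →
        H341W.Piece G ℓ (compSet G X u) G' ℓ' κ ∧ LeafW (Nat.card V) W G' ℓ' := by
    intro u
    by_cases hu : u ∈ X
    · exact ⟨compSet G X u, ⊥, fun _ => 0, id, fun h => absurd hu h⟩
    · have hu' : u ∉ lanesSet Ls := fun h => hu (Or.inr h)
      obtain ⟨W, fW, G', ι, σ', s', m, hinj, hadj, hfull, hsub, hMQ'⟩ := hp u hu'
      have hXsub : compSet G X u ⊆ compSet G (lanesSet Ls) u := by
        rintro a ⟨p, hp'⟩
        exact ⟨p, fun b hb hbX => hp' b hb (Or.inr hbX)⟩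
      have hmono : ∀ a : compSet G X u, a.1 ∈ Set.range ι := fun a => hsub (hXsub a.2)
      choose κ hκ using hmono
      refine ⟨W, G', fun e => ℓ (e.map ι), κ, fun _ => ⟨piece_ofE hc hℓ hadj
        (fun a b ha hb => hfull a b (hXsub ha) (hXsub hb)) hMQ'.conn hκ,
        h ∘ ι, σ', s', m, hMQ'.plane, ?_, ?_, ?_, ?_⟩⟩
      · intro a b hab
        exact hlip _ _ (hadj a b hab)
      · intro v hv
        obtain ⟨w, hw, hlt⟩ := hMQ'.low v hv
        refine ⟨w, hMQ'.adj _ _ hw, ?_⟩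
        have h1 := hE _ _ hw
        have h5 : h (ι w) < h (ι v) := hlt
        rw [abs_of_pos (sub_pos.2 h5)] at h1
        exact h1
      · intro v hv
        rcases hMQ'.high v with ⟨w, hw, hlt⟩ | ⟨m', hm', h1⟩
        · refine ⟨w, hMQ'.adj _ _ hw, ?_⟩
          have h1 := hE _ _ hw
          have h5 : h (ι v) < h (ι w) := hlt
          rw [abs_sub_comm, abs_of_pos (sub_pos.2 h5)] at h1
          exact h1
        · rw [Set.mem_singleton_iff.1 hm'] at h1
          exact absurd h1 hv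
      · exact Nat.card_le_card_of_injective ι hinj
  choose W G' ℓ' κ hW using key
  exact Rounds.lanes ⟨s, Or.inl rfl⟩ hlanes (fun u hu => (hW u hu).1)
    fun u hu => Rounds.leaf (hW u hu).2

/-- tight form -/
theorem wide_tight {C : ℝ} (hC : 1 ≤ C) (hMS : MStarLL C) (hRMQ : RowMQ) (V : Type) [Finite V]
    (G : SimpleGraph V) (σ : Equiv.Perm G.Dart) (ℓ : Sym2 V → ℝ) (E : V → V → Prop) (h : V → ℝ)
    (s : V) (M : Finset G.Dart) (hℓ : ∀ e ∈ G.edgeSet, 0 < ℓ e)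
    (hlip : ∀ u v, G.Adj u v → |h u - h v| ≤ ℓ s(u, v))
    (hE : ∀ u v, E u v → ℓ s(u, v) ≤ |h u - h v|)
    (hMQ : MQ G σ E h s (M : Set G.Dart)) (hM : M.Nonempty) :
    EmbedsL1 (pathDist G ℓ)
      (315500000000000 * C * ((ll (Nat.card V) : ℝ) + 1 + Real.log (M.card + 2))) := by
  have hL0 : (0 : ℝ) ≤ ll (Nat.card V) := Nat.cast_nonneg _
  have hC' : (1 : ℝ) ≤ 219073 * 96 * C * 1 * ((ll (Nat.card V) : ℝ) + 3) := by nlinarith
  have h1 := rounds_distortion (LeafW (Nat.card V)) hC'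
    (fun W _ G' ℓ' hc' hℓ' hQ => leafW_embeds hC hMS _ W G' ℓ' hc' hℓ' hQ)
    (4 * M.card) 0 1 V G ℓ hMQ.conn hℓ (rounds_ofE hRMQ hℓ hlip hE hMQ hM)
  refine embeds_mono (pd_nonneg hℓ) ?_ h1
  have hm : (0 : ℝ) ≤ M.card := Nat.cast_nonneg _
  have h2 : Real.log (((4 * M.card : ℕ) : ℝ) + 2) ≤ 2 + Real.log (M.card + 2) := by
    have h3 : Real.log (4 * ((M.card : ℝ) + 2)) = Real.log 4 + Real.log (M.card + 2) :=
      Real.log_mul (by norm_num) (by positivity)
    have h4 : Real.log 4 ≤ 2 := by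
      have h5 : Real.log 4 = 2 * Real.log 2 := by
        rw [show (4 : ℝ) = 2 ^ 2 by norm_num, Real.log_pow]
        norm_num
      have h6 := Real.log_two_lt_d9
      rw [h5]
      linarith
    have h5 : Real.log (((4 * M.card : ℕ) : ℝ) + 2) ≤ Real.log (4 * ((M.card : ℝ) + 2)) := by
      refine Real.log_le_log (by positivity) ?_
      push_cast
      linarith
    linarith
  have h3 : 0 ≤ Real.log ((M.card : ℝ) + 2) := Real.log_nonneg (by linarith)
  have h4 : Real.log ((M.card : ℝ) + 2) ≤ C * Real.log ((M.card : ℝ) + 2) :=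
    le_mul_of_one_le_left h3 hC
  have h5 : (ll (Nat.card V) : ℝ) ≤ C * ll (Nat.card V) := le_mul_of_one_le_left hL0 hC
  push_cast at h2 ⊢
  nlinarith

/-- **few faces, with slack edges**: `h` is nonexpansive; every vertex but `s` has an edge of slope
at least `1/D` down; every vertex has an edge of slope at least `1/D` up or is on one of the faces
of `M`; every edge has slope at least `1/D` or is a side of one of the faces of `M`. -/
theorem plane_faces_wide {C : ℝ} (hC : 1 ≤ C) (hMS : MStarLL C) (hRMQ : RowMQ) (V : Type)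
    [Finite V] (G : SimpleGraph V) (σ : Equiv.Perm G.Dart) (ℓ : Sym2 V → ℝ) (h : V → ℝ) (s : V)
    (D : ℝ) (hD : 1 ≤ D) (M : Finset G.Dart) (hM : M.Nonempty) (hc : G.Connected)
    (hP : PlaneMap G σ) (hℓ : ∀ e ∈ G.edgeSet, 0 < ℓ e)
    (h1 : ∀ u v, G.Adj u v → |h u - h v| ≤ ℓ s(u, v))
    (hlow : ∀ v, v ≠ s → ∃ u, G.Adj v u ∧ ℓ s(v, u) ≤ D * (h v - h u))
    (hhigh : ∀ v, (∃ u, G.Adj v u ∧ ℓ s(v, u) ≤ D * (h u - h v)) ∨ ∃ m ∈ M, v ∈ onFace σ m)
    (hslack : ∀ d : G.Dart, ℓ s(d.fst, d.snd) ≤ D * |h d.fst - h d.snd| ∨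
      ∃ m ∈ M, (faceNext σ).SameCycle m d ∨ (faceNext σ).SameCycle m d.symm) :
    EmbedsL1 (pathDist G ℓ)
      (315500000000000 * C * D * ((ll (Nat.card V) : ℝ) + 1 + Real.log (M.card + 2))) := by
  classical
  have hD0 : (0 : ℝ) < D := by linarith
  -- the tight lengths
  let ℓ₁ : Sym2 V → ℝ := fun e => if ℓ e ≤ D * hlen h e then hlen h e else ℓ e
  have hs1 : ∀ u v, ℓ s(u, v) ≤ D * |h u - h v| → ℓ₁ s(u, v) = |h u - h v| := by
    intro u v huv
    show (if ℓ s(u, v) ≤ D * hlen h s(u, v) then hlen h s(u, v) else ℓ s(u, v)) = _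
    rw [hlen_mk, if_pos huv]
  have hs2 : ∀ u v, ¬ ℓ s(u, v) ≤ D * |h u - h v| → ℓ₁ s(u, v) = ℓ s(u, v) := by
    intro u v huv
    show (if ℓ s(u, v) ≤ D * hlen h s(u, v) then hlen h s(u, v) else ℓ s(u, v)) = _
    rw [hlen_mk, if_neg huv]
  have hpos : ∀ u v, G.Adj u v → 0 < ℓ s(u, v) := fun u v ha => hℓ _ ((G.mem_edgeSet).2 ha)
  have hne : ∀ u v, G.Adj u v → ℓ s(u, v) ≤ D * |h u - h v| → 0 < |h u - h v| := by
    intro u v ha huv
    have h3 := hpos u v ha
    by_contra hh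
    have h4 : |h u - h v| = 0 := le_antisymm (not_lt.1 hh) (abs_nonneg _)
    rw [h4, mul_zero] at huv
    linarith
  have hℓ₁ : ∀ e ∈ G.edgeSet, 0 < ℓ₁ e := fun e he => by
    induction e with
    | _ u v =>
      by_cases huv : ℓ s(u, v) ≤ D * |h u - h v|
      · rw [hs1 u v huv]
        exact hne u v he huv
      · rw [hs2 u v huv]
        exact hℓ _ he
  have hle1 : ∀ u v, G.Adj u v → ℓ₁ s(u, v) ≤ ℓ s(u, v) := by
    intro u v ha
    by_cases huv : ℓ s(u, v) ≤ D * |h u - h v|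
    · rw [hs1 u v huv]
      exact h1 u v ha
    · rw [hs2 u v huv]
  have hle2 : ∀ u v, G.Adj u v → ℓ s(u, v) ≤ D * ℓ₁ s(u, v) := by
    intro u v ha
    by_cases huv : ℓ s(u, v) ≤ D * |h u - h v|
    · rw [hs1 u v huv]
      exact huv
    · rw [hs2 u v huv]
      exact le_mul_of_one_le_left (hpos u v ha).le hD
  have hlip : ∀ u v, G.Adj u v → |h u - h v| ≤ ℓ₁ s(u, v) := by
    intro u v ha
    by_cases huv : ℓ s(u, v) ≤ D * |h u - h v|
    · rw [hs1 u v huv]
    · rw [hs2 u v huv]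
      exact h1 u v ha
  let E : V → V → Prop := fun u v => G.Adj u v ∧ ℓ s(u, v) ≤ D * |h u - h v|
  have hup : ∀ u v, G.Adj v u → ℓ s(v, u) ≤ D * (h v - h u) → E v u ∧ h u < h v := by
    intro u v ha huv
    have h3 := hpos v u ha
    have h4 : 0 < h v - h u := by
      by_contra hh
      have h5 : D * (h v - h u) ≤ 0 := mul_nonpos_of_nonneg_of_nonpos hD0.le (not_lt.1 hh)
      linarith
    exact ⟨⟨ha, by rw [abs_of_pos h4]; exact huv⟩, sub_pos.1 h4⟩
  have hdn : ∀ u v, G.Adj v u → ℓ s(v, u) ≤ D * (h u - h v) → E v u ∧ h v < h u := by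
    intro u v ha huv
    have h3 := hpos v u ha
    have h4 : 0 < h u - h v := by
      by_contra hh
      have h5 : D * (h u - h v) ≤ 0 := mul_nonpos_of_nonneg_of_nonpos hD0.le (not_lt.1 hh)
      linarith
    exact ⟨⟨ha, by rw [abs_sub_comm, abs_of_pos h4]; exact huv⟩, sub_pos.1 h4⟩
  have hMQ : MQ G σ E h s (M : Set G.Dart) := by
    refine ⟨hc, hP, fun u v he => he.1, fun u v he => ⟨he.1.symm, ?_⟩, ?_, ?_, ?_, ?_⟩
    · rw [Sym2.eq_swap, abs_sub_comm]
      exact he.2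
    · intro u v he hh
      have h3 := hne u v he.1 he.2
      rw [hh, sub_self, abs_zero] at h3
      exact lt_irrefl _ h3
    · intro v hv
      obtain ⟨u, hu, h3⟩ := hlow v hv
      exact ⟨u, hup u v hu h3⟩
    · intro v
      rcases hhigh v with ⟨u, hu, h3⟩ | h3
      · exact Or.inl ⟨u, hdn u v hu h3⟩
      · exact Or.inr h3
    · intro d
      rcases hslack d with h3 | h3
      · exact Or.inl ⟨d.adj, h3⟩
      · exact Or.inr h3
  have hmain := wide_tight hC hMS hRMQ V G σ ℓ₁ E h s M hℓ₁ hlip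
    (fun u v he => (hs1 u v he.2).le) hMQ hM
  have e1 : ∀ x y, pathDist G ℓ x y ≤ D * pathDist G ℓ₁ x y :=
    R2.H673.pathDist_le_mul hD0.le (fun u v ha => (hpos u v ha).le) hle2
  have e2 : ∀ x y, pathDist G ℓ₁ x y ≤ 1 * pathDist G ℓ x y :=
    R2.H673.pathDist_le_mul zero_le_one (fun u v ha => (hℓ₁ _ ((G.mem_edgeSet).2 ha)).le)
      (fun u v ha => by rw [one_mul]; exact hle1 u v ha)
  refine R2.H673.embedsL1_scale hD0.le hmain e1 (fun x y => ?_)
  have hlog : 0 ≤ Real.log ((M.card : ℝ) + 2) := Real.log_nonneg (by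
    have : (0 : ℝ) ≤ M.card := Nat.cast_nonneg _
    linarith)
  have h3 : (0 : ℝ) ≤ 315500000000000 * C * D *
      ((ll (Nat.card V) : ℝ) + 1 + Real.log (M.card + 2)) := by positivity
  have h4 := mul_le_mul_of_nonneg_left (e2 x y) h3
  rw [one_mul] at h4
  calc D * (315500000000000 * C * ((ll (Nat.card V) : ℝ) + 1 + Real.log (M.card + 2)) *
        pathDist G ℓ₁ x y) =
      315500000000000 * C * D * ((ll (Nat.card V) : ℝ) + 1 + Real.log (M.card + 2)) *
        pathDist G ℓ₁ x y := by ring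
    _ ≤ _ := h4

/-- **few faces, distance from a root**: `(G, ℓ)` is any plane graph with lengths, `r` any vertex,
and the faces of `M` contain all local maxima of the distance from `r`, on vertices and inside
edges. -/
theorem plane_root_wide {C : ℝ} (hC : 1 ≤ C) (hMS : MStarLL C) (hRMQ : RowMQ) (V : Type)
    [Finite V] (G : SimpleGraph V) (σ : Equiv.Perm G.Dart) (ℓ : Sym2 V → ℝ) (r : V)
    (M : Finset G.Dart) (hM : M.Nonempty) (hc : G.Connected)
    (hP : PlaneMap G σ) (hℓ : ∀ e ∈ G.edgeSet, 0 < ℓ e)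
    (hhigh : ∀ v, (∃ u, G.Adj v u ∧ pathDist G ℓ r u = pathDist G ℓ r v + ℓ s(v, u)) ∨
      ∃ m ∈ M, v ∈ onFace σ m)
    (hslack : ∀ d : G.Dart, pathDist G ℓ r d.snd = pathDist G ℓ r d.fst + ℓ s(d.fst, d.snd) ∨
      pathDist G ℓ r d.fst = pathDist G ℓ r d.snd + ℓ s(d.fst, d.snd) ∨
      ∃ m ∈ M, (faceNext σ).SameCycle m d ∨ (faceNext σ).SameCycle m d.symm) :
    EmbedsL1 (pathDist G ℓ)
      (315500000000000 * C * ((ll (Nat.card V) : ℝ) + 1 + Real.log (M.card + 2))) := by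
  have tri := pd_tri hc hℓ
  have hpos : ∀ u v, G.Adj u v → 0 < ℓ s(u, v) := fun u v ha => hℓ _ ((G.mem_edgeSet).2 ha)
  have h := plane_faces_wide hC hMS hRMQ V G σ ℓ (pathDist G ℓ r) r 1 le_rfl M hM hc hP hℓ
    (fun u v ha => by
      have h1 := pd_adj hℓ ha
      have h2 := tri r u v
      have h3 := tri r v u
      rw [pd_comm hc hℓ v u] at h3
      exact abs_le.2 ⟨by linarith, by linarith⟩)
    (fun v hv => by
      obtain ⟨u, hu, h1⟩ := _root_.Vale.Agent.P235.Tight.exists_first hc hℓ hv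
      refine ⟨u, hu, ?_⟩
      rw [pd_comm hc hℓ r v, pd_comm hc hℓ r u, one_mul]
      linarith)
    (fun v => by
      rcases hhigh v with ⟨u, hu, h1⟩ | h1
      · exact Or.inl ⟨u, hu, by rw [one_mul]; linarith⟩
      · exact Or.inr h1)
    (fun d => by
      rcases hslack d with h1 | h1 | h1
      · refine Or.inl ?_
        rw [one_mul, h1, abs_sub_comm, add_sub_cancel_left]
        exact le_abs_self _
      · refine Or.inl ?_
        rw [one_mul, h1, add_sub_cancel_left]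
        exact le_abs_self _
      · exact Or.inr h1)
  rwa [mul_one] at h

end Vale.Agent.P235.R2.H582.Wd
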