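import Vale.Agent.P235.R2.H611.TermFinal
import Vale.Agent.P235.R2.H582.Wide

/-!
P235-M (helper582): the graph of the terminals.
-/

set_option autoImplicit false
set_option linter.all false

namespace Vale.Agent.P235.R2.H582.GL

open SimpleGraph Vale.Agent.P235 Vale.Agent.P235.Red Vale.Agent.P235.Red.F0 Vale.Agent.P235.Quo

variable {V : Type} {G : SimpleGraph V} {ℓ : Sym2 V → ℝ} {L : Set V}

/-- no vertex of `L` except the ends -/
def Fr (L : Set V) {x y : V} (w : G.Walk x y) : Prop := ∀ z ∈ w.support, z ∈ L → z = x ∨ z = y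

theorem Fr.rev {x y : V} {w : G.Walk x y} (h : Fr L w) : Fr L w.reverse := fun z hz hL => by
  rw [Walk.support_reverse, List.mem_reverse] at hz
  exact (h z hz hL).symm

theorem wl_rev {x y : V} (w : G.Walk x y) : wl ℓ w.reverse = wl ℓ w := by
  unfold wl
  rw [Walk.edges_reverse, List.map_reverse, List.sum_reverse]

/-- the graph of the terminals: joined by a walk outside `L` -/
def gr (G : SimpleGraph V) (L : Set V) : SimpleGraph L where
  Adj a b := a ≠ b ∧ ∃ w : G.Walk a.1 b.1, Fr L w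
  symm := ⟨fun _ _ ⟨h, w, hw⟩ => ⟨h.symm, w.reverse, hw.rev⟩⟩
  loopless := ⟨fun _ h => h.1 rfl⟩

/-- the lengths of these walks -/
def ls (G : SimpleGraph V) (ℓ : Sym2 V → ℝ) (L : Set V) (e : Sym2 L) : Set ℝ :=
  {r | ∃ (x y : L) (w : G.Walk x.1 y.1), s(x, y) = e ∧ Fr L w ∧ wl ℓ w = r}

/-- the length of an edge of the graph of the terminals -/
noncomputable def gl (G : SimpleGraph V) (ℓ : Sym2 V → ℝ) (L : Set V) (e : Sym2 L) : ℝ :=
  sInf (ls G ℓ L e)

theorem gl_le (hℓ : ∀ e ∈ G.edgeSet, 0 < ℓ e) {a b : L} (w : G.Walk a.1 b.1) (hw : Fr L w) :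
    gl G ℓ L s(a, b) ≤ wl ℓ w := by
  refine csInf_le ⟨0, ?_⟩ ⟨a, b, w, rfl, hw, rfl⟩
  rintro _ ⟨x, y, w', -, -, rfl⟩
  exact w_nonneg hℓ w'

theorem le_gl {a b : L} (h : (gr G L).Adj a b) {K : ℝ}
    (hK : ∀ w : G.Walk a.1 b.1, Fr L w → K ≤ wl ℓ w) : K ≤ gl G ℓ L s(a, b) := by
  obtain ⟨-, w, hw⟩ := h
  refine le_csInf ⟨_, a, b, w, rfl, hw, rfl⟩ ?_
  rintro _ ⟨x, y, w', he, hw', rfl⟩
  rcases Sym2.eq_iff.1 he with ⟨rfl, rfl⟩ | ⟨rfl, rfl⟩
  · exact hK w' hw'
  · rw [← wl_rev]
    exact hK _ hw'.rev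

theorem fr_edge {x y : V} (h : G.Adj x y) : Fr L (Walk.cons h Walk.nil) := fun z hz _ => by
  rw [Walk.support_cons, Walk.support_nil, List.mem_cons, List.mem_singleton] at hz
  exact hz

/-- a walk of `G` from a terminal to a terminal gives a walk of the graph of the terminals -/
theorem walk_gr (hℓ : ∀ e ∈ G.edgeSet, 0 < ℓ e) {x b : V} (w : G.Walk x b) (hb : b ∈ L) :
    ∀ (a : V) (ha : a ∈ L) (q : G.Walk a x), Fr L q →
      ∃ p : (gr G L).Walk ⟨a, ha⟩ ⟨b, hb⟩, wl (gl G ℓ L) p ≤ wl ℓ q + wl ℓ w := by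
  induction w with
  | @nil b =>
    intro a ha q hq
    by_cases hab : a = b
    · subst hab
      exact ⟨Walk.nil, by
        rw [wl_nil, wl_nil, add_zero]
        exact w_nonneg hℓ q⟩
    · have hadj : (gr G L).Adj ⟨a, ha⟩ ⟨b, hb⟩ := ⟨fun h => hab (congrArg Subtype.val h), q, hq⟩
      refine ⟨Walk.cons hadj Walk.nil, ?_⟩
      rw [wl_cons, wl_nil, wl_nil, add_zero, add_zero]
      exact gl_le hℓ (a := ⟨a, ha⟩) (b := ⟨b, hb⟩) q hq
  | @cons x y b hxy w ih =>
    intro a ha q hq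
    by_cases hx : x ∈ L
    · obtain ⟨p, hp⟩ := ih hb x hx (Walk.cons hxy Walk.nil) (fr_edge hxy)
      rw [wl_cons, wl_nil, add_zero] at hp
      by_cases hax : a = x
      · subst hax
        refine ⟨p, ?_⟩
        rw [wl_cons]
        have h1 := w_nonneg hℓ q
        change 0 ≤ wl ℓ q at h1
        linarith
      · have hadj : (gr G L).Adj ⟨a, ha⟩ ⟨x, hx⟩ := ⟨fun h => hax (congrArg Subtype.val h), q, hq⟩
        refine ⟨Walk.cons hadj p, ?_⟩
        rw [wl_cons, wl_cons]
        have h1 := gl_le hℓ (a := ⟨a, ha⟩) (b := ⟨x, hx⟩) q hq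
        linarith
    · obtain ⟨p, hp⟩ := ih hb a ha (q.append (Walk.cons hxy Walk.nil)) (by
        intro z hz hL
        rw [Walk.mem_support_append_iff] at hz
        rcases hz with hz | hz
        · rcases hq z hz hL with h1 | h1
          · exact Or.inl h1
          · rw [h1] at hL
            exact absurd hL hx
        · rw [Walk.support_cons, Walk.support_nil, List.mem_cons, List.mem_singleton] at hz
          rcases hz with h1 | h1
          · rw [h1] at hL
            exact absurd hL hx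
          · exact Or.inr h1)
      refine ⟨p, ?_⟩
      rw [wl_append, wl_cons, wl_nil] at hp
      rw [wl_cons]
      linarith

theorem gr_conn (hc : G.Connected) (hℓ : ∀ e ∈ G.edgeSet, 0 < ℓ e) (hL : L.Nonempty) :
    (gr G L).Connected := by
  obtain ⟨l, hl⟩ := hL
  have : Nonempty L := ⟨⟨l, hl⟩⟩
  refine ⟨fun a b => ?_⟩
  obtain ⟨w⟩ := hc a.1 b.1
  obtain ⟨p, -⟩ := walk_gr hℓ w b.2 a.1 a.2 Walk.nil (fun z hz _ => by
    rw [Walk.support_nil, List.mem_singleton] at hz
    exact Or.inl hz)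
  exact ⟨p⟩

theorem gl_pos [Finite V] (hc : G.Connected) (hℓ : ∀ e ∈ G.edgeSet, 0 < ℓ e) :
    ∀ e ∈ (gr G L).edgeSet, 0 < gl G ℓ L e := fun e he => by
  induction e with
  | _ a b =>
    have hab : (gr G L).Adj a b := he
    have h1 : 0 < pathDist G ℓ a b := d_pos hc hℓ fun h => hab.1 (Subtype.ext h)
    exact h1.trans_le (le_gl hab fun w _ => d_le hℓ w)

theorem gr_dist [Finite V] (hc : G.Connected) (hℓ : ∀ e ∈ G.edgeSet, 0 < ℓ e) (a b : L) :
    pathDist (gr G L) (gl G ℓ L) a b = pathDist G ℓ a b := by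
  have hp := gl_pos (L := L) hc hℓ
  apply le_antisymm
  · have : Nonempty (G.Walk a.1 b.1) := hc a.1 b.1
    refine le_ciInf fun w => ?_
    obtain ⟨p, h1⟩ := walk_gr hℓ w b.2 a.1 a.2 Walk.nil (fun z hz _ => by
      rw [Walk.support_nil, List.mem_singleton] at hz
      exact Or.inl hz)
    rw [wl_nil, zero_add] at h1
    exact (d_le hp p).trans h1
  · have h1 := pd_semi (ℓ := gl G ℓ L) (ρ := fun x y : L => pathDist G ℓ x y)
      (gr_conn hc hℓ ⟨a.1, a.2⟩) one_pos (fun x => d_self hℓ _)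
      (fun x y z => d_tri hc hℓ _ _ _) (fun u v huv => by
        rw [one_mul]
        exact le_gl huv fun w _ => d_le hℓ w) a b
    rwa [one_mul] at h1

/-- the components: a walk of the graph of the terminals off `X` gives a walk of `G` off `X` -/
theorem gr_comp {X : Set L} {u a : L} (h : a ∈ compSet (gr G L) X u) :
    a.1 ∈ compSet G (Subtype.val '' X) u.1 := by
  obtain ⟨p, hp⟩ := h
  induction p with
  | @nil a =>
    refine ⟨Walk.nil, fun z hz hX => ?_⟩
    rw [Walk.support_nil, List.mem_singleton] at hz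
    obtain ⟨c, hc, hcz⟩ := hX
    have : c = a := Subtype.ext (hcz.trans hz)
    rw [this] at hc
    exact hp a (by simp) hc
  | @cons u v a huv p ih =>
    have hv : v ∈ (Walk.cons huv p).support := by
      rw [Walk.support_cons]
      exact List.mem_cons_of_mem _ p.start_mem_support
    obtain ⟨q, hq⟩ := ih fun z hz => hp z (by
      rw [Walk.support_cons]
      exact List.mem_cons_of_mem _ hz)
    have huv' : ∃ w : G.Walk u.1 v.1, Fr L w := huv.2
    obtain ⟨w, hw⟩ := huv'
    refine ⟨w.append q, fun z hz hX => ?_⟩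
    rw [Walk.mem_support_append_iff] at hz
    rcases hz with hz | hz
    · obtain ⟨c, hc, rfl⟩ := hX
      rcases hw c.1 hz c.2 with h1 | h1
      · rw [Subtype.ext h1] at hc
        exact hp u (Walk.start_mem_support _) hc
      · rw [Subtype.ext h1] at hc
        exact hp v hv hc
    · exact hq z hz hX

/-- the terminals of the piece -/
def tL (L : Set V) (S : Set V) : Set S := {x | x.1 ∈ L}

/-- lengths of the induced graph -/
def li (ℓ : Sym2 V → ℝ) (S : Set V) (e : Sym2 S) : ℝ := ℓ (e.map Subtype.val)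

theorem li_pos (hℓ : ∀ e ∈ G.edgeSet, 0 < ℓ e) (S : Set V) :
    ∀ e ∈ (G.induce S).edgeSet, 0 < li ℓ S e := fun e he => by
  induction e with
  | _ a b => exact hℓ s(a.1, b.1) he

theorem li_far (hℓ : ∀ e ∈ G.edgeSet, 0 < ℓ e) {S : Set V} (hc : G.Connected)
    (hS : (G.induce S).Connected) (x y : S) :
    pathDist G ℓ x y ≤ pathDist (G.induce S) (li ℓ S) x y := by
  have h1 := pd_semi (ℓ := li ℓ S) (ρ := fun x y : S => pathDist G ℓ x y) hS one_pos
    (fun x => d_self hℓ _) (fun x y z => d_tri hc hℓ _ _ _) (fun u v huv => by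
      rw [one_mul]
      exact d_adj hℓ huv) x y
  rwa [one_mul] at h1

theorem wl_induce {S : Set V} {x y : V} (w : G.Walk x y) (hw : ∀ z ∈ w.support, z ∈ S) :
    wl (li ℓ S) (w.induce S hw) = wl ℓ w := by
  induction w with
  | nil => simp [wl]
  | @cons x z y h p ih =>
    have h1 := ih fun u hu => hw u (by
      rw [Walk.support_cons]
      exact List.mem_cons_of_mem _ hu)
    rw [wl_cons, ← h1]
    rfl

/-- **the pieces of the graph of the terminals** -/
theorem piece_gr [Finite V] (hc : G.Connected) (hℓ : ∀ e ∈ G.edgeSet, 0 < ℓ e) {X : Set L} {u : L}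
    {S : Set V} (hS : (G.induce S).Connected) (hsub : compSet G (Subtype.val '' X) u.1 ⊆ S)
    (hu : u ∉ X) :
    H341W.Piece (gr G L) (gl G ℓ L) (compSet (gr G L) X u) (gr (G.induce S) (tL L S))
      (gl (G.induce S) (li ℓ S) (tL L S))
      (fun a => ⟨⟨a.1.1, hsub (gr_comp a.2)⟩, a.1.2⟩) := by
  have hℓS := li_pos (ℓ := ℓ) hℓ S
  have huS : u.1 ∈ S := hsub (gr_comp ⟨Walk.nil, fun z hz => by
    rw [Walk.support_nil, List.mem_singleton] at hz
    rwa [hz]⟩)
  have hne : (tL L S).Nonempty := ⟨⟨u.1, huS⟩, u.2⟩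
  refine ⟨inferInstance, gr_conn hS hℓS hne, gl_pos hS hℓS, ?_, ?_⟩
  · intro a b hab
    refine le_gl hab fun w hw => ?_
    rw [gr_dist hS hℓS]
    have hXa : a.1 ∉ X := by
      obtain ⟨p, hp⟩ := a.2
      exact hp _ p.end_mem_support
    have hXb : b.1 ∉ X := by
      obtain ⟨p, hp⟩ := b.2
      exact hp _ p.end_mem_support
    obtain ⟨q, hq⟩ := gr_comp a.2
    have hwS : ∀ z ∈ w.support, z ∈ S := by
      intro z hz
      apply hsub
      classical
      refine ⟨q.append (w.takeUntil z hz), fun y hy hX => ?_⟩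
      rw [Walk.mem_support_append_iff] at hy
      rcases hy with hy | hy
      · exact hq y hy hX
      · have hy' := w.support_takeUntil_subset_support hz hy
        obtain ⟨c, hc', rfl⟩ := hX
        rcases hw c.1 hy' c.2 with h1 | h1
        · rw [Subtype.ext h1] at hc'
          exact hXa hc'
        · rw [Subtype.ext h1] at hc'
          exact hXb hc'
    rw [← wl_induce (ℓ := ℓ) w hwS]
    exact d_le hℓS (w.induce S hwS)
  · intro a b
    rw [gr_dist hc hℓ, gr_dist hS hℓS]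
    exact li_far hℓ hc hS ⟨a.1.1, hsub (gr_comp a.2)⟩ ⟨b.1.1, hsub (gr_comp b.2)⟩

end Vale.Agent.P235.R2.H582.GL
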