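import Vale.Agent.P235.H105.Induced
import Vale.Agent.P235.R2.H802.Genus
import Vale.Agent.P235.R2.H341.CapDefs
import Vale.Agent.P235.R2.H582.CapA

/-!
P235-M, RowInd (helper582): connected induced subgraphs of plane maps are plane maps and keep the
faces all whose vertices they contain.
-/

set_option autoImplicit false
set_option linter.all false

namespace Vale.Agent.P235.R2.H582

open Equiv.Perm Function
open Vale.Agent.P235.H341W (RowInd)

/-- the induced rotation does not change the faces inside `S` -/
theorem up_next {V : Type} [Finite V] {G : SimpleGraph V} {σ : Equiv.Perm G.Dart} {S : Set V}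
    {a b : (G.induce S).Dart} (h : faceNext σ (upDart a) = upDart b) :
    faceNext (indRot σ S) a = b := by
  have hf := @finite_dart V _ G
  have hf' := @finite_dart S _ (G.induce S)
  refine upDart_injective ?_
  show upDart (indRot σ S a.symm) = upDart b
  have h0 : (σ ^ 1) (upDart a.symm) = upDart b := by
    rw [pow_one, upDart_symm]
    exact h
  have h1 : retTime σ (upDart (G := G) (S := S)) a.symm = 1 := by
    refine le_antisymm ?_ (retTime_pos σ _ _)
    refine retTime_min σ _ _ Nat.one_pos ?_
    rw [h0]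
    exact ⟨b, rfl⟩
  rw [upDart_indRot, h1]
  exact h0

/-- **RowInd** -/
theorem rowInd : RowInd := by
  classical
  intro V _ G σ S hc hP hcS hne
  have hf := @finite_dart V _ G
  have hf' := @finite_dart S _ (G.induce S)
  have := Fintype.ofFinite V
  have hE := induced_euler (σ := σ) hcS hne (by
    intro _ _ z h1 _ h3
    refine plane_cycle' hc hP z h1 fun v => ?_
    rw [← h3 v, Finset.sum_filter])
  refine ⟨indRot σ S, ?_, ?_⟩
  · refine Tight.plane_of_le hcS (indRot_fst hP.fst) (fun a b hab => ?_) hE
    exact retPerm_sameCycle σ upDart_injective (hP.cyc _ _ (congrArg Subtype.val hab))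
  · intro d₀ hd
    have hmem : ∀ d, (faceNext σ).SameCycle d₀ d → ∃ a : (G.induce S).Dart, upDart a = d := by
      intro d h
      have e1 : d.fst ∈ S := hd ⟨d, h, rfl⟩
      have e2 : d.snd ∈ S := hd ⟨faceNext σ d, h.trans (next_cycle _ _), by
        show (σ d.symm).fst = d.snd
        rw [hP.fst]
        rfl⟩
      exact (mem_range_upDart d).2 ⟨e1, e2⟩
    obtain ⟨a₀, ha₀⟩ := hmem d₀ (Equiv.Perm.SameCycle.refl _ _)
    refine ⟨a₀, fun v hv => ?_⟩
    obtain ⟨d', h1, h2⟩ := hv
    have key : d' ∈ {d | (faceNext σ).SameCycle d₀ d ∧ ∃ a, upDart a = d ∧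
        (faceNext (indRot σ S)).SameCycle a₀ a} := by
      refine closed_cycle ?_ ⟨Equiv.Perm.SameCycle.refl _ _, a₀, ha₀,
        Equiv.Perm.SameCycle.refl _ _⟩ h1
      rintro d ⟨k1, a, rfl, k2⟩
      have k3 := k1.trans (next_cycle (faceNext σ) (upDart a))
      obtain ⟨b, hb⟩ := hmem _ k3
      refine ⟨k3, b, hb, ?_⟩
      have k4 := next_cycle (faceNext (indRot σ S)) a
      rw [up_next hb.symm] at k4
      exact k2.trans k4
    obtain ⟨_, a, ha, hs⟩ := key
    refine ⟨a, hs, Subtype.ext ?_⟩
    rw [← upDart_fst, ha]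
    exact h2

end Vale.Agent.P235.R2.H582
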