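import Vale.Agent.P235.R2.H582.KprStage
import Vale.Agent.P235.R2.H582.KprStep
import Vale.Agent.P235.R2.H611.KprR1
import Vale.Agent.P235.R2.H680.RowPot
import Vale.Agent.P235.R2.H907.RowCount
import Vale.Agent.P235.R2.H90.KprDiam
import Vale.Agent.P235.R2.H598.RowKPR
import Vale.Agent.P235.R2.H341.Retr7
import Vale.Agent.P235.R2.H686.SetRounds

/-!
P235-M (helper582).  All rows together: the step which deletes any set `X` from a plane graph.
-/

set_option autoImplicit false
set_option linter.all false

namespace Vale.Agent.P235.Kpr

open SimpleGraph Vale.Agent.P235

/-- random partitions of a plane graph (Klein, Plotkin, Rao) -/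
theorem kpr : RowKPR := rowKPR rowPot rowCount (rowDiam rowMinor rowStage)

/-- random retractions of a plane graph onto any nonempty set of vertices -/
theorem retr : RowRetr := rowRetr rowCount kpr

/-- the step which deletes any set -/
theorem step : RowStep := rowStep retr

end Vale.Agent.P235.Kpr
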