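import Vale.Agent.P235.R2.H341.KrSpec
import Vale.Agent.P235.R2.H643.StepT

/-!
P235-M (helper582).  Row K5: the step which deletes any set `X`, no `K_r` minor.
-/

set_option autoImplicit false
set_option linter.all false

namespace Vale.Agent.P235.Kr

open SimpleGraph Vale.Agent.P235 Vale.Agent.P235.R2.H899

theorem rowK5 (h4 : RowK4) : RowK5 := by
  classical
  intro V _ G ℓ r hc hP hℓ X B hX hB hE
  obtain ⟨E, hE0⟩ : ∃ E : ℝ, E = 200 * ((r : ℝ) + 2) ^ 3 := ⟨_, rfl⟩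
  have hE1 : 1 ≤ E := by
    have h1 : (0 : ℝ) ≤ r := Nat.cast_nonneg r
    have h2 : (1 : ℝ) ≤ ((r : ℝ) + 2) ^ 3 := one_le_pow₀ (by linarith)
    rw [hE0]
    linarith
  have hd := pathDist_isMet hc hℓ
  obtain ⟨ν0, hν0⟩ := exists_near (X := X) hc hℓ hX
  obtain ⟨κ, hκ, w, π, hw, hw1, hπ1, hπ3, hπ4⟩ := h4 V G ℓ r hc hP hℓ X ν0 hν0
  simp only [← hE0] at hπ3
  obtain ⟨ρ, hρL, hρ1, hρ2, -⟩ := hE.toL1S
  have hρI : IsL1 ρ := hρL.isL1
  have hE2 : 0 < E := by linarith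
  have hB2 : 0 < B := by linarith
  have hK : 0 < E * B := mul_pos hE2 hB2
  refine ⟨fun x y => ∑ i, w i * (1 / (E * B) * ρ ⟨π i x, hπ1 i x⟩ ⟨π i y, hπ1 i y⟩), ?_, ?_, ?_⟩
  · exact IsL1.sum Finset.univ
      (fun i x y => w i * (1 / (E * B) * ρ ⟨π i x, hπ1 i x⟩ ⟨π i y, hπ1 i y⟩))
      fun i _ => ((hρI.comap (fun x => (⟨π i x, hπ1 i x⟩ : X))).smul (by positivity)).smul (hw i)
  · intro u v huv
    have h1 : ∑ i, w i * (1 / (E * B) * ρ ⟨π i u, hπ1 i u⟩ ⟨π i v, hπ1 i v⟩) ≤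
        ∑ i, (1 / E) * (w i * pathDist G ℓ (π i u) (π i v)) := by
      refine Finset.sum_le_sum fun i _ => ?_
      have h2 := hρ2 ⟨π i u, hπ1 i u⟩ ⟨π i v, hπ1 i v⟩
      have h3 : 1 / (E * B) * ρ ⟨π i u, hπ1 i u⟩ ⟨π i v, hπ1 i v⟩ ≤
          1 / E * pathDist G ℓ (π i u) (π i v) := by
        rw [div_mul_eq_mul_div, one_mul, div_le_iff₀ hK]
        have h4 : 1 / E * pathDist G ℓ (π i u) (π i v) * (E * B) =
            B * pathDist G ℓ (π i u) (π i v) := by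
          field_simp
        rw [h4]
        exact h2
      have := mul_le_mul_of_nonneg_left h3 (hw i)
      linarith
    rw [← Finset.mul_sum] at h1
    have h2 := mul_le_mul_of_nonneg_left (hπ3 u v huv) (by positivity : 0 ≤ 1 / E)
    have h3 : 1 / E * (E * ℓ s(u, v)) = ℓ s(u, v) := by
      field_simp
    linarith
  · intro ν hν x y δ hδ hx hy hxy
    have hx' : pathDist G ℓ x (ν0 x) ≤ δ := (hν0.le x (ν x) (hν.mem x)).trans hx
    have hy' : pathDist G ℓ y (ν0 y) ≤ 5 / 4 * δ := (hν0.le y (ν y) (hν.mem y)).trans hy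
    have h0 : ∀ i, δ ≤ ρ ⟨π i x, hπ1 i x⟩ ⟨π i y, hπ1 i y⟩ := by
      intro i
      have h2 : pathDist G ℓ (π i x) (π i y) ≤ ρ ⟨π i x, hπ1 i x⟩ ⟨π i y, hπ1 i y⟩ :=
        hρ1 ⟨π i x, hπ1 i x⟩ ⟨π i y, hπ1 i y⟩
      have h3 := hd.tri x (π i x) y
      have h4 := hd.tri (π i x) (π i y) y
      rw [hd.symm (π i y) y] at h4
      have h5 := hπ4 i x
      have h6 := hπ4 i y
      linarith
    have h1 : ∑ i, w i * (1 / (E * B) * δ) ≤
        ∑ i, w i * (1 / (E * B) * ρ ⟨π i x, hπ1 i x⟩ ⟨π i y, hπ1 i y⟩) :=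
      Finset.sum_le_sum fun i _ => mul_le_mul_of_nonneg_left
        (mul_le_mul_of_nonneg_left (h0 i) (by positivity)) (hw i)
    rw [← Finset.sum_mul, hw1, one_mul] at h1
    have h2 := mul_le_mul_of_nonneg_left h1 (by positivity : (0 : ℝ) ≤ 2 * E * B)
    have h3 : 2 * E * B * (1 / (E * B) * δ) = 2 * δ := by
      field_simp
    rw [h3] at h2
    have h4 : 400 * ((r : ℝ) + 2) ^ 3 * B = 2 * E * B := by
      rw [hE0]
      ring
    rw [h4]
    exact h2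

end Vale.Agent.P235.Kr
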