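import Vale.Agent.P235.R2.H582.FaceU
import Vale.Agent.P235.R2.H582.ShrT

/-!
P235-M (helper582).  Terminals, one source (a vertex or a face), exceptional vertices and faces:
from the tight vertex form.
-/

set_option autoImplicit false
set_option linter.all false

namespace Vale.Agent.P235.R2.H582.FaceT

open SimpleGraph Vale.Agent.P235 Vale.Agent.P235.Red Vale.Agent.P235.Red.F0 Vale.Agent.P235.Tight
  Vale.Agent.P235.H341W Vale.Agent.P235.Red.W3 Vale.Agent.P235.Quo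

/-- the tight vertex form for terminals, one source -/
def CoreL (K₀ : ℝ) : Prop :=
  ∀ {C : ℝ}, 1 ≤ C → MStarLL C → ∀ (V : Type) [Finite V] (G : SimpleGraph V)
    (σ : Equiv.Perm G.Dart) (ℓ : Sym2 V → ℝ) (h : V → ℝ) (L : Set V) (s : V) (B : Set V),
    G.Connected → PlaneMap G σ → (∀ e ∈ G.edgeSet, 0 < ℓ e) → s ∈ L →
    (∀ u ∈ L, ∀ v ∈ L, |h u - h v| ≤ pathDist G ℓ u v) →
    (∀ v ∈ L, v ≠ s → ∃ u, FewT.T G ℓ h L u v) → (∀ v ∈ L, v ∉ B → ∃ u, FewT.T G ℓ h L v u) →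
    EmbedsL1 (fun u v : L => pathDist G ℓ u v)
      (K₀ * C * ((ll (Nat.card V) : ℝ) + 1 + √(Real.log ((B.ncard : ℝ) + 2))))

/-- the bound -/
noncomputable def bd (K : ℝ) (n b : ℕ) : ℝ :=
  K * ((ll n : ℝ) + 1 + √(Real.log ((b : ℝ) + 2)))

theorem bd_mono {K : ℝ} (hK : 0 ≤ K) (n n' b b' : ℕ) (hn : n ≤ n') (hb : b ≤ b') :
    bd K n b ≤ bd K n' b' := by
  have h2 : (ll n : ℝ) ≤ ll n' := by exact_mod_cast ll_mono' hn
  have hb' : (b : ℝ) ≤ b' := by exact_mod_cast hb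
  have hb0 : (0 : ℝ) ≤ b := Nat.cast_nonneg _
  have h3 : √(Real.log ((b : ℝ) + 2)) ≤ √(Real.log ((b' : ℝ) + 2)) :=
    Real.sqrt_le_sqrt (Real.log_le_log (by linarith) (by linarith))
  exact mul_le_mul_of_nonneg_left (by linarith) hK

theorem core_vform {K₀ : ℝ} (hK₀ : 0 ≤ K₀) (hcore : CoreL K₀) {C : ℝ} (hC : 1 ≤ C)
    (hM : MStarLL C) {D : ℝ} (hD : 1 ≤ D) : VForm D 1 (bd (K₀ * C * D)) := by
  intro V _ G σ ℓ h L A B hP hW hA
  rcases L.eq_empty_or_nonempty with rfl | hL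
  · exact embeds_empty _
  obtain ⟨s, hsA, hs⟩ := hW.bot_nonempty (by linarith) hL
  have hAs : A = {s} := by
    apply Set.eq_singleton_iff_unique_mem.2
    exact ⟨hsA, fun x hx => (Set.ncard_le_one (Set.toFinite A)).1 hA x hx s hsA⟩
  subst hAs
  obtain ⟨ℓ₁, h1, h2, h3, h4, h5⟩ := FewT.shrT hD hW
  have hE := hcore hC hM V G σ ℓ₁ h L s B hW.conn hP h1 hs h2 (fun v hv hvs => h3 v hv hvs) h4
  have h6 := h5 _ (by positivity) hE
  have h7 : D * (K₀ * C * ((ll (Nat.card V) : ℝ) + 1 + √(Real.log ((B.ncard : ℝ) + 2)))) =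
      bd (K₀ * C * D) (Nat.card V) B.ncard := by
    unfold bd
    ring
  rwa [h7] at h6

/-- source = one vertex -/
theorem peaks_v {K₀ : ℝ} (hK₀ : 0 ≤ K₀) (hcore : CoreL K₀) {C : ℝ} (hC : 1 ≤ C)
    (hM : MStarLL C) {D : ℝ} (hD : 1 ≤ D) (V : Type) [Finite V] (G : SimpleGraph V)
    (σ : Equiv.Perm G.Dart) (ℓ : Sym2 V → ℝ) (h : V → ℝ) (L : Set V) (s : V) (B : Set V)
    (M : Finset G.Dart) (hP : PlaneMap G σ) (hW : WideL G ℓ h D L {s} (B ∪ onM σ M)) :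
    EmbedsL1 (fun u v : L => pathDist G ℓ u v)
      (bd (K₀ * C * D) (2 * Nat.card V) (B.ncard + M.card)) :=
  faces_of' hD (bd_mono (by positivity)) (core_vform hK₀ hcore hC hM hD) V G σ ℓ h L {s} B M hP hW
    (by rw [Set.ncard_singleton])

/-- source = one face, which is not one of the faces of `M` -/
theorem peaks_f {K₀ : ℝ} (hK₀ : 0 ≤ K₀) (hcore : CoreL K₀) {C : ℝ} (hC : 1 ≤ C)
    (hM : MStarLL C) {D : ℝ} (hD : 1 ≤ D) (V : Type) [Finite V] (G : SimpleGraph V)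
    (σ : Equiv.Perm G.Dart) (ℓ : Sym2 V → ℝ) (h : V → ℝ) (L : Set V) (d₁ : G.Dart) (B : Set V)
    (M : Finset G.Dart) (hd : ∀ m ∈ M, ¬ (faceNext σ).SameCycle d₁ m)
    (hP : PlaneMap G σ) (hW : WideL G ℓ h D L (onFace σ d₁) (B ∪ onM σ M)) :
    EmbedsL1 (fun u v : L => pathDist G ℓ u v)
      (bd (K₀ * C * D) (2 * (Nat.card V + 1)) (B.ncard + M.card)) := by
  classical
  rcases L.eq_empty_or_nonempty with rfl | hL
  · exact embeds_empty _
  have hne : Nonempty V := ⟨d₁.fst⟩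
  set T : Set V := onFace σ d₁ ∩ L with hTdef
  have hT : T.Nonempty := hW.bot_nonempty (by linarith) hL
  obtain ⟨σ', hP', h0⟩ := R2.H582.rowCap2 V G σ d₁ T hW.conn hP hT Set.inter_subset_left
  have hnd : Nonempty (capG G T).Dart := by
    obtain ⟨x, hx⟩ := hT
    have ha : (capG G T).Adj none (some x) := hx
    exact ⟨⟨(none, some x), ha⟩⟩
  choose! d' hd' using h0
  obtain ⟨M₀, H, h1, h2⟩ := exists_height G ℓ (fun v => - h v)
  have hW1 : WideL G ℓ (fun v => - h v) D L (B ∪ onM σ M) (∅ ∪ T) := widen hW.neg (by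
    intro v hv h3
    exact Or.inr ⟨h3, hv⟩)
  have hW2 := (capT hW1 hD hT Set.inter_subset_right h1 h2).neg
  rw [Set.image_empty, Set.empty_union] at hW2
  have hW3 : WideL (capG G T) (capL ℓ (fun v => - h v) H) (fun v => - capH (fun v => - h v) H v) D
      (capSet L) {none} (some '' B ∪ onM σ' (M.image d')) := widen hW2 (by
    rintro v hv ⟨w, hw | ⟨m', hm', hw⟩, rfl⟩
    · exact Or.inl ⟨w, hw, rfl⟩
    · exact Or.inr ⟨d' m', Finset.mem_image_of_mem _ hm', hd' m' (hd m' hm') w hw⟩)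
  have hE := peaks_v hK₀ hcore hC hM hD (Option V) (capG G T) σ' _ _ (capSet L) none
    (some '' B) (M.image d') hP' hW3
  have hE' := embeds_restrict (fun u : L => (⟨some u, Or.inr ⟨u, u.2, rfl⟩⟩ : capSet L))
    (fun x y => cap_dist hW.conn hW.pos hT h1 h2 x y) hE
  obtain ⟨Ω, m, μ, f, hf⟩ := hE'
  refine ⟨Ω, m, μ, f, fun x y => ⟨(hf x y).1, (hf x y).2.trans
    (mul_le_mul_of_nonneg_right ?_ (d_nonneg hW.pos _ _))⟩⟩
  refine bd_mono (by positivity) _ _ _ _ ?_ ?_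
  · rw [Finite.card_option]
  · rw [Set.ncard_image_of_injective B (Option.some_injective V)]
    exact Nat.add_le_add_left Finset.card_image_le _

/-- the final bound -/
theorem bd_le {K : ℝ} (hK : 0 ≤ K) {n m b : ℕ} (hn : 1 ≤ n) (hm : m ≤ n + n ^ 2) :
    bd K m b ≤ 3 * K * ((ll n : ℝ) + 1 + √(Real.log ((b : ℝ) + 2))) := by
  have h1 : (ll m : ℝ) ≤ (ll n : ℝ) + 2 := by exact_mod_cast ll_add_sq n hn hm
  have h2 : (0 : ℝ) ≤ ll n := Nat.cast_nonneg _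
  have h3 := Real.sqrt_nonneg (Real.log ((b : ℝ) + 2))
  have h4 : (ll m : ℝ) + 1 + √(Real.log ((b : ℝ) + 2)) ≤
      3 * ((ll n : ℝ) + 1 + √(Real.log ((b : ℝ) + 2))) := by linarith
  have h5 := mul_le_mul_of_nonneg_left h4 hK
  unfold bd
  linarith

/-- **Terminals with one source.**  `G` is any plane graph with positive lengths, `L` any set of
vertices (terminals), `h` nonexpansive on `L`; the source is a vertex or a face; every terminal off
the source has a neighbour in `L` with slope at least `1/D` downwards; every terminal has one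
upwards, or is in `B` or on one of the faces of `M`. -/
theorem peaks_of {K₀ : ℝ} (hK₀ : 0 ≤ K₀) (hcore : CoreL K₀) {C : ℝ} (hC : 1 ≤ C)
    (hM : MStarLL C) (V : Type) [Finite V] (G : SimpleGraph V)
    (σ : Equiv.Perm G.Dart) (ℓ : Sym2 V → ℝ) (h : V → ℝ) (L S : Set V) (B : Finset V)
    (M : Finset G.Dart) (D : ℝ) (hD : 1 ≤ D) (hc : G.Connected) (hP : PlaneMap G σ)
    (hℓ : ∀ e ∈ G.edgeSet, 0 < ℓ e)
    (hS : (∃ s, S = {s}) ∨ ∃ d₁, S = onFace σ d₁ ∧ ∀ m ∈ M, ¬ (faceNext σ).SameCycle d₁ m)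
    (h1 : ∀ u ∈ L, ∀ v ∈ L, |h u - h v| ≤ pathDist G ℓ u v)
    (hlow : ∀ v ∈ L, v ∉ S → ∃ u ∈ L, G.Adj v u ∧ ℓ s(v, u) ≤ D * (h v - h u))
    (hhigh : ∀ v ∈ L, (∃ u ∈ L, G.Adj v u ∧ ℓ s(v, u) ≤ D * (h u - h v)) ∨ v ∈ B ∨
      ∃ m ∈ M, v ∈ onFace σ m) :
    EmbedsL1 (fun u v : L => pathDist G ℓ u v) (3 * (K₀ * C * D) *
      ((ll (Nat.card V) : ℝ) + 1 + √(Real.log (((B.card + M.card : ℕ) : ℝ) + 2)))) := by
  have hne : Nonempty V := hc.nonempty
  have hcard : 1 ≤ Nat.card V := Nat.card_pos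
  obtain ⟨a, b, hab⟩ := planeMap_adj hc hP
  have hcard2 : 2 ≤ Nat.card V := by
    have := Fintype.ofFinite V
    rw [Nat.card_eq_fintype_card]
    exact Fintype.one_lt_card_iff.2 ⟨a, b, hab.ne⟩
  have hW : WideL G ℓ h D L S ((B : Set V) ∪ onM σ M) := ⟨hc, hℓ, h1, hlow, fun v hv hvB => by
    rcases hhigh v hv with h2 | h2 | h2
    · exact h2
    · exact absurd (Or.inl h2) hvB
    · exact absurd (Or.inr h2) hvB⟩
  have hK : 0 ≤ K₀ * C * D := by positivity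
  have hBc : (B : Set V).ncard = B.card := Set.ncard_coe_finset B
  rcases hS with ⟨s, rfl⟩ | ⟨d₁, rfl, hd⟩
  · have hE := peaks_v hK₀ hcore hC hM hD V G σ ℓ h L s (B : Set V) M hP hW
    obtain ⟨Ω, m, μ, f, hf⟩ := hE
    refine ⟨Ω, m, μ, f, fun x y => ⟨(hf x y).1, (hf x y).2.trans
      (mul_le_mul_of_nonneg_right ?_ (d_nonneg hℓ _ _))⟩⟩
    rw [hBc]
    exact bd_le hK hcard (by nlinarith)
  · have hE := peaks_f hK₀ hcore hC hM hD V G σ ℓ h L d₁ (B : Set V) M hd hP hW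
    obtain ⟨Ω, m, μ, f, hf⟩ := hE
    refine ⟨Ω, m, μ, f, fun x y => ⟨(hf x y).1, (hf x y).2.trans
      (mul_le_mul_of_nonneg_right ?_ (d_nonneg hℓ _ _))⟩⟩
    rw [hBc]
    exact bd_le hK hcard (by nlinarith)

end Vale.Agent.P235.R2.H582.FaceT
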