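import Vale.Agent.P235.R2.H582.Peaks
import Vale.Agent.P235.R2.H582.EndsT
import Vale.Agent.P235.R2.H611.T5d
import Vale.Agent.P235.R2.RED.Classes2
import Vale.Agent.P235.R2.H802.FewCl

/-!
P235-M (helper582).  Few peaks and few ends, terminals: final forms (only the words theorem is a
hypothesis).
-/

set_option autoImplicit false
set_option linter.all false

namespace Vale.Agent.P235.R2.H582.FaceT

open SimpleGraph Vale.Agent.P235 Vale.Agent.P235.Red Vale.Agent.P235.Red.F0 Vale.Agent.P235.Tight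
  Vale.Agent.P235.H341W Vale.Agent.P235.Red.W3 Vale.Agent.P235.Quo

/-- helper611's theorem as the row `CoreL` -/
theorem coreL : CoreL (10 ^ 22) := by
  intro C hC hM V _ G σ ℓ h L s B hc hP hℓ hs h1 hlow hhigh
  classical
  have := Fintype.ofFinite V
  have hE := T5.terminals_sqrt_tight hC hM V G σ ℓ h L s hs B.toFinset hc hP hℓ h1 hlow
    (fun v hv hvB => hhigh v hv fun h2 => hvB (Set.mem_toFinset.2 h2))
  rwa [← Set.ncard_eq_toFinset_card'] at hE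

/-- **Terminals with one source.**  `G` is any plane graph with positive lengths, `L` any set of
vertices (terminals), `h` nonexpansive on `L`; the source is a vertex or a face; every terminal off
the source has a neighbour in `L` with slope at least `1/D` downwards; every terminal has one
upwards, or is in `B` or on one of the faces of `M`. -/
theorem peaks {C : ℝ} (hC : 1 ≤ C)
    (hM : MStarLL C) (V : Type) [Finite V] (G : SimpleGraph V)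
    (σ : Equiv.Perm G.Dart) (ℓ : Sym2 V → ℝ) (h : V → ℝ) (L S : Set V) (B : Finset V)
    (M : Finset G.Dart) (D : ℝ) (hD : 1 ≤ D) (hc : G.Connected) (hP : PlaneMap G σ)
    (hℓ : ∀ e ∈ G.edgeSet, 0 < ℓ e)
    (hS : (∃ s, S = {s}) ∨ ∃ d₁, S = onFace σ d₁ ∧ ∀ m ∈ M, ¬ (faceNext σ).SameCycle d₁ m)
    (h1 : ∀ u ∈ L, ∀ v ∈ L, |h u - h v| ≤ pathDist G ℓ u v)
    (hlow : ∀ v ∈ L, v ∉ S → ∃ u ∈ L, G.Adj v u ∧ ℓ s(v, u) ≤ D * (h v - h u))
    (hhigh : ∀ v ∈ L, (∃ u ∈ L, G.Adj v u ∧ ℓ s(v, u) ≤ D * (h u - h v)) ∨ v ∈ B ∨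
      ∃ m ∈ M, v ∈ onFace σ m) :
    EmbedsL1 (fun u v : L => pathDist G ℓ u v) (3 * (10 ^ 22 * C * D) *
      ((ll (Nat.card V) : ℝ) + 1 + √(Real.log (((B.card + M.card : ℕ) : ℝ) + 2)))) :=
  peaks_of (by positivity) coreL hC hM V G σ ℓ h L S B M D hD hc hP hℓ hS h1 hlow hhigh

/-- the class `FewPeaks` -/
theorem peaks_class {C : ℝ} (hC : 1 ≤ C) (hM : MStarLL C) {V : Type} [Finite V]
    {G : SimpleGraph V} {ℓ : Sym2 V → ℝ} {D : ℝ} (hD : 1 ≤ D) {L : Set V} {g : ℕ}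
    (hc : G.Connected) (hℓ : ∀ e ∈ G.edgeSet, 0 < ℓ e) (h : Pk.FewPeaks G ℓ D L g) :
    EmbedsL1 (fun u v : L => pathDist G ℓ u v) (3 * (10 ^ 22 * C * D) *
      ((ll (Nat.card V) : ℝ) + 1 + √(Real.log ((g : ℝ) + 2)))) := by
  obtain ⟨σ, h, S, B, M, hP, hg, hS, h1, hlow, hhigh⟩ := h
  have hE := peaks hC hM V G σ ℓ h L S B M D hD hc hP hℓ hS h1 hlow hhigh
  obtain ⟨Ω, m, μ, f, hf⟩ := hE
  refine ⟨Ω, m, μ, f, fun x y => ⟨(hf x y).1, (hf x y).2.trans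
    (mul_le_mul_of_nonneg_right ?_ (d_nonneg hℓ _ _))⟩⟩
  refine mul_le_mul_of_nonneg_left ?_ (by positivity)
  have hg' : ((B.card + M.card : ℕ) : ℝ) ≤ g := by exact_mod_cast hg
  have h0 : (0 : ℝ) ≤ ((B.card + M.card : ℕ) : ℝ) := Nat.cast_nonneg _
  have h3 := Real.sqrt_le_sqrt (Real.log_le_log (show (0 : ℝ) < ((B.card + M.card : ℕ) : ℝ) + 2 by
    linarith) (show ((B.card + M.card : ℕ) : ℝ) + 2 ≤ (g : ℝ) + 2 by linarith))
  linarith

/-- the class `FewEnds` -/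
theorem ends_class {C : ℝ} (hC : 1 ≤ C) (hM : MStarLL C) {V : Type} [Finite V]
    {G : SimpleGraph V} {ℓ : Sym2 V → ℝ} {D : ℝ} (hD : 1 ≤ D) {L : Set V} {g : ℕ}
    (hc : G.Connected) (hℓ : ∀ e ∈ G.edgeSet, 0 < ℓ e) (h : Pk.FewEnds G ℓ D L g) :
    EmbedsL1 (fun u v : L => pathDist G ℓ u v) (1600000000000000 * C * D *
      ((ll (Nat.card V) : ℝ) + 1 + Real.log ((g : ℝ) + 2))) := by
  obtain ⟨σ, h, A, B, M₁, M₂, hP, hg, hsep, h1, hlow, hhigh⟩ := h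
  have hE := ends_terminals hC hM V G σ ℓ h L A B M₁ M₂ D hD hc hP hℓ hsep h1 hlow hhigh
  obtain ⟨Ω, m, μ, f, hf⟩ := hE
  refine ⟨Ω, m, μ, f, fun x y => ⟨(hf x y).1, (hf x y).2.trans
    (mul_le_mul_of_nonneg_right ?_ (d_nonneg hℓ _ _))⟩⟩
  refine mul_le_mul_of_nonneg_left ?_ (by positivity)
  have hg' : ((A.card + B.card + M₁.card + M₂.card : ℕ) : ℝ) ≤ g := by exact_mod_cast hg
  have h0 : (0 : ℝ) ≤ ((A.card + B.card + M₁.card + M₂.card : ℕ) : ℝ) := Nat.cast_nonneg _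
  have h3 := Real.log_le_log
    (show (0 : ℝ) < ((A.card + B.card + M₁.card + M₂.card : ℕ) : ℝ) + 2 by linarith)
    (show ((A.card + B.card + M₁.card + M₂.card : ℕ) : ℝ) + 2 ≤ (g : ℝ) + 2 by linarith)
  linarith

/-- **All shortest paths from one vertex to few faces of an arbitrary plane graph.** -/
theorem geo_faces_sqrt {C : ℝ} (hC : 1 ≤ C) (hM : MStarLL C) (V : Type) [Finite V]
    (G : SimpleGraph V) (σ : Equiv.Perm G.Dart) (ℓ : Sym2 V → ℝ) (r : V)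
    (M : Finset G.Dart) (hc : G.Connected) (hP : PlaneMap G σ) (hℓ : ∀ e ∈ G.edgeSet, 0 < ℓ e) :
    EmbedsL1 (fun u v : geo G ℓ r (onM σ M) => pathDist G ℓ u v) (3 * (10 ^ 22 * C) *
      ((ll (Nat.card V) : ℝ) + 1 + √(Real.log ((M.card : ℝ) + 2)))) := by
  have hE := peaks hC hM V G σ ℓ (pathDist G ℓ r) (geo G ℓ r (onM σ M)) {r} ∅ M 1 le_rfl
    hc hP hℓ (Or.inl ⟨r, rfl⟩) (fun u _ v _ => geo_lip hc hℓ r u v)
    (fun v hv hvr => by
      obtain ⟨u, hu, ha, h2⟩ := geo_low hc hℓ hv hvr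
      exact ⟨u, hu, ha, by rwa [one_mul]⟩)
    (fun v hv => by
      by_cases hvM : v ∈ onM σ M
      · exact Or.inr (Or.inr hvM)
      · obtain ⟨u, hu, ha, h2⟩ := geo_high hc hℓ hv hvM
        exact Or.inl ⟨u, hu, ha, by rwa [one_mul]⟩)
  rw [mul_one, Finset.card_empty, zero_add] at hE
  exact hE

theorem LL_eq (n : ℕ) : Swp.LL n = (ll n : ℝ) + 1 := rfl

/-- clause of the hand-in: `FewPeaks`, terminals -/
theorem peaks_LL {C : ℝ} (hC : 1 ≤ C) (hM : MStarLL C) {V : Type} [Finite V]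
    {G : SimpleGraph V} {ℓ : Sym2 V → ℝ} {D : ℝ} (hD : 1 ≤ D) (hc : G.Connected)
    (hℓ : ∀ e ∈ G.edgeSet, 0 < ℓ e) :
    ∀ (L : Set V) (g : ℕ), Pk.FewPeaks G ℓ D L g →
      EmbedsL1 (fun u v : L => pathDist G ℓ u v)
        (3 * 10 ^ 22 * C * D * (Swp.LL (Nat.card V) + √(Real.log ((g : ℝ) + 2)))) := by
  intro L g h
  have hE := peaks_class hC hM hD hc hℓ h
  rw [LL_eq]
  convert hE using 1
  ring

/-- clause of the hand-in: `FewEnds`, terminals -/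
theorem ends_LL {C : ℝ} (hC : 1 ≤ C) (hM : MStarLL C) {V : Type} [Finite V]
    {G : SimpleGraph V} {ℓ : Sym2 V → ℝ} {D : ℝ} (hD : 1 ≤ D) (hc : G.Connected)
    (hℓ : ∀ e ∈ G.edgeSet, 0 < ℓ e) :
    ∀ (L : Set V) (g : ℕ), Pk.FewEnds G ℓ D L g →
      EmbedsL1 (fun u v : L => pathDist G ℓ u v)
        (3 * 10 ^ 22 * C * D * (Swp.LL (Nat.card V) + Real.log ((g : ℝ) + 2))) := by
  intro L g h
  have hE := ends_class hC hM hD hc hℓ h
  obtain ⟨Ω, m, μ, f, hf⟩ := hE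
  refine ⟨Ω, m, μ, f, fun x y => ⟨(hf x y).1, (hf x y).2.trans
    (mul_le_mul_of_nonneg_right ?_ (d_nonneg hℓ _ _))⟩⟩
  rw [LL_eq]
  have h2 : 0 ≤ Real.log ((g : ℝ) + 2) :=
    Real.log_nonneg (by linarith [show (0 : ℝ) ≤ g from Nat.cast_nonneg g])
  have h3 : (0 : ℝ) ≤ (ll (Nat.card V) : ℝ) := Nat.cast_nonneg _
  refine mul_le_mul_of_nonneg_right ?_ (by linarith)
  nlinarith [mul_nonneg (show (0:ℝ) ≤ C by linarith) (show (0:ℝ) ≤ D by linarith)]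

/-- clause of the hand-in: `FewPeaks` for the whole graph -/
theorem peaks_univ {C : ℝ} (hC : 1 ≤ C) (hM : MStarLL C) {V : Type} [Finite V]
    {G : SimpleGraph V} {ℓ : Sym2 V → ℝ} {D : ℝ} (hD : 1 ≤ D) (hc : G.Connected)
    (hℓ : ∀ e ∈ G.edgeSet, 0 < ℓ e) {g : ℕ} (h : Pk.FewPeaks G ℓ D Set.univ g) :
    EmbedsL1 (pathDist G ℓ)
      (3 * 10 ^ 22 * C * D * (Swp.LL (Nat.card V) + √(Real.log ((g : ℝ) + 2)))) := by
  obtain ⟨Ω, m, μ, f, hf⟩ := peaks_LL hC hM hD hc hℓ _ g h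
  exact ⟨Ω, m, μ, fun x => f ⟨x, trivial⟩, fun x y => hf ⟨x, trivial⟩ ⟨y, trivial⟩⟩

end Vale.Agent.P235.R2.H582.FaceT
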