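import Vale.Agent.P235.R2.H582.Wide
import Vale.Agent.P235.R2.H341.X6
import Vale.Agent.P235.R2.H907.Sub

/-!
P235-M, W7 wide (helper582): plane graphs with slack edges; only the words theorem is a hypothesis.
-/

set_option autoImplicit false
set_option linter.all false

namespace Vale.Agent.P235.R2.H582

open Vale.Agent.P235 Vale.Agent.P235.Red Vale.Agent.P235.H341W

theorem rowMQ : RowMQ := rowMQ_of R2.H907.rowSub

/-- **few faces, with slack edges**: `h` is nonexpansive; every vertex but `s` has an edge of slope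
at least `1/D` down; every vertex has an edge of slope at least `1/D` up or is on one of the faces
of `M`; every edge has slope at least `1/D` or is a side of one of the faces of `M`. -/
theorem plane_faces_slack {C : ℝ} (hC : 1 ≤ C) (hMS : MStarLL C) (V : Type)
    [Finite V] (G : SimpleGraph V) (σ : Equiv.Perm G.Dart) (ℓ : Sym2 V → ℝ) (h : V → ℝ) (s : V)
    (D : ℝ) (hD : 1 ≤ D) (M : Finset G.Dart) (hM : M.Nonempty) (hc : G.Connected)
    (hP : PlaneMap G σ) (hℓ : ∀ e ∈ G.edgeSet, 0 < ℓ e)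
    (h1 : ∀ u v, G.Adj u v → |h u - h v| ≤ ℓ s(u, v))
    (hlow : ∀ v, v ≠ s → ∃ u, G.Adj v u ∧ ℓ s(v, u) ≤ D * (h v - h u))
    (hhigh : ∀ v, (∃ u, G.Adj v u ∧ ℓ s(v, u) ≤ D * (h u - h v)) ∨ ∃ m ∈ M, v ∈ onFace σ m)
    (hslack : ∀ d : G.Dart, ℓ s(d.fst, d.snd) ≤ D * |h d.fst - h d.snd| ∨
      ∃ m ∈ M, (faceNext σ).SameCycle m d ∨ (faceNext σ).SameCycle m d.symm) :
    EmbedsL1 (pathDist G ℓ)
      (315500000000000 * C * D * ((ll (Nat.card V) : ℝ) + 1 + Real.log (M.card + 2))) :=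
  Wd.plane_faces_wide hC hMS rowMQ V G σ ℓ h s D hD M hM hc hP hℓ h1 hlow hhigh hslack

/-- **few faces, distance from a root**: `(G, ℓ)` is any plane graph with lengths, `r` any vertex,
and the faces of `M` contain all local maxima of the distance from `r`, on vertices and inside
edges. -/
theorem plane_root {C : ℝ} (hC : 1 ≤ C) (hMS : MStarLL C) (V : Type)
    [Finite V] (G : SimpleGraph V) (σ : Equiv.Perm G.Dart) (ℓ : Sym2 V → ℝ) (r : V)
    (M : Finset G.Dart) (hM : M.Nonempty) (hc : G.Connected)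
    (hP : PlaneMap G σ) (hℓ : ∀ e ∈ G.edgeSet, 0 < ℓ e)
    (hhigh : ∀ v, (∃ u, G.Adj v u ∧ pathDist G ℓ r u = pathDist G ℓ r v + ℓ s(v, u)) ∨
      ∃ m ∈ M, v ∈ onFace σ m)
    (hslack : ∀ d : G.Dart, pathDist G ℓ r d.snd = pathDist G ℓ r d.fst + ℓ s(d.fst, d.snd) ∨
      pathDist G ℓ r d.fst = pathDist G ℓ r d.snd + ℓ s(d.fst, d.snd) ∨
      ∃ m ∈ M, (faceNext σ).SameCycle m d ∨ (faceNext σ).SameCycle m d.symm) :
    EmbedsL1 (pathDist G ℓ)
      (315500000000000 * C * ((ll (Nat.card V) : ℝ) + 1 + Real.log (M.card + 2))) :=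
  Wd.plane_root_wide hC hMS rowMQ V G σ ℓ r M hM hc hP hℓ hhigh hslack

end Vale.Agent.P235.R2.H582
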